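import Mathlib

/-!
# P358 : subadditivity of the Shannon entropy
-/

namespace Vale.Agent.P358

theorem shannon_two {α β : Type*} [Fintype α] [Fintype β] (p : α × β → ℝ) (hp : ∀ x, 0 ≤ p x)
    (hs : ∑ x, p x = 1) :
    ∑ x, Real.negMulLog (p x) ≤ ∑ a, Real.negMulLog (∑ b, p (a, b)) +
      ∑ b, Real.negMulLog (∑ a, p (a, b)) := by
  set p1 : α → ℝ := fun a => ∑ b, p (a, b) with hp1
  set c : α → β → ℝ := fun a b => p (a, b) / p1 a with hc
  have hp1n : ∀ a, 0 ≤ p1 a := fun a => Finset.sum_nonneg fun b _ => hp _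
  have hpc : ∀ a b, p (a, b) = p1 a * c a b := by
    intro a b
    by_cases h : p1 a = 0
    · have : p (a, b) = 0 := (Finset.sum_eq_zero_iff_of_nonneg (fun b _ => hp (a, b))).1 h b
        (Finset.mem_univ b)
      simp [this, h]
    · simp only [hc]; field_simp
  have hcn : ∀ a b, 0 ≤ c a b := fun a b => div_nonneg (hp _) (hp1n _)
  have h1 : ∑ x, Real.negMulLog (p x) = ∑ a, Real.negMulLog (p1 a) +
      ∑ b, ∑ a, p1 a * Real.negMulLog (c a b) := by
    rw [Fintype.sum_prod_type, Finset.sum_comm (s := (Finset.univ : Finset β)),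
      ← Finset.sum_add_distrib]
    refine Finset.sum_congr rfl fun a _ => ?_
    have : ∀ b, Real.negMulLog (p (a, b)) =
        c a b * Real.negMulLog (p1 a) + p1 a * Real.negMulLog (c a b) := by
      intro b
      rw [hpc a b, Real.negMulLog_mul]
    simp only [this, Finset.sum_add_distrib, ← Finset.sum_mul]
    congr 1
    by_cases h : p1 a = 0
    · simp [h]
    · have : ∑ b, c a b = 1 := by
        simp only [hc, ← Finset.sum_div]
        exact div_self h
      rw [this, one_mul]
  rw [h1]
  gcongr with b _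
  have h2 := Real.concaveOn_negMulLog.le_map_sum (t := Finset.univ) (w := p1)
    (p := fun a => c a b) (fun a _ => hp1n a) (by rw [← hs, Fintype.sum_prod_type])
    (fun a _ => hcn a b)
  simp only [smul_eq_mul] at h2
  simpa only [hpc] using h2

theorem shannon_sub (n : ℕ) (p : (Fin n → Fin 2) → ℝ) (hp : ∀ x, 0 ≤ p x)
    (hs : ∑ x, p x = 1) :
    ∑ x, Real.negMulLog (p x) ≤ ∑ i, Real.binEntropy (∑ x, if x i = 1 then p x else 0) := by
  induction n with
  | zero =>
    have : ∀ x, p x = 1 := by
      intro x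
      rw [← hs]
      rw [Finset.sum_eq_single x]
      · intro y _ hy; exact absurd (Subsingleton.elim y x) hy
      · intro h; exact absurd (Finset.mem_univ x) h
    simp [this]
  | succ n ih =>
    set e := Fin.consEquiv (n := n) (fun _ => Fin 2) with he
    have key := shannon_two (fun z : Fin 2 × (Fin n → Fin 2) => p (e z)) (fun _ => hp _)
      (by rw [e.sum_comp p]; exact hs)
    have h1 : ∑ x, Real.negMulLog (p x) = ∑ z, Real.negMulLog (p (e z)) :=
      (e.sum_comp (fun x => Real.negMulLog (p x))).symm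
    rw [h1]
    refine key.trans ?_
    rw [Fin.sum_univ_succ (fun i : Fin (n + 1) =>
      Real.binEntropy (∑ x : Fin (n + 1) → Fin 2, if x i = 1 then p x else 0))]
    have hsum : ∑ a : Fin 2, ∑ y : Fin n → Fin 2, p (e (a, y)) = 1 := by
      rw [← Fintype.sum_prod_type (f := fun z => p (e z)), e.sum_comp p, hs]
    have h0 : ∑ x : Fin (n + 1) → Fin 2, (if x 0 = 1 then p x else 0) =
        ∑ y : Fin n → Fin 2, p (e (1, y)) := by
      rw [← e.sum_comp, Fintype.sum_prod_type, Fin.sum_univ_two]
      simp [he, Fin.consEquiv]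
    have hS : ∀ i : Fin n, ∑ x : Fin (n + 1) → Fin 2, (if x i.succ = 1 then p x else 0) =
        ∑ y : Fin n → Fin 2, if y i = 1 then ∑ a, p (e (a, y)) else 0 := by
      intro i
      rw [← e.sum_comp, Fintype.sum_prod_type, Finset.sum_comm]
      refine Finset.sum_congr rfl fun y _ => ?_
      by_cases h : y i = 1
      · simp [he, Fin.consEquiv, h]
      · simp [he, Fin.consEquiv, h]
    have hA : ∑ a : Fin 2, Real.negMulLog (∑ y, p (e (a, y))) =
        Real.binEntropy (∑ x : Fin (n + 1) → Fin 2, (if x 0 = 1 then p x else 0)) := by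
      rw [h0, Fin.sum_univ_two, Real.binEntropy_eq_negMulLog_add_negMulLog_one_sub]
      rw [Fin.sum_univ_two] at hsum
      have : ∑ y, p (e (0, y)) = 1 - ∑ y, p (e (1, y)) := by linarith
      rw [this, add_comm]
    rw [← hA]
    gcongr
    simp only [hS]
    refine ih (fun y => ∑ a, p (e (a, y))) (fun y => Finset.sum_nonneg fun a _ => hp _) ?_
    rw [Finset.sum_comm]
    exact hsum

end Vale.Agent.P358
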