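import Vale.Agent.P358.OneLetter
import Vale.Agent.P358.Shannon

/-!
# P358 : assembly: additivity of the Holevo capacity
-/

namespace Vale.Agent.P358

open Matrix
open scoped ComplexOrder

section Basics

variable {m : Type*} [Fintype m]

theorem trace_re_nonneg {A : Matrix m m ℂ} (hA : A.PosSemidef) : 0 ≤ A.trace.re :=
  (Complex.nonneg_iff.1 hA.trace_nonneg).1

theorem trace_ofReal {A : Matrix m m ℂ} (hA : A.PosSemidef) : ((A.trace.re : ℝ) : ℂ) = A.trace := by
  apply Complex.ext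
  · simp
  · simp [← (Complex.nonneg_iff.1 hA.trace_nonneg).2]

/-- normalisation of a positive semidefinite matrix. -/
theorem exists_normalize {A : Matrix m m ℂ} (hA : A.PosSemidef) (h : A.trace.re ≠ 0) :
    ∃ B : Matrix m m ℂ, IsState B ∧ A = ((A.trace.re : ℝ) : ℂ) • B := by
  have ht := trace_re_nonneg hA
  have hne : ((A.trace.re : ℝ) : ℂ) ≠ 0 := by exact_mod_cast h
  refine ⟨((A.trace.re⁻¹ : ℝ) : ℂ) • A, ⟨hA.smul (by exact_mod_cast inv_nonneg.2 ht), ?_⟩, ?_⟩
  · rw [Matrix.trace_smul, smul_eq_mul, ← trace_ofReal hA]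
    simp [hne]
  · rw [smul_smul, ← Complex.ofReal_mul, mul_inv_cancel₀ h]
    simp

theorem eq_zero_of_trace {A : Matrix m m ℂ} (hA : A.PosSemidef) (h : A.trace.re = 0) : A = 0 := by
  have : A.trace = 0 := by rw [← trace_ofReal hA, h]; simp
  exact hA.trace_eq_zero_iff.1 this

variable [DecidableEq m]

theorem cent_of_state {A : Matrix m m ℂ} (hA : IsState A) : cent A = ent A := by
  rw [cent, hA.2]; simp

theorem cent_nonneg {A : Matrix m m ℂ} (hA : A.PosSemidef) : 0 ≤ cent A := by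
  by_cases h : A.trace.re = 0
  · rw [eq_zero_of_trace hA h, cent_zero]
  · obtain ⟨B, hB, hAB⟩ := exists_normalize hA h
    rw [hAB, cent_smul hB.1.1, cent_of_state hB]
    exact mul_nonneg (trace_re_nonneg hA) (ent_nonneg hB.1 (by rw [hB.2]; simp))

end Basics

section Chan

variable {γ ν : ℝ}

theorem tensorPow_state (hγ : γ ∈ Set.Icc (0 : ℝ) 1) (hν : ν ∈ Set.Icc (0 : ℝ) 1) (n : ℕ)
    {ρ : Matrix (Fin n → Fin 2) (Fin n → Fin 2) ℂ} (hρ : IsState ρ) :
    IsState (tensorPow (gadc γ ν) n ρ) :=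
  ⟨tensorPow_psd (gadc_isKraus hγ hν) n hρ.1, by rw [trace_tensorPow, hρ.2]⟩

theorem pop_smul {n : ℕ} (i : Fin n) (c : ℝ) (ρ : Matrix (Fin n → Fin 2) (Fin n → Fin 2) ℂ) :
    pop i ((c : ℂ) • ρ) = c * pop i ρ := by
  unfold pop
  rw [Finset.mul_sum]
  refine Finset.sum_congr rfl fun x _ => ?_
  split_ifs
  · simp
  · simp

theorem pop_zero_mat {n : ℕ} (i : Fin n) :
    pop i (0 : Matrix (Fin n → Fin 2) (Fin n → Fin 2) ℂ) = 0 := by
  simp [pop]

theorem pop_mem {n : ℕ} (i : Fin n) {ρ : Matrix (Fin n → Fin 2) (Fin n → Fin 2) ℂ}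
    (hρ : IsState ρ) : pop i ρ ∈ Set.Icc (0 : ℝ) 1 := by
  have h0 : ∀ x, 0 ≤ (ρ x x).re := fun x => (Complex.nonneg_iff.1 hρ.1.diag_nonneg).1
  constructor
  · refine Finset.sum_nonneg fun x _ => ?_
    split_ifs
    · exact h0 x
    · exact le_rfl
  · have h1 : ∑ x, (ρ x x).re = 1 := by
      have := congrArg Complex.re hρ.2
      simpa [Matrix.trace] using this
    rw [← h1]
    refine Finset.sum_le_sum fun x _ => ?_
    split_ifs
    · exact le_rfl
    · exact h0 x

theorem slice_psd {β : Type*} [Fintype β] [DecidableEq β] (w : Fin 2 → ℂ)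
    {ρ : Matrix (Fin 2 × β) (Fin 2 × β) ℂ} (hρ : ρ.PosSemidef) : (slice w ρ).PosSemidef := by
  have h := psd_kraus (L := Unit)
    (fun _ => (Matrix.of fun (b : β) (p : Fin 2 × β) => if b = p.2 then w p.1 else 0)) hρ
  convert h using 1
  ext b b'
  simp only [slice, Matrix.of_apply, Finset.univ_unique, Finset.sum_const, Finset.card_singleton,
    one_smul, Fintype.sum_prod_type]
  refine Finset.sum_congr rfl fun i _ => ?_
  rw [Finset.sum_eq_single b]
  · refine Finset.sum_congr rfl fun j _ => ?_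
    rw [Finset.sum_eq_single b']
    · simp
    · intro c _ hc
      simp [Ne.symm hc]
    · simp
  · intro c _ hc
    simp [Ne.symm hc]
  · simp

theorem sum_slice_diag {β : Type*} {k : ℕ} (w : Fin k → Fin 2 → ℂ)
    (hw : ∀ i j, ∑ l, w l i * star (w l j) = if i = j then 1 else 0)
    (ρ : Matrix (Fin 2 × β) (Fin 2 × β) ℂ) (b : β) :
    ∑ l, slice (w l) ρ b b = ∑ i, ρ (i, b) (i, b) := by
  simp only [slice, Matrix.of_apply]
  rw [Finset.sum_comm]
  refine Finset.sum_congr rfl fun i _ => ?_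
  rw [Finset.sum_comm]
  have : ∀ j, ∑ l, w l i * ρ (i, b) (j, b) * star (w l j) =
      (if i = j then 1 else 0) * ρ (i, b) (j, b) := by
    intro j
    rw [← hw i j, Finset.sum_mul]
    refine Finset.sum_congr rfl fun l _ => ?_
    ring
  simp only [this]
  simp

theorem cent_lower (hγ : γ ∈ Set.Icc (0 : ℝ) 1) (hν : ν ∈ Set.Icc (0 : ℝ) 1) {α β : ℝ}
    (hF : ∀ q ∈ Set.Icc (0 : ℝ) 1, α + β * q ≤ Fq γ ν q) (n : ℕ) :
    ∀ {ρ : Matrix (Fin n → Fin 2) (Fin n → Fin 2) ℂ} (_ : ρ.PosSemidef),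
    ∑ i, (α * ρ.trace.re + β * pop i ρ) ≤ cent (tensorPow (gadc γ ν) n ρ) := by
  induction n with
  | zero =>
    intro ρ hρ
    simp only [Finset.univ_eq_empty, Finset.sum_empty]
    exact cent_nonneg (tensorPow_psd (gadc_isKraus hγ hν) 0 hρ)
  | succ n ih =>
    -- the normalised case
    have key : ∀ {ρ : Matrix (Fin (n + 1) → Fin 2) (Fin (n + 1) → Fin 2) ℂ} (_ : IsState ρ),
        ∑ i, (α + β * pop i ρ) ≤ ent (tensorPow (gadc γ ν) (n + 1) ρ) := by
      intro ρ hρ
      set e := consE (Fin 2) n with he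
      set ρ' := ρ.submatrix e e with hρ'
      have hρ'p : ρ'.PosSemidef := hρ.1.submatrix _
      have hdiag : ∑ i, ∑ x, ρ' (i, x) (i, x) = 1 := by
        rw [← Fintype.sum_prod_type (f := fun z => ρ' z z), ← hρ.2, Matrix.trace]
        exact e.sum_comp (fun x => ρ x x)
      set σ := sig (gadc γ ν) n ρ' with hσ
      have hσp : σ.PosSemidef := sig_psd (gadc_isKraus hγ hν) n hρ'p
      have hσd : ∀ i, ∑ x, σ (i, x) (i, x) = ∑ x, ρ' (i, x) (i, x) := by
        intro i
        exact trace_tensorPow γ ν n (Matrix.of fun x y => ρ' (i, x) (i, y))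
      have hσt : σ.trace = 1 := by
        rw [Matrix.trace]
        simp only [Matrix.diag_apply]
        rw [Fintype.sum_prod_type]
        simp only [hσd]
        exact hdiag
      obtain ⟨k, w, hw, hineq⟩ := one_step hγ hν σ hσp hσt
      have hon : onFst (gadc γ ν) σ = (tensorPow (gadc γ ν) (n + 1) ρ).submatrix e e := by
        ext ⟨i, x⟩ ⟨j, y⟩
        simp only [onFst, Matrix.of_apply, Matrix.submatrix_apply, he, consE_apply]
        rw [tensorPow_succ]
        rfl
      rw [hon, ent_submatrix (tensorPow_state hγ hν _ hρ).1.1] at hineq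
      refine le_trans ?_ hineq
      have hq0 : ∑ b, (σ (1, b) (1, b)).re = pop 0 ρ := by
        have h1 := congrArg Complex.re (hσd 1)
        simp only [Complex.re_sum] at h1
        rw [h1]
        unfold pop
        rw [← e.sum_comp, Fintype.sum_prod_type, Fin.sum_univ_two]
        simp [he, hρ']
      rw [hq0]
      have hs := fun l => slice_sig (gadc γ ν) n (w l) ρ'
      have hih : ∀ l, ∑ i, (α * (slice (w l) ρ').trace.re + β * pop i (slice (w l) ρ')) ≤
          cent (slice (w l) σ) := by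
        intro l
        rw [hσ, hs l]
        exact ih (slice_psd (w l) hρ'p)
      have hsum : ∑ l, ∑ i, (α * (slice (w l) ρ').trace.re + β * pop i (slice (w l) ρ')) ≤
          ∑ l, cent (slice (w l) σ) := Finset.sum_le_sum fun l _ => hih l
      have hsd := sum_slice_diag w hw ρ'
      have htr : ∑ l, (slice (w l) ρ').trace.re = 1 := by
        have h1 : ∑ l, (slice (w l) ρ').trace = 1 := by
          simp only [Matrix.trace, Matrix.diag_apply]
          rw [Finset.sum_comm]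
          simp only [hsd]
          rw [Finset.sum_comm]
          exact hdiag
        have h2 := congrArg Complex.re h1
        simpa only [Complex.re_sum, Complex.one_re] using h2
      have hpop : ∀ i : Fin n, ∑ l, pop i (slice (w l) ρ') = pop i.succ ρ := by
        intro i
        unfold pop
        rw [Finset.sum_comm,
          ← e.sum_comp (fun x : Fin (n + 1) → Fin 2 => if x i.succ = 1 then (ρ x x).re else 0),
          Fintype.sum_prod_type]
        conv_rhs => rw [Finset.sum_comm]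
        refine Finset.sum_congr rfl fun x _ => ?_
        by_cases hx : x i = 1
        · have h2 := congrArg Complex.re (hsd x)
          simp only [Complex.re_sum] at h2
          simp only [hx, if_true, he, consE_apply, Fin.cons_succ]
          rw [h2]
          rfl
        · simp [he, hx]
      have hL : ∑ l, ∑ i : Fin n, (α * (slice (w l) ρ').trace.re + β * pop i (slice (w l) ρ')) =
          ∑ i : Fin n, (α + β * pop i.succ ρ) := by
        rw [Finset.sum_comm]
        refine Finset.sum_congr rfl fun i _ => ?_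
        rw [Finset.sum_add_distrib, ← Finset.mul_sum, ← Finset.mul_sum, htr, hpop, mul_one]
      rw [hL] at hsum
      rw [Fin.sum_univ_succ]
      have := hF (pop 0 ρ) (pop_mem 0 hρ)
      linarith
    intro ρ hρ
    by_cases h : ρ.trace.re = 0
    · have h0 := eq_zero_of_trace hρ h
      rw [h, h0]
      simp [pop_zero_mat, cent_zero]
    · obtain ⟨B, hB, hAB⟩ := exists_normalize hρ h
      set t := ρ.trace.re with ht
      have ht0 : 0 ≤ t := trace_re_nonneg hρ
      rw [hAB, map_smul, cent_smul (tensorPow_state hγ hν _ hB).1.1,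
        cent_of_state (tensorPow_state hγ hν _ hB)]
      have h1 := mul_le_mul_of_nonneg_left (key hB) ht0
      refine le_trans (le_of_eq ?_) h1
      rw [Finset.mul_sum]
      refine Finset.sum_congr rfl fun i _ => ?_
      rw [pop_smul]
      ring

theorem ent_upper (hγ : γ ∈ Set.Icc (0 : ℝ) 1) (hν : ν ∈ Set.Icc (0 : ℝ) 1) (n : ℕ)
    {ρ : Matrix (Fin n → Fin 2) (Fin n → Fin 2) ℂ} (hρ : IsState ρ) :
    ent (tensorPow (gadc γ ν) n ρ) ≤ ∑ i, Real.binEntropy ((1 - γ) * pop i ρ + γ * ν) := by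
  have hst := tensorPow_state hγ hν n hρ
  have h1 := ent_le_diag hst.1
  have h2 := shannon_sub n (fun x => (tensorPow (gadc γ ν) n ρ x x).re)
    (fun x => (Complex.nonneg_iff.1 hst.1.diag_nonneg).1) (by
      have := congrArg Complex.re hst.2
      simpa [Matrix.trace] using this)
  refine (h1.trans h2).trans (le_of_eq ?_)
  refine Finset.sum_congr rfl fun i _ => ?_
  congr 1
  have h3 := pop_tensorPow γ ν n i ρ
  rw [hρ.2] at h3
  simp only [Complex.one_re, mul_one] at h3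
  exact h3

theorem pop_mix {n : ℕ} {ι : Type*} [Fintype ι] (i : Fin n) (p : ι → ℝ)
    (ρ : ι → Matrix (Fin n → Fin 2) (Fin n → Fin 2) ℂ) :
    pop i (∑ a, (p a : ℂ) • ρ a) = ∑ a, p a * pop i (ρ a) := by
  unfold pop
  simp only [Finset.mul_sum]
  rw [Finset.sum_comm]
  refine Finset.sum_congr rfl fun x _ => ?_
  by_cases hx : x i = 1
  · simp [hx, Matrix.sum_apply]
  · simp [hx]

theorem holevo_nonneg {a b : Type*} [Fintype a] [DecidableEq a] [Nonempty a] [Fintype b]
    [DecidableEq b] (Φ : Matrix a a ℂ →ₗ[ℂ] Matrix b b ℂ) : (0 : ℝ) ∈ holevoSet Φ := by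
  obtain ⟨x⟩ := ‹Nonempty a›
  refine ⟨1, fun _ => 1, fun _ => Matrix.single x x 1, by simp, by simp, ?_, by simp⟩
  intro _
  constructor
  · have : Matrix.single x x (1 : ℂ) = Matrix.vecMulVec (Pi.single x 1) (star (Pi.single x 1)) := by
      ext i j
      simp only [Matrix.single_apply, Matrix.vecMulVec_apply, Pi.star_apply, Pi.single_apply]
      by_cases h1 : i = x <;> by_cases h2 : j = x <;> simp [h1, h2, eq_comm]
      · intro h; exact absurd h.symm h2
      · intro h; exact absurd h.symm h1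
      · intro h; exact absurd h.symm h1
    rw [this]
    exact Matrix.posSemidef_vecMulVec_self_star _
  · simp

theorem holevoSet_le (hγ : γ ∈ Set.Icc (0 : ℝ) 1) (hν : ν ∈ Set.Icc (0 : ℝ) 1) (n : ℕ) :
    ∀ x ∈ holevoSet (tensorPow (gadc γ ν) n), x ≤ n * holevo (gadc γ ν) := by
  obtain ⟨α, β, hαβ⟩ := exists_affine hγ hν
  have hlog : 0 < Real.log 2 := Real.log_pos (by norm_num)
  rintro x ⟨k, p, ρ, hp, hs, hρ, rfl⟩
  set ρb := ∑ i, (p i : ℂ) • ρ i with hρb
  have hst : IsState ρb := isState_mix p ρ hp hs hρ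
  have h1 : (∑ i, (p i : ℂ) • tensorPow (gadc γ ν) n (ρ i)) = tensorPow (gadc γ ν) n ρb := by
    rw [hρb, map_sum]; simp only [map_smul]
  rw [h1]
  have h2 := ent_upper hγ hν n hst
  have h3 : ∀ a, ∑ i, (α + β * pop i (ρ a)) ≤ ent (tensorPow (gadc γ ν) n (ρ a)) := by
    intro a
    have := cent_lower hγ hν (fun q hq => (hαβ q hq).2) n (hρ a).1
    rw [cent_of_state (tensorPow_state hγ hν n (hρ a)), (hρ a).2] at this
    simpa using this
  have h4 : ∑ i : Fin n, (α + β * pop i ρb) ≤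
      ∑ a, p a * ent (tensorPow (gadc γ ν) n (ρ a)) := by
    have h5 : ∑ i : Fin n, (α + β * pop i ρb) = ∑ a, p a * ∑ i, (α + β * pop i (ρ a)) := by
      simp only [hρb, pop_mix, Finset.mul_sum]
      rw [Finset.sum_comm]
      refine Finset.sum_congr rfl fun i _ => ?_
      simp only [mul_add, Finset.sum_add_distrib, ← Finset.sum_mul, hs, one_mul]
      congr 1
      refine Finset.sum_congr rfl fun a _ => ?_
      ring
    rw [h5]
    exact Finset.sum_le_sum fun a _ => mul_le_mul_of_nonneg_left (h3 a) (hp a)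
  have h6 : ∑ i : Fin n, Real.binEntropy ((1 - γ) * pop i ρb + γ * ν) ≤
      ∑ i : Fin n, ((α + β * pop i ρb) + holevo (gadc γ ν) * Real.log 2) := by
    refine Finset.sum_le_sum fun i _ => ?_
    have := (hαβ (pop i ρb) (pop_mem i hst)).1
    linarith
  rw [Finset.sum_add_distrib, Finset.sum_const, Finset.card_univ, Fintype.card_fin,
    nsmul_eq_mul] at h6
  have h7 : ∑ a, p a * vnEntropy (tensorPow (gadc γ ν) n (ρ a)) =
      (∑ a, p a * ent (tensorPow (gadc γ ν) n (ρ a))) / Real.log 2 := by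
    rw [Finset.sum_div]
    refine Finset.sum_congr rfl fun a _ => ?_
    rw [vnEntropy]; ring
  rw [h7, vnEntropy, ← sub_div, div_le_iff₀ hlog]
  linarith

theorem bddAbove_pow (hγ : γ ∈ Set.Icc (0 : ℝ) 1) (hν : ν ∈ Set.Icc (0 : ℝ) 1) (n : ℕ) :
    BddAbove (holevoSet (tensorPow (gadc γ ν) n)) :=
  ⟨_, fun x hx => holevoSet_le hγ hν n x hx⟩

theorem holevo_pow_le (hγ : γ ∈ Set.Icc (0 : ℝ) 1) (hν : ν ∈ Set.Icc (0 : ℝ) 1) (n : ℕ) :
    holevo (tensorPow (gadc γ ν) n) ≤ n * holevo (gadc γ ν) :=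
  csSup_le ⟨0, holevo_nonneg _⟩ (holevoSet_le hγ hν n)

/-- product input `τ ⊗ ρ`, with indices `Fin (n+1) → Fin 2`. -/
noncomputable def prodIn {n : ℕ} (τ : Matrix (Fin 2) (Fin 2) ℂ)
    (ρ : Matrix (Fin n → Fin 2) (Fin n → Fin 2) ℂ) :
    Matrix (Fin (n + 1) → Fin 2) (Fin (n + 1) → Fin 2) ℂ :=
  (Matrix.kroneckerMap (· * ·) τ ρ).submatrix (consE (Fin 2) n).symm (consE (Fin 2) n).symm

theorem prodIn_state {n : ℕ} {τ : Matrix (Fin 2) (Fin 2) ℂ}
    {ρ : Matrix (Fin n → Fin 2) (Fin n → Fin 2) ℂ} (hτ : IsState τ) (hρ : IsState ρ) :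
    IsState (prodIn τ ρ) := by
  constructor
  · exact (hτ.1.kronecker hρ.1).submatrix _
  · have h1 : (prodIn τ ρ).trace = (Matrix.kroneckerMap (· * ·) τ ρ).trace := by
      simp only [Matrix.trace, prodIn, Matrix.diag_apply, Matrix.submatrix_apply]
      exact (consE (Fin 2) n).symm.sum_comp
        (fun z => (Matrix.kroneckerMap (· * ·) τ ρ) z z)
    rw [h1, Matrix.trace_kronecker, hτ.2, hρ.2, one_mul]

theorem tensorPow_prodIn {n : ℕ} (τ : Matrix (Fin 2) (Fin 2) ℂ)
    (ρ : Matrix (Fin n → Fin 2) (Fin n → Fin 2) ℂ) :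
    (tensorPow (gadc γ ν) (n + 1) (prodIn τ ρ)).submatrix (consE (Fin 2) n) (consE (Fin 2) n) =
      Matrix.kroneckerMap (· * ·) (gadc γ ν τ) (tensorPow (gadc γ ν) n ρ) := by
  ext ⟨i, x⟩ ⟨j, y⟩
  simp only [Matrix.submatrix_apply, consE_apply, Matrix.kroneckerMap_apply]
  rw [tensorPow_succ]
  have h1 : ∀ u v : Fin 2, (Matrix.of fun x' y' : Fin n → Fin 2 =>
      prodIn τ ρ (Fin.cons u x') (Fin.cons v y')) = τ u v • ρ := by
    intro u v
    ext x' y'
    have e1 : ∀ (u : Fin 2) (x' : Fin n → Fin 2),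
        (consE (Fin 2) n).symm (Fin.cons u x') = (u, x') := by
      intro u x'
      rw [Equiv.symm_apply_eq]
      rfl
    simp only [Matrix.of_apply, prodIn, Matrix.submatrix_apply, e1, Matrix.kroneckerMap_apply,
      Matrix.smul_apply, smul_eq_mul]
  simp only [h1, map_smul, Matrix.smul_apply, smul_eq_mul]
  have h2 : (Matrix.of fun u v : Fin 2 => τ u v * tensorPow (gadc γ ν) n ρ x y) =
      (tensorPow (gadc γ ν) n ρ x y) • τ := by
    ext u v
    simp [mul_comm]
  rw [h2, map_smul, Matrix.smul_apply, smul_eq_mul, mul_comm]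

theorem ent_prodIn (hγ : γ ∈ Set.Icc (0 : ℝ) 1) (hν : ν ∈ Set.Icc (0 : ℝ) 1) {n : ℕ}
    {τ : Matrix (Fin 2) (Fin 2) ℂ}
    {ρ : Matrix (Fin n → Fin 2) (Fin n → Fin 2) ℂ} (hτ : IsState τ) (hρ : IsState ρ) :
    ent (tensorPow (gadc γ ν) (n + 1) (prodIn τ ρ)) =
      ent (tensorPow (gadc γ ν) n ρ) + ent (gadc γ ν τ) := by
  have h1 := tensorPow_state hγ hν (n + 1) (prodIn_state hτ hρ)
  have h2 := tensorPow_state hγ hν n hρ
  have h3 := gadc_state hγ hν hτ
  rw [← ent_submatrix h1.1.1 (consE (Fin 2) n), tensorPow_prodIn, ent_kronecker h3.1.1 h2.1.1,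
    h2.2, h3.2]
  simp
  ring

theorem prodIn_mix {n : ℕ} {ι κ : Type*} [Fintype ι] [Fintype κ] (p : ι → ℝ) (r : κ → ℝ)
    (ρ : ι → Matrix (Fin n → Fin 2) (Fin n → Fin 2) ℂ) (τ : κ → Matrix (Fin 2) (Fin 2) ℂ) :
    ∑ z : ι × κ, ((p z.1 * r z.2 : ℝ) : ℂ) • prodIn (τ z.2) (ρ z.1) =
      prodIn (∑ b, (r b : ℂ) • τ b) (∑ a, (p a : ℂ) • ρ a) := by
  ext x y
  simp only [Matrix.sum_apply, Matrix.smul_apply, smul_eq_mul, prodIn, Matrix.submatrix_apply,
    Matrix.kroneckerMap_apply, Fintype.sum_prod_type, Finset.sum_mul_sum, Complex.ofReal_mul]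
  rw [Finset.sum_comm]
  refine Finset.sum_congr rfl fun b _ => Finset.sum_congr rfl fun a _ => ?_
  ring

theorem add_mem_holevoSet (hγ : γ ∈ Set.Icc (0 : ℝ) 1) (hν : ν ∈ Set.Icc (0 : ℝ) 1) {n : ℕ}
    {x y : ℝ} (hx : x ∈ holevoSet (tensorPow (gadc γ ν) n)) (hy : y ∈ holevoSet (gadc γ ν)) :
    x + y ∈ holevoSet (tensorPow (gadc γ ν) (n + 1)) := by
  obtain ⟨k, p, ρ, hp, hps, hρ, rfl⟩ := hx
  obtain ⟨l, r, τ, hr, hrs, hτ, rfl⟩ := hy
  have h := mem_holevoSet_of_fintype (tensorPow (gadc γ ν) (n + 1))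
    (fun z : Fin k × Fin l => p z.1 * r z.2) (fun z => prodIn (τ z.2) (ρ z.1))
    (fun z => mul_nonneg (hp _) (hr _))
    (by rw [Fintype.sum_prod_type]; simp only [← Finset.mul_sum, hrs, mul_one, hps])
    (fun z => prodIn_state (hτ _) (hρ _))
  convert h using 1
  have hlog : Real.log 2 ≠ 0 := (Real.log_pos (by norm_num)).ne'
  have e1 : (∑ z : Fin k × Fin l, ((p z.1 * r z.2 : ℝ) : ℂ) •
      tensorPow (gadc γ ν) (n + 1) (prodIn (τ z.2) (ρ z.1))) =
      tensorPow (gadc γ ν) (n + 1) (prodIn (∑ b, (r b : ℂ) • τ b) (∑ a, (p a : ℂ) • ρ a)) := by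
    rw [← prodIn_mix, map_sum]
    simp only [map_smul]
  have e2 : (∑ i, (p i : ℂ) • tensorPow (gadc γ ν) n (ρ i)) =
      tensorPow (gadc γ ν) n (∑ a, (p a : ℂ) • ρ a) := by
    rw [map_sum]; simp only [map_smul]
  have e3 : (∑ i, (r i : ℂ) • gadc γ ν (τ i)) = gadc γ ν (∑ b, (r b : ℂ) • τ b) := by
    rw [map_sum]; simp only [map_smul]
  rw [e1, e2, e3]
  unfold vnEntropy
  rw [ent_prodIn hγ hν (isState_mix r τ hr hrs hτ) (isState_mix p ρ hp hps hρ)]
  simp only [ent_prodIn hγ hν (hτ _) (hρ _)]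
  have e4 : ∑ z : Fin k × Fin l, p z.1 * r z.2 *
      ((ent (tensorPow (gadc γ ν) n (ρ z.1)) + ent (gadc γ ν (τ z.2))) / Real.log 2) =
      ∑ i, p i * (ent (tensorPow (gadc γ ν) n (ρ i)) / Real.log 2) +
      ∑ i, r i * (ent (gadc γ ν (τ i)) / Real.log 2) := by
    rw [Fintype.sum_prod_type]
    have : ∀ a b, p a * r b * ((ent (tensorPow (gadc γ ν) n (ρ a)) + ent (gadc γ ν (τ b))) /
        Real.log 2) = (p a * (ent (tensorPow (gadc γ ν) n (ρ a)) / Real.log 2)) * r b +
        p a * (r b * (ent (gadc γ ν (τ b)) / Real.log 2)) := by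
      intro a b; ring
    simp only [this, Finset.sum_add_distrib, ← Finset.mul_sum, ← Finset.sum_mul, hrs, hps,
      mul_one, one_mul]
  rw [e4]
  ring

theorem holevo_succ_ge (hγ : γ ∈ Set.Icc (0 : ℝ) 1) (hν : ν ∈ Set.Icc (0 : ℝ) 1) (n : ℕ) :
    holevo (tensorPow (gadc γ ν) n) + holevo (gadc γ ν) ≤
      holevo (tensorPow (gadc γ ν) (n + 1)) := by
  have h1 : ∀ y ∈ holevoSet (gadc γ ν), holevo (tensorPow (gadc γ ν) n) ≤
      holevo (tensorPow (gadc γ ν) (n + 1)) - y := by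
    intro y hy
    refine csSup_le ⟨0, holevo_nonneg _⟩ fun x hx => ?_
    have := le_csSup (bddAbove_pow hγ hν (n + 1)) (add_mem_holevoSet hγ hν hx hy)
    change _ ≤ holevo (tensorPow (gadc γ ν) (n + 1)) at this
    linarith
  have h2 : holevo (gadc γ ν) ≤ holevo (tensorPow (gadc γ ν) (n + 1)) -
      holevo (tensorPow (gadc γ ν) n) := by
    refine csSup_le ⟨0, holevo_nonneg _⟩ fun y hy => ?_
    have := h1 y hy
    linarith
  linarith

/-- **Additivity** of the Holevo capacity of the generalized amplitude damping channels. -/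
theorem additivity (hγ : γ ∈ Set.Icc (0 : ℝ) 1) (hν : ν ∈ Set.Icc (0 : ℝ) 1) (n : ℕ) :
    BddAbove (holevoSet (tensorPow (gadc γ ν) n)) ∧
    holevo (tensorPow (gadc γ ν) n) = n * holevo (gadc γ ν) := by
  refine ⟨bddAbove_pow hγ hν n, le_antisymm (holevo_pow_le hγ hν n) ?_⟩
  induction n with
  | zero =>
    simp only [Nat.cast_zero, zero_mul]
    exact le_csSup (bddAbove_pow hγ hν 0) (holevo_nonneg _)
  | succ n ih =>
    have := holevo_succ_ge hγ hν n
    push_cast
    linarith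

/-- `C = χ`. -/
theorem capacity_eq (hγ : γ ∈ Set.Icc (0 : ℝ) 1) (hν : ν ∈ Set.Icc (0 : ℝ) 1) :
    capacity (gadc γ ν) = holevo (gadc γ ν) := by
  have : {x : ℝ | ∃ n : ℕ, 1 ≤ n ∧ x = holevo (tensorPow (gadc γ ν) n) / n} =
      {holevo (gadc γ ν)} := by
    ext x
    rw [Set.mem_singleton_iff]
    constructor
    · rintro ⟨n, hn, rfl⟩
      rw [(additivity hγ hν n).2]
      have : (n : ℝ) ≠ 0 := by positivity
      field_simp
    · rintro rfl
      refine ⟨1, le_rfl, ?_⟩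
      rw [(additivity hγ hν 1).2]
      simp
  rw [capacity, this, csSup_singleton]

end Chan

end Vale.Agent.P358
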