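import Vale.Agent.P358.TwoKraus

/-!
# P358 : decomposition of the generalized amplitude damping channel, one-step inequality
-/

namespace Vale.Agent.P358

open Matrix
open scoped ComplexOrder

/-- choice of the mixing coefficients -/
theorem mix_lemma (g1 g2 : ℝ) : ∃ s τ : ℂ, s * star s + τ * star τ = 1 ∧
    s ^ 2 * g1 + τ ^ 2 * g2 = 0 ∧
    Complex.normSq (star τ ^ 2 * g1 + star s ^ 2 * g2) ≤ (g1 - g2) ^ 2 := by
  rcases eq_or_ne (|g1| + |g2|) 0 with h0 | h0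
  · have h1 : g1 = 0 := by
      have := abs_nonneg g1; have := abs_nonneg g2
      exact abs_eq_zero.1 (by linarith)
    have h2 : g2 = 0 := by
      have := abs_nonneg g1; have := abs_nonneg g2
      exact abs_eq_zero.1 (by linarith)
    refine ⟨1, 0, by simp, by simp [h1], ?_⟩
    rw [h1, h2]
    simp
  · have hG : 0 < |g1| + |g2| := lt_of_le_of_ne (by positivity) (Ne.symm h0)
    set G := |g1| + |g2| with hGdef
    set a := Real.sqrt (|g2| / G) with ha
    set b := Real.sqrt (|g1| / G) with hb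
    have haa : a ^ 2 = |g2| / G := Real.sq_sqrt (by positivity)
    have hbb : b ^ 2 = |g1| / G := Real.sq_sqrt (by positivity)
    have hab : a ^ 2 + b ^ 2 = 1 := by
      rw [haa, hbb, ← add_div, add_comm |g2|, ← hGdef, div_self h0]
    rcases le_or_gt (g1 * g2) 0 with hs | hs
    · -- opposite signs
      refine ⟨a, b, ?_, ?_, ?_⟩
      · simp only [Complex.star_def, Complex.conj_ofReal]
        rw [← Complex.ofReal_mul, ← Complex.ofReal_mul, ← Complex.ofReal_add,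
          show a * a + b * b = 1 by rw [← hab]; ring, Complex.ofReal_one]
      · have h1 : a ^ 2 * g1 + b ^ 2 * g2 = 0 := by
          rw [haa, hbb]
          have h2 : |g2| * g1 + |g1| * g2 = 0 := by
            rcases abs_cases g1 with ⟨e1, f1⟩ | ⟨e1, f1⟩ <;>
            rcases abs_cases g2 with ⟨e2, f2⟩ | ⟨e2, f2⟩
            · rw [e1, e2]; nlinarith [mul_nonneg f1 f2]
            · rw [e1, e2]; ring
            · rw [e1, e2]; ring
            · rw [e1, e2]; nlinarith [mul_pos_of_neg_of_neg f1 f2]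
          field_simp
          linarith
        exact_mod_cast h1
      · simp only [Complex.star_def, Complex.conj_ofReal]
        have h1 : ((b : ℂ) ^ 2 * g1 + (a : ℂ) ^ 2 * g2) =
            ((b ^ 2 * g1 + a ^ 2 * g2 : ℝ) : ℂ) := by push_cast; ring
        rw [h1, Complex.normSq_ofReal]
        have hG2 : G ^ 2 = (g1 - g2) ^ 2 := by
          have e : |g1| * |g2| = - (g1 * g2) := by
            rw [← abs_mul, abs_of_nonpos hs]
          have e1 : |g1| ^ 2 = g1 ^ 2 := sq_abs g1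
          have e2 : |g2| ^ 2 = g2 ^ 2 := sq_abs g2
          rw [hGdef]
          nlinarith
        have h2 : |b ^ 2 * g1 + a ^ 2 * g2| ≤ G := by
          have b1 : |b ^ 2 * g1 + a ^ 2 * g2| ≤ b ^ 2 * |g1| + a ^ 2 * |g2| := by
            refine (abs_add_le _ _).trans ?_
            rw [abs_mul, abs_mul, abs_of_nonneg (sq_nonneg b), abs_of_nonneg (sq_nonneg a)]
          have b2 : b ^ 2 ≤ 1 := by nlinarith [sq_nonneg a]
          have b3 : a ^ 2 ≤ 1 := by nlinarith [sq_nonneg b]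
          have := abs_nonneg g1
          have := abs_nonneg g2
          nlinarith
        rw [← hG2, ← pow_two, ← sq_abs]
        gcongr
    · -- same sign
      refine ⟨a, b * Complex.I, ?_, ?_, ?_⟩
      · simp only [Complex.star_def, Complex.conj_ofReal, map_mul, Complex.conj_I]
        have h1 : (a : ℂ) * a + b * Complex.I * (b * -Complex.I) = ((a ^ 2 + b ^ 2 : ℝ) : ℂ) := by
          push_cast
          linear_combination (-(b : ℂ) ^ 2) * Complex.I_sq
        rw [h1, hab, Complex.ofReal_one]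
      · have h1 : a ^ 2 * g1 - b ^ 2 * g2 = 0 := by
          rw [haa, hbb]
          have h2 : |g2| * g1 - |g1| * g2 = 0 := by
            rcases abs_cases g1 with ⟨e1, f1⟩ | ⟨e1, f1⟩ <;>
            rcases abs_cases g2 with ⟨e2, f2⟩ | ⟨e2, f2⟩
            · rw [e1, e2]; ring
            · rw [e1, e2]; nlinarith
            · rw [e1, e2]; nlinarith
            · rw [e1, e2]; ring
          field_simp
          linarith
        have h2 : (a : ℂ) ^ 2 * g1 + (b * Complex.I) ^ 2 * g2 =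
            ((a ^ 2 * g1 - b ^ 2 * g2 : ℝ) : ℂ) := by
          push_cast
          linear_combination ((b : ℂ) ^ 2 * g2) * Complex.I_sq
        rw [h2, h1, Complex.ofReal_zero]
      · simp only [Complex.star_def, Complex.conj_ofReal, map_mul, Complex.conj_I]
        have h1 : ((b : ℂ) * -Complex.I) ^ 2 * g1 + (a : ℂ) ^ 2 * g2 =
            ((a ^ 2 * g2 - b ^ 2 * g1 : ℝ) : ℂ) := by
          push_cast
          linear_combination ((b : ℂ) ^ 2 * g1) * Complex.I_sq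
        rw [h1, Complex.normSq_ofReal]
        have h3 : (a ^ 2 * g2 - b ^ 2 * g1) ^ 2 = (g1 - g2) ^ 2 := by
          have h4 : a ^ 2 * g2 - b ^ 2 * g1 = (|g2| * g2 - |g1| * g1) / G := by
            rw [haa, hbb]
            field_simp
          rw [h4, div_pow, div_eq_iff (by positivity)]
          rcases abs_cases g1 with ⟨e1, f1⟩ | ⟨e1, f1⟩ <;>
          rcases abs_cases g2 with ⟨e2, f2⟩ | ⟨e2, f2⟩
          · rw [hGdef, e1, e2]; ring
          · nlinarith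
          · nlinarith
          · rw [hGdef, e1, e2]; ring
        rw [← pow_two, h3]

/-- decomposition of a point of the unit disc along a line -/
theorem disc_lemma {κ g ν q : ℝ} (hκg : κ ^ 2 + g ^ 2 = 1) (hν0 : 0 ≤ ν) (hν1 : ν ≤ 1) :
    ∃ c X Y : Fin 2 → ℝ, (∀ j, 0 ≤ c j) ∧ c 0 + c 1 = 1 ∧ (∀ j, X j ^ 2 + Y j ^ 2 = 1) ∧
      c 0 * X 0 + c 1 * X 1 = κ ∧ c 0 * Y 0 + c 1 * Y 1 = g * (1 - 2 * ν) ∧
      ∀ j, (1 - 2 * q) * κ * X j + g * Y j = (1 - 2 * q) * κ ^ 2 + g ^ 2 * (1 - 2 * ν) := by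
  set x0 := κ with hx0
  set y0 := g * (1 - 2 * ν) with hy0
  have hle : x0 ^ 2 + y0 ^ 2 ≤ 1 := by
    have h1 : (1 - 2 * ν) ^ 2 ≤ 1 := by nlinarith
    have h2 : y0 ^ 2 = g ^ 2 * (1 - 2 * ν) ^ 2 := by rw [hy0]; ring
    rw [h2]
    nlinarith [sq_nonneg g]
  rcases hle.eq_or_lt with heq | hlt
  · refine ⟨![1, 0], fun _ => x0, fun _ => y0, ?_, by simp, fun _ => heq, by simp, by simp, ?_⟩
    · intro j; fin_cases j <;> simp
    · intro j
      rw [hy0]
      ring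
  · have hg : g ≠ 0 := by
      intro h
      rw [hy0, h] at hlt
      rw [h] at hκg
      nlinarith
    set D := g ^ 2 + ((1 - 2 * q) * κ) ^ 2 with hD
    have hDpos : 0 < D := by positivity
    set b := (x0 * g - y0 * ((1 - 2 * q) * κ)) / D with hb
    set disc := b ^ 2 + (1 - (x0 ^ 2 + y0 ^ 2)) / D with hdisc
    have hq : 0 < (1 - (x0 ^ 2 + y0 ^ 2)) / D := div_pos (by linarith) hDpos
    have hdpos : 0 < disc := by positivity
    set w := Real.sqrt disc with hw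
    have hwpos : 0 < w := Real.sqrt_pos.2 hdpos
    have hww : w ^ 2 = disc := Real.sq_sqrt hdpos.le
    have hbw : |b| ≤ w := by
      rw [← Real.sqrt_sq_eq_abs]
      exact Real.sqrt_le_sqrt (by rw [hdisc]; linarith)
    have hb1 : b ≤ w := (le_abs_self b).trans hbw
    have hb2 : -b ≤ w := (neg_le_abs b).trans hbw
    have hbD : b * D = x0 * g - y0 * ((1 - 2 * q) * κ) := by
      rw [hb]; field_simp
    have hwD : w ^ 2 * D = b ^ 2 * D + (1 - (x0 ^ 2 + y0 ^ 2)) := by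
      rw [hww, hdisc]
      field_simp
    have circ : ∀ s : ℝ, (s + b) ^ 2 = w ^ 2 →
        (x0 + s * g) ^ 2 + (y0 - s * ((1 - 2 * q) * κ)) ^ 2 = 1 := by
      intro s hs
      have h1 : (x0 + s * g) ^ 2 + (y0 - s * ((1 - 2 * q) * κ)) ^ 2 =
          x0 ^ 2 + y0 ^ 2 + 2 * s * (x0 * g - y0 * ((1 - 2 * q) * κ)) + s ^ 2 * D := by
        rw [hD]; ring
      rw [h1, ← hbD]
      have h2 : (s ^ 2 + 2 * s * b + b ^ 2) * D = w ^ 2 * D := by rw [← hs]; ring
      nlinarith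
    refine ⟨![(w - b) / (2 * w), (w + b) / (2 * w)],
      ![x0 + (-b - w) * g, x0 + (-b + w) * g],
      ![y0 - (-b - w) * ((1 - 2 * q) * κ), y0 - (-b + w) * ((1 - 2 * q) * κ)],
      ?_, ?_, ?_, ?_, ?_, ?_⟩
    · intro j
      fin_cases j
      · exact div_nonneg (by linarith) (by linarith)
      · exact div_nonneg (by linarith) (by linarith)
    · simp only [Matrix.cons_val]
      field_simp
      ring
    · intro j
      fin_cases j
      · exact circ _ (by ring)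
      · exact circ _ (by ring)
    · simp only [Matrix.cons_val]
      field_simp
      ring
    · simp only [Matrix.cons_val]
      field_simp
      ring
    · intro j
      fin_cases j
      · change (1 - 2 * q) * κ * (x0 + (-b - w) * g) +
          g * (y0 - (-b - w) * ((1 - 2 * q) * κ)) = _
        rw [hy0, hx0]
        ring
      · change (1 - 2 * q) * κ * (x0 + (-b + w) * g) +
          g * (y0 - (-b + w) * ((1 - 2 * q) * κ)) = _
        rw [hy0, hx0]
        ring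

/-- half angles -/
theorem angle_lemma {κ g X Y : ℝ} (hκg : κ ^ 2 + g ^ 2 = 1) (hXY : X ^ 2 + Y ^ 2 = 1) :
    ∃ cA sA cB sB : ℝ, cA ^ 2 + sA ^ 2 = 1 ∧ cB ^ 2 + sB ^ 2 = 1 ∧
      cA * cB = (κ + X) / 2 ∧ sA * sB = (κ - X) / 2 ∧
      cA ^ 2 = (1 + κ * X + g * Y) / 2 ∧ cB ^ 2 = (1 + κ * X - g * Y) / 2 := by
  have key : ∀ x y : ℝ, x ^ 2 + y ^ 2 = 1 → ∃ θ : ℝ, Real.cos θ = x ∧ Real.sin θ = y := by
    intro x y hxy
    have hne : ‖(⟨x, y⟩ : ℂ)‖ = 1 := by
      rw [Complex.norm_def, Complex.normSq_mk, ← pow_two, ← pow_two, hxy, Real.sqrt_one]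
    have hne0 : (⟨x, y⟩ : ℂ) ≠ 0 := by
      intro h
      rw [h, norm_zero] at hne
      exact zero_ne_one hne
    refine ⟨Complex.arg ⟨x, y⟩, ?_, ?_⟩
    · rw [Complex.cos_arg hne0, hne, div_one]
    · rw [Complex.sin_arg, hne, div_one]
  obtain ⟨θ, hθc, hθs⟩ := key X Y hXY
  obtain ⟨u, huc, hus⟩ := key κ g hκg
  have hA2 : 2 * ((θ - u) / 2) = θ - u := by ring
  have hB2 : 2 * ((θ + u) / 2) = θ + u := by ring
  have c1 := Real.cos_sq ((θ - u) / 2)
  have c2 := Real.cos_sq ((θ + u) / 2)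
  rw [hA2, Real.cos_sub, hθc, hθs, huc, hus] at c1
  rw [hB2, Real.cos_add, hθc, hθs, huc, hus] at c2
  have d1 : (θ + u) / 2 + (θ - u) / 2 = θ := by ring
  have d2 : (θ + u) / 2 - (θ - u) / 2 = u := by ring
  have e1 := Real.cos_add ((θ + u) / 2) ((θ - u) / 2)
  have e2 := Real.cos_sub ((θ + u) / 2) ((θ - u) / 2)
  rw [d1, hθc] at e1
  rw [d2, huc] at e2
  refine ⟨Real.cos ((θ - u) / 2), Real.sin ((θ - u) / 2), Real.cos ((θ + u) / 2),
    Real.sin ((θ + u) / 2), Real.cos_sq_add_sin_sq _, Real.cos_sq_add_sin_sq _, ?_, ?_, ?_, ?_⟩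
  · linarith
  · linarith
  · linarith
  · linarith

theorem ent2_mono {d d' : ℝ} (hd : 0 ≤ d) (h : d ≤ d') : ent2 d ≤ ent2 d' := by
  rw [ent2, ent2]
  have h1 : Real.sqrt (1 - 4 * d') ≤ Real.sqrt (1 - 4 * d) :=
    Real.sqrt_le_sqrt (by linarith)
  have h2 : Real.sqrt (1 - 4 * d) ≤ 1 := by
    rw [Real.sqrt_le_one]
    linarith
  have h3 := Real.sqrt_nonneg (1 - 4 * d')
  have h4 := Real.sqrt_nonneg (1 - 4 * d)
  refine Real.binEntropy_strictAntiOn.antitoneOn ?_ ?_ ?_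
  · constructor <;> linarith
  · constructor <;> linarith
  · linarith

/-- unitary mixing of two Kraus operators -/
theorem mix_gen {n : Type*} [Fintype n] (M1 M2 ρ : Matrix n n ℂ) {s τ : ℂ}
    (h : s * star s + τ * star τ = 1) :
    (-(star τ) • M1 + star s • M2) * ρ * (-(star τ) • M1 + star s • M2)ᴴ +
      (s • M1 + τ • M2) * ρ * (s • M1 + τ • M2)ᴴ = M1 * ρ * M1ᴴ + M2 * ρ * M2ᴴ := by
  have e1 : (-(star τ) • M1 + star s • M2)ᴴ = -τ • M1ᴴ + s • M2ᴴ := by
    rw [Matrix.conjTranspose_add, Matrix.conjTranspose_smul, Matrix.conjTranspose_smul]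
    simp
  have e2 : (s • M1 + τ • M2)ᴴ = star s • M1ᴴ + star τ • M2ᴴ := by
    rw [Matrix.conjTranspose_add, Matrix.conjTranspose_smul, Matrix.conjTranspose_smul]
  rw [e1, e2]
  simp only [Matrix.add_mul, Matrix.mul_add, Matrix.smul_mul, Matrix.mul_smul, smul_smul]
  have e3 : M1 * ρ * M1ᴴ + M2 * ρ * M2ᴴ = (s * star s + τ * star τ) • (M1 * ρ * M1ᴴ) +
      (s * star s + τ * star τ) • (M2 * ρ * M2ᴴ) := by
    rw [h, one_smul, one_smul]
  rw [e3]
  module

theorem mix_gen' {n : Type*} [Fintype n] (M1 M2 : Matrix n n ℂ) {s τ : ℂ}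
    (h : s * star s + τ * star τ = 1) :
    (-(star τ) • M1 + star s • M2)ᴴ * (-(star τ) • M1 + star s • M2) +
      (s • M1 + τ • M2)ᴴ * (s • M1 + τ • M2) = M1ᴴ * M1 + M2ᴴ * M2 := by
  have e1 : (-(star τ) • M1 + star s • M2)ᴴ = -τ • M1ᴴ + s • M2ᴴ := by
    rw [Matrix.conjTranspose_add, Matrix.conjTranspose_smul, Matrix.conjTranspose_smul]
    simp
  have e2 : (s • M1 + τ • M2)ᴴ = star s • M1ᴴ + star τ • M2ᴴ := by
    rw [Matrix.conjTranspose_add, Matrix.conjTranspose_smul, Matrix.conjTranspose_smul]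
  rw [e1, e2]
  simp only [Matrix.add_mul, Matrix.mul_add, Matrix.smul_mul, Matrix.mul_smul, smul_smul]
  have e3 : M1ᴴ * M1 + M2ᴴ * M2 = (s * star s + τ * star τ) • (M1ᴴ * M1) +
      (s * star s + τ * star τ) • (M2ᴴ * M2) := by
    rw [h, one_smul, one_smul]
  rw [e3]
  module

section

variable {β : Type*} [Fintype β] [DecidableEq β]

theorem tk_mix (L1 L2 : Matrix (Fin 2) (Fin 2) ℂ) (ρ : Matrix (Fin 2 × β) (Fin 2 × β) ℂ)
    {s τ : ℂ} (h : s * star s + τ * star τ = 1) :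
    tk (-(star τ) • L1 + star s • L2) (s • L1 + τ • L2) ρ = tk L1 L2 ρ := by
  have e : ∀ (a b : ℂ) (L1 L2 : Matrix (Fin 2) (Fin 2) ℂ),
      Matrix.kroneckerMap (· * ·) (a • L1 + b • L2) (1 : Matrix β β ℂ) =
      a • Matrix.kroneckerMap (· * ·) L1 (1 : Matrix β β ℂ) +
        b • Matrix.kroneckerMap (· * ·) L2 (1 : Matrix β β ℂ) := by
    intro a b L1 L2
    ext ⟨i, c⟩ ⟨j, c'⟩
    simp only [Matrix.kroneckerMap_apply, Matrix.add_apply, Matrix.smul_apply, smul_eq_mul]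
    ring
  rw [tk, e, e, mix_gen _ _ _ h, tk]

/-- The inequality for the channels `N_θ` -/
theorem ent_theta {cA sA cB sB : ℝ} (hA : cA ^ 2 + sA ^ 2 = 1) (hB : cB ^ 2 + sB ^ 2 = 1)
    {u : ℂ} (hu : u * star u = 1)
    {ρ : Matrix (Fin 2 × β) (Fin 2 × β) ℂ} (hρ : ρ.PosSemidef) (htr : ρ.trace = 1)
    {q : ℝ} (hq : redA ρ 1 1 = q) (hr : u ^ 2 * redA ρ 1 0 = redA ρ 0 1)
    (hL : 0 ≤ (cB ^ 2 * q + sA ^ 2 * (1 - q)) * (1 - (cB ^ 2 * q + sA ^ 2 * (1 - q))) -
      (cA * cB + sA * sB) ^ 2 * (q * (1 - q))) :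
    ∃ w : Fin 3 → Fin 2 → ℂ,
      (∀ i j, ∑ l, w l i * star (w l j) = if i = j then 1 else 0) ∧
      ent2 ((cB ^ 2 * q + sA ^ 2 * (1 - q)) * (1 - (cB ^ 2 * q + sA ^ 2 * (1 - q))) -
      (cA * cB + sA * sB) ^ 2 * (q * (1 - q))) + ∑ l, cent (slice (w l) ρ) ≤
        ent (tk !![(cA : ℂ), 0; 0, (cB : ℂ)]
          !![0, (sB : ℂ) * u; (sA : ℂ) * star u, 0] ρ) := by
  set L1 : Matrix (Fin 2) (Fin 2) ℂ := !![(cA : ℂ), 0; 0, (cB : ℂ)] with hL1
  set L2 : Matrix (Fin 2) (Fin 2) ℂ := !![0, (sB : ℂ) * u; (sA : ℂ) * star u, 0] with hL2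
  obtain ⟨s, τ, hst, hdet, hnorm⟩ := mix_lemma (cA * cB) (-(sA * sB))
  have hA' : (cA : ℂ) ^ 2 + (sA : ℂ) ^ 2 = 1 := by exact_mod_cast hA
  have hB' : (cB : ℂ) ^ 2 + (sB : ℂ) ^ 2 = 1 := by exact_mod_cast hB
  have hLL : L1ᴴ * L1 + L2ᴴ * L2 = 1 := by
    ext i j
    fin_cases i <;> fin_cases j <;>
      simp [hL1, hL2, Matrix.mul_apply, Fin.sum_univ_two, Matrix.conjTranspose_apply] <;>
      simp only [Complex.star_def] at hu
    · linear_combination hA' + (sA : ℂ) ^ 2 * hu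
    · linear_combination hB' + (sB : ℂ) ^ 2 * hu
  have hKR : (-(star τ) • L1 + star s • L2)ᴴ * (-(star τ) • L1 + star s • L2) +
      (s • L1 + τ • L2)ᴴ * (s • L1 + τ • L2) = 1 := by
    rw [mix_gen' L1 L2 hst, hLL]
  have hRdet : (s • L1 + τ • L2).det = 0 := by
    have e : (s • L1 + τ • L2).det = s ^ 2 * ((cA * cB : ℝ) : ℂ) +
        τ ^ 2 * ((-(sA * sB) : ℝ) : ℂ) := by
      rw [Matrix.det_fin_two]
      simp only [hL1, hL2, Matrix.add_apply, Matrix.smul_apply, smul_eq_mul, Matrix.of_apply,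
        Matrix.cons_val', Matrix.cons_val_zero, Matrix.cons_val_one, Matrix.cons_val_fin_one]
      push_cast
      linear_combination (-(τ ^ 2 * sA * sB)) * hu
    rw [e, hdet]
  have hKdet : (-(star τ) • L1 + star s • L2).det = star τ ^ 2 * ((cA * cB : ℝ) : ℂ) +
        star s ^ 2 * ((-(sA * sB) : ℝ) : ℂ) := by
    rw [Matrix.det_fin_two]
    simp only [hL1, hL2, Matrix.add_apply, Matrix.smul_apply, smul_eq_mul, Matrix.of_apply,
      Matrix.cons_val', Matrix.cons_val_zero, Matrix.cons_val_one, Matrix.cons_val_fin_one]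
    push_cast
    linear_combination (-(star s ^ 2 * sA * sB)) * hu
  obtain ⟨w, hw, hent⟩ := ent_tk hKR hRdet hρ htr
  refine ⟨w, hw, ?_⟩
  rw [tk_mix L1 L2 ρ hst] at hent
  refine le_trans (add_le_add (ent2_mono hL ?_) le_rfl) hent
  rw [mix_gen L1 L2 (redA ρ) hst]
  have hσ := redA_posSemidef hρ
  have htrσ : redA ρ 0 0 + redA ρ 1 1 = 1 := by
    rw [← Matrix.trace_fin_two, redA_trace, htr]
  set σ := redA ρ with hσdef
  have h00 : σ 0 0 = 1 - q := by rw [← hq]; linear_combination htrσ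
  have hdetσ : 0 ≤ σ.det := hσ.det_nonneg
  have h10 : σ 1 0 = star (σ 0 1) := (hσ.1.apply 1 0).symm
  have hnr : σ 0 1 * σ 1 0 = ((Complex.normSq (σ 0 1) : ℝ) : ℂ) := by
    rw [h10, Complex.normSq_eq_conj_mul_self, Complex.star_def]
    ring
  have hdet1 : σ.det = (((1 - q) * q - Complex.normSq (σ 0 1) : ℝ) : ℂ) := by
    rw [Matrix.det_fin_two, hnr, h00, hq]
    push_cast
    ring
  have hdet1' : 0 ≤ (1 - q) * q - Complex.normSq (σ 0 1) := by
    rw [hdet1] at hdetσ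
    exact_mod_cast hdetσ
  have hr' : star u ^ 2 * σ 0 1 = σ 1 0 := by
    rw [← hr]
    have : (u * star u) ^ 2 = 1 := by rw [hu, one_pow]
    linear_combination (σ 1 0) * this
  have hdet2 : (L1 * σ * L1ᴴ + L2 * σ * L2ᴴ).det =
      (((cB ^ 2 * q + sA ^ 2 * (1 - q)) * (1 - (cB ^ 2 * q + sA ^ 2 * (1 - q))) -
      (cA * cB + sA * sB) ^ 2 * Complex.normSq (σ 0 1) : ℝ) : ℂ) := by
    have m00 : (L1 * σ * L1ᴴ + L2 * σ * L2ᴴ) 0 0 =
        (cA : ℂ) ^ 2 * (1 - q) + (sB : ℂ) ^ 2 * q := by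
      rw [Matrix.add_apply, two_by_two_conj, two_by_two_conj]
      simp [hL1, hL2, Fin.sum_univ_two, h00, hq]
      simp only [Complex.star_def] at hu
      linear_combination (sB : ℂ) ^ 2 * q * hu
    have m11 : (L1 * σ * L1ᴴ + L2 * σ * L2ᴴ) 1 1 =
        (cB : ℂ) ^ 2 * q + (sA : ℂ) ^ 2 * (1 - q) := by
      rw [Matrix.add_apply, two_by_two_conj, two_by_two_conj]
      simp [hL1, hL2, Fin.sum_univ_two, h00, hq]
      simp only [Complex.star_def] at hu
      linear_combination (sA : ℂ) ^ 2 * (1 - q) * hu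
    have m01 : (L1 * σ * L1ᴴ + L2 * σ * L2ᴴ) 0 1 = ((cA * cB + sA * sB : ℝ) : ℂ) * σ 0 1 := by
      rw [Matrix.add_apply, two_by_two_conj, two_by_two_conj]
      simp [hL1, hL2, Fin.sum_univ_two]
      linear_combination ((sA : ℂ) * sB) * hr
    have m10 : (L1 * σ * L1ᴴ + L2 * σ * L2ᴴ) 1 0 = ((cA * cB + sA * sB : ℝ) : ℂ) * σ 1 0 := by
      rw [Matrix.add_apply, two_by_two_conj, two_by_two_conj]
      simp [hL1, hL2, Fin.sum_univ_two]
      simp only [Complex.star_def] at hr'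
      linear_combination ((sA : ℂ) * sB) * hr'
    rw [Matrix.det_fin_two, m00, m11, m01, m10]
    have e1 : ((cA * cB + sA * sB : ℝ) : ℂ) * σ 0 1 * (((cA * cB + sA * sB : ℝ) : ℂ) * σ 1 0) =
        ((cA * cB + sA * sB : ℝ) : ℂ) ^ 2 * ((Complex.normSq (σ 0 1) : ℝ) : ℂ) := by
      rw [← hnr]; ring
    rw [e1]
    push_cast
    have e2 : (cA : ℂ) ^ 2 = 1 - (sA : ℂ) ^ 2 := by linear_combination hA'
    have e3 : (sB : ℂ) ^ 2 = 1 - (cB : ℂ) ^ 2 := by linear_combination hB'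
    rw [show ((cA : ℂ) * cB + sA * sB) ^ 2 * (Complex.normSq (σ 0 1) : ℂ) =
      ((cA : ℂ) * cB + sA * sB) ^ 2 * (Complex.normSq (σ 0 1) : ℂ) from rfl, e2, e3]
    ring
  rw [hdet2, hdet1, Complex.ofReal_re, Complex.ofReal_re, hKdet]
  have h5 : Complex.normSq (star τ ^ 2 * ((cA * cB : ℝ) : ℂ) +
      star s ^ 2 * ((-(sA * sB) : ℝ) : ℂ)) ≤ (cA * cB + sA * sB) ^ 2 := by
    refine hnorm.trans (le_of_eq ?_)
    ring
  nlinarith [mul_le_mul_of_nonneg_right h5 hdet1']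

end

end Vale.Agent.P358
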