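import Mathlib

/-!
# P358 : definitions

Entropies, quantum channels (as linear maps on matrices), tensor powers, Holevo quantity,
generalized amplitude damping channel.
-/

namespace Vale.Agent.P358

open Matrix
open scoped ComplexOrder

/-- The von Neumann entropy in nats: `-∑ λ log λ` over the eigenvalues of a Hermitian matrix
(and `0` for a matrix which is not Hermitian). -/
noncomputable def ent {n : Type*} [Fintype n] [DecidableEq n] (A : Matrix n n ℂ) : ℝ :=
  if h : A.IsHermitian then ∑ i, Real.negMulLog (h.eigenvalues i) else 0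

/-- The von Neumann entropy in bits: `-∑ λ log₂ λ` over the eigenvalues. -/
noncomputable def vnEntropy {n : Type*} [Fintype n] [DecidableEq n] (A : Matrix n n ℂ) : ℝ :=
  ent A / Real.log 2

/-- Density matrices. -/
def IsState {n : Type*} [Fintype n] (ρ : Matrix n n ℂ) : Prop :=
  ρ.PosSemidef ∧ ρ.trace = 1

/-- The values of the Holevo quantity of the map `Φ`
on finite ensembles of input states. -/
def holevoSet {a b : Type*} [Fintype a] [Fintype b] [DecidableEq b]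
    (Φ : Matrix a a ℂ →ₗ[ℂ] Matrix b b ℂ) : Set ℝ :=
  {x | ∃ (k : ℕ) (p : Fin k → ℝ) (ρ : Fin k → Matrix a a ℂ),
    (∀ i, 0 ≤ p i) ∧ ∑ i, p i = 1 ∧ (∀ i, IsState (ρ i)) ∧
    x = vnEntropy (∑ i, (p i : ℂ) • Φ (ρ i)) - ∑ i, p i * vnEntropy (Φ (ρ i))}

/-- The Holevo capacity `χ(Φ)`. -/
noncomputable def holevo {a b : Type*} [Fintype a] [Fintype b] [DecidableEq b]
    (Φ : Matrix a a ℂ →ₗ[ℂ] Matrix b b ℂ) : ℝ := sSup (holevoSet Φ)

/-- The `n`-fold tensor power `Φ^{⊗ n}` of a linear map `Φ` between matrix algebras; the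
`n`-fold tensor power of the space with basis `a` has the basis `Fin n → a`, and
`Φ^{⊗ n} (ρ) = ∑_{x', y'} ρ_{x' y'} ⨂_i Φ(|x'_i⟩⟨y'_i|)`. -/
noncomputable def tensorPow {a b : Type*} [Fintype a] [DecidableEq a]
    (Φ : Matrix a a ℂ →ₗ[ℂ] Matrix b b ℂ) (n : ℕ) :
    Matrix (Fin n → a) (Fin n → a) ℂ →ₗ[ℂ] Matrix (Fin n → b) (Fin n → b) ℂ where
  toFun ρ := Matrix.of fun x y => ∑ x' : Fin n → a, ∑ y' : Fin n → a,
    (∏ i, Φ (Matrix.single (x' i) (y' i) 1) (x i) (y i)) * ρ x' y'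
  map_add' ρ σ := by
    ext x y
    simp [mul_add, Finset.sum_add_distrib]
  map_smul' c ρ := by
    ext x y
    simp only [Matrix.smul_apply, Matrix.of_apply, smul_eq_mul, RingHom.id_apply, Finset.mul_sum]
    refine Finset.sum_congr rfl fun _ _ => Finset.sum_congr rfl fun _ _ => ?_
    ring

/-- The (unassisted) classical capacity `C(Φ) = sup_{n ≥ 1} χ(Φ^{⊗ n}) / n`. -/
noncomputable def capacity {a b : Type*} [Fintype a] [DecidableEq a] [Fintype b] [DecidableEq b]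
    (Φ : Matrix a a ℂ →ₗ[ℂ] Matrix b b ℂ) : ℝ :=
  sSup {x : ℝ | ∃ n : ℕ, 1 ≤ n ∧ x = holevo (tensorPow Φ n) / n}

/-- The generalized amplitude-damping channel, extended linearly from density matrices
to all matrices. -/
noncomputable def gadc (γ ν : ℝ) : Matrix (Fin 2) (Fin 2) ℂ →ₗ[ℂ] Matrix (Fin 2) (Fin 2) ℂ where
  toFun ρ := !![(1 - γ : ℂ) * ρ 0 0 + (γ * (1 - ν) : ℂ) * (ρ 0 0 + ρ 1 1),
      (Real.sqrt (1 - γ) : ℂ) * ρ 0 1;
      (Real.sqrt (1 - γ) : ℂ) * ρ 1 0,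
      (1 - γ : ℂ) * ρ 1 1 + (γ * ν : ℂ) * (ρ 0 0 + ρ 1 1)]
  map_add' ρ σ := by
    ext i j
    fin_cases i <;> fin_cases j <;> simp <;> ring
  map_smul' c ρ := by
    ext i j
    fin_cases i <;> fin_cases j <;> simp <;> ring

end Vale.Agent.P358
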