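import Vale.Agent.P358.Defs

/-!
# P358 : auxiliary definitions used in the proofs only
-/

namespace Vale.Agent.P358

open Matrix
open scoped ComplexOrder

/-- Determinant of the output of the coherent state of excited population `q`. -/
noncomputable def Lstar (γ ν q : ℝ) : ℝ :=
  ((1 - γ) * q + γ * ν) * (1 - ((1 - γ) * q + γ * ν)) - (1 - γ) * (q * (1 - q))

/-- Entropy (nats) of a qubit state with determinant `d`. -/
noncomputable def ent2 (d : ℝ) : ℝ := Real.binEntropy ((1 + Real.sqrt (1 - 4 * d)) / 2)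

/-- Output entropy (nats) of the coherent pure state of excited population `q`. -/
noncomputable def Fq (γ ν q : ℝ) : ℝ := ent2 (Lstar γ ν q)

/-- `(Φ ⊗ id)(ρ)`. -/
def onFst {β : Type*} (Φ : Matrix (Fin 2) (Fin 2) ℂ →ₗ[ℂ] Matrix (Fin 2) (Fin 2) ℂ)
    (ρ : Matrix (Fin 2 × β) (Fin 2 × β) ℂ) : Matrix (Fin 2 × β) (Fin 2 × β) ℂ :=
  Matrix.of fun x y => Φ (Matrix.of fun i j => ρ (i, x.2) (j, y.2)) x.1 y.1

/-- `∑_{i j} w_i ρ_{(i,·),(j,·)} conj (w_j)`. -/
def slice {β : Type*} (w : Fin 2 → ℂ) (ρ : Matrix (Fin 2 × β) (Fin 2 × β) ℂ) :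
    Matrix β β ℂ :=
  Matrix.of fun b b' => ∑ i, ∑ j, w i * ρ (i, b) (j, b') * star (w j)

/-- Homogeneous entropy: `tr X * S (X / tr X)`. -/
noncomputable def cent {n : Type*} [Fintype n] [DecidableEq n] (A : Matrix n n ℂ) : ℝ :=
  ent A - Real.negMulLog A.trace.re

end Vale.Agent.P358
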