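import Mathlib

/-!
# P358 : a determinant inequality
-/

namespace Vale.Agent.P358

open Matrix
open scoped ComplexOrder

/-- The pinching inequality (as a predicate, for the induction). -/
def PinchProp (m ι : Type*) [Fintype m] [DecidableEq m] [Fintype ι] [DecidableEq ι] : Prop :=
  ∀ (A : Matrix m m ℂ) (B : Matrix ι ι ℂ) (K : Matrix m ι ℂ) (d : m → ℝ),
    A.PosDef → B.PosDef → K * Kᴴ = Matrix.diagonal (fun i => (d i : ℂ)) →
    A.det.re * ∏ i, (1 + d i ^ 2 / ((A i i).re * ((K * B * Kᴴ) i i).re)) ≤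
      (A + K * B⁻¹ * Kᴴ).det.re

section

variable {m ι : Type*} [Fintype m] [DecidableEq m] [Fintype ι] [DecidableEq ι]

theorem block_form (P : Matrix Unit Unit ℂ) (Q : Matrix Unit m ℂ) {D : Matrix m m ℂ}
    (hD : D.PosDef) (Y : Matrix Unit m ℂ) :
    P + Y * Qᴴ + Q * Yᴴ + Y * D * Yᴴ =
      (P - Q * D⁻¹ * Qᴴ) + (Y + Q * D⁻¹) * D * (Y + Q * D⁻¹)ᴴ := by
  have hu : IsUnit D.det := (Matrix.isUnit_iff_isUnit_det D).1 hD.isUnit
  have h1 : (D⁻¹)ᴴ = D⁻¹ := by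
    rw [Matrix.conjTranspose_nonsing_inv, hD.1.eq]
  have h2 : (Y + Q * D⁻¹)ᴴ = Yᴴ + D⁻¹ * Qᴴ := by
    rw [Matrix.conjTranspose_add, Matrix.conjTranspose_mul, h1]
  rw [h2]
  simp only [Matrix.add_mul, Matrix.mul_add, Matrix.mul_assoc,
    Matrix.nonsing_inv_mul_cancel_left _ _ hu, Matrix.mul_nonsing_inv_cancel_left _ _ hu]
  abel

theorem cs_form {B : Matrix ι ι ℂ} (hB : B.PosDef) (k W : Matrix Unit ι ℂ) {d : ℝ}
    (h : (W * kᴴ) () () = (d : ℂ)) :
    d ^ 2 / ((k * B * kᴴ) () ()).re ≤ ((W * B⁻¹ * Wᴴ) () ()).re := by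
  have hu : IsUnit B.det := (Matrix.isUnit_iff_isUnit_det B).1 hB.isUnit
  have hkW : (k * Wᴴ) () () = (d : ℂ) := by
    have : k * Wᴴ = (W * kᴴ)ᴴ := by
      rw [Matrix.conjTranspose_mul, Matrix.conjTranspose_conjTranspose]
    rw [this, Matrix.conjTranspose_apply, h]
    simp
  have h0 : 0 ≤ ((k * B * kᴴ) () ()).re :=
    (Complex.nonneg_iff.1 ((hB.posSemidef.mul_mul_conjTranspose_same k).diag_nonneg)).1
  have h00 : 0 ≤ ((W * B⁻¹ * Wᴴ) () ()).re :=
    (Complex.nonneg_iff.1 ((hB.inv.posSemidef.mul_mul_conjTranspose_same W).diag_nonneg)).1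
  rcases h0.eq_or_lt with hz | hpos
  · rw [← hz, div_zero]
    exact h00
  · set b := ((k * B * kᴴ) () ()).re with hb
    set c : ℝ := d / b with hc
    have h1 : 0 ≤ (((W - (c : ℂ) • (k * B)) * B⁻¹ * (W - (c : ℂ) • (k * B))ᴴ) () ()).re :=
      (Complex.nonneg_iff.1 ((hB.inv.posSemidef.mul_mul_conjTranspose_same _).diag_nonneg)).1
    have h2 : (W - (c : ℂ) • (k * B)) * B⁻¹ * (W - (c : ℂ) • (k * B))ᴴ =
        W * B⁻¹ * Wᴴ - (c : ℂ) • (W * kᴴ) - (c : ℂ) • (k * Wᴴ) +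
          ((c : ℂ) * c) • (k * B * kᴴ) := by
      have h3 : (W - (c : ℂ) • (k * B))ᴴ = Wᴴ - (c : ℂ) • (B * kᴴ) := by
        rw [Matrix.conjTranspose_sub, Matrix.conjTranspose_smul, Matrix.conjTranspose_mul,
          hB.1.eq]
        simp
      rw [h3]
      simp only [Matrix.sub_mul, Matrix.mul_sub, Matrix.smul_mul, Matrix.mul_smul,
        Matrix.mul_assoc, Matrix.nonsing_inv_mul_cancel_left _ _ hu,
        Matrix.mul_nonsing_inv_cancel_left _ _ hu, smul_smul, smul_sub]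
      abel
    rw [h2, Matrix.add_apply, Matrix.sub_apply, Matrix.sub_apply, Matrix.smul_apply,
      Matrix.smul_apply, Matrix.smul_apply, h, hkW] at h1
    have h4 : ((W * B⁻¹ * Wᴴ) () () - (c : ℂ) • (d : ℂ) - (c : ℂ) • (d : ℂ) +
          ((c : ℂ) * c) • (k * B * kᴴ) () ()).re =
        ((W * B⁻¹ * Wᴴ) () ()).re - c * d - c * d + c * c * b := by
      rw [hb]
      simp [← Complex.ofReal_mul]
    rw [h4] at h1
    have h5 : c * d + c * d - c * c * b = d ^ 2 / b := by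
      rw [hc]
      field_simp
      ring
    linarith

theorem pinch_step (ih : PinchProp m ι) : PinchProp (Unit ⊕ m) ι := by
  intro A B K d hA hB hK
  have huB : IsUnit B.det := (Matrix.isUnit_iff_isUnit_det B).1 hB.isUnit
  obtain ⟨A11, A12, A21, A22, rfl⟩ : ∃ A11 A12 A21 A22, A = fromBlocks A11 A12 A21 A22 :=
    ⟨_, _, _, _, (Matrix.fromBlocks_toBlocks A).symm⟩
  obtain ⟨K1, K2, rfl⟩ : ∃ K1 K2, K = fromRows K1 K2 :=
    ⟨_, _, (Matrix.fromRows_toRows K).symm⟩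
  have hA21 : A21 = A12ᴴ := by
    have := hA.1
    rw [Matrix.isHermitian_fromBlocks_iff] at this
    exact this.2.1.symm
  subst hA21
  have hA22 : A22.PosDef := by
    have : A22 = (fromBlocks A11 A12 A12ᴴ A22).submatrix Sum.inr Sum.inr := by
      ext i j; rfl
    rw [this]
    exact hA.submatrix Sum.inr_injective
  have hBinv : (B⁻¹).PosDef := hB.inv
  have hBi : (B⁻¹)ᴴ = B⁻¹ := hBinv.1.eq
  have hD : (A22 + K2 * B⁻¹ * K2ᴴ).PosDef :=
    hA22.add_posSemidef (hBinv.posSemidef.mul_mul_conjTranspose_same K2)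
  have hM : fromBlocks A11 A12 A12ᴴ A22 + fromRows K1 K2 * B⁻¹ * (fromRows K1 K2)ᴴ =
      fromBlocks (A11 + K1 * B⁻¹ * K1ᴴ) (A12 + K1 * B⁻¹ * K2ᴴ)
        (A12 + K1 * B⁻¹ * K2ᴴ)ᴴ (A22 + K2 * B⁻¹ * K2ᴴ) := by
    rw [Matrix.conjTranspose_fromRows_eq_fromCols_conjTranspose, Matrix.fromRows_mul,
      Matrix.fromRows_mul_fromCols, Matrix.fromBlocks_add]
    congr 1
    rw [Matrix.conjTranspose_add, Matrix.conjTranspose_mul, Matrix.conjTranspose_mul,
      Matrix.conjTranspose_conjTranspose, hBi, Matrix.mul_assoc]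
  have hMpd : (fromBlocks A11 A12 A12ᴴ A22 +
      fromRows K1 K2 * B⁻¹ * (fromRows K1 K2)ᴴ).PosDef :=
    hA.add_posSemidef (hBinv.posSemidef.mul_mul_conjTranspose_same _)
  -- orthogonality of rows
  have hKK : fromBlocks (K1 * K1ᴴ) (K1 * K2ᴴ) (K2 * K1ᴴ) (K2 * K2ᴴ) =
      Matrix.diagonal (fun i => (d i : ℂ)) := by
    rw [← hK, Matrix.conjTranspose_fromRows_eq_fromCols_conjTranspose,
      Matrix.fromRows_mul_fromCols]
  have hK11 : (K1 * K1ᴴ) () () = (d (Sum.inl ()) : ℂ) := by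
    have := congrFun (congrFun hKK (Sum.inl ())) (Sum.inl ())
    rw [Matrix.fromBlocks_apply₁₁] at this
    rw [this]
    simp
  have hK21 : K2 * K1ᴴ = 0 := by
    ext i j
    have := congrFun (congrFun hKK (Sum.inr i)) (Sum.inl j)
    rw [Matrix.fromBlocks_apply₂₁] at this
    rw [this]
    simp
  have hK22 : K2 * K2ᴴ = Matrix.diagonal (fun i => (d (Sum.inr i) : ℂ)) := by
    ext i j
    have := congrFun (congrFun hKK (Sum.inr i)) (Sum.inr j)
    rw [Matrix.fromBlocks_apply₂₂] at this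
    rw [this]
    simp [Matrix.diagonal_apply]
  have ih' := ih A22 B K2 (fun i => d (Sum.inr i)) hA22 hB hK22
  -- Schur complements
  set sA : Matrix Unit Unit ℂ := A11 - A12 * A22⁻¹ * A12ᴴ with hsA
  set sM : Matrix Unit Unit ℂ := (A11 + K1 * B⁻¹ * K1ᴴ) -
    (A12 + K1 * B⁻¹ * K2ᴴ) * (A22 + K2 * B⁻¹ * K2ᴴ)⁻¹ * (A12 + K1 * B⁻¹ * K2ᴴ)ᴴ with hsM
  have detA : (fromBlocks A11 A12 A12ᴴ A22).det = A22.det * sA () () := by
    let := hA22.isUnit.invertible
    rw [Matrix.det_fromBlocks₂₂, Matrix.invOf_eq_nonsing_inv, ← hsA, Matrix.det_unique sA]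
  have detM : (fromBlocks A11 A12 A12ᴴ A22 +
      fromRows K1 K2 * B⁻¹ * (fromRows K1 K2)ᴴ).det =
      (A22 + K2 * B⁻¹ * K2ᴴ).det * sM () () := by
    let := hD.isUnit.invertible
    rw [hM, Matrix.det_fromBlocks₂₂, Matrix.invOf_eq_nonsing_inv, ← hsM, Matrix.det_unique sM]
  have posA22 := hA22.det_pos
  have posD := hD.det_pos
  have posA := hA.det_pos
  have posM := hMpd.det_pos
  rw [detA] at posA
  rw [detM] at posM
  have psA : 0 < sA () () := (pos_iff_pos_of_mul_pos posA).1 posA22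
  have psM : 0 < sM () () := (pos_iff_pos_of_mul_pos posM).1 posD
  have rA22 := Complex.pos_iff.1 posA22
  have rD := Complex.pos_iff.1 posD
  have rsA := Complex.pos_iff.1 psA
  have rsM := Complex.pos_iff.1 psM
  -- the key inequality for the Schur complement
  have key : (sA () ()).re + d (Sum.inl ()) ^ 2 / ((K1 * B * K1ᴴ) () ()).re ≤
      (sM () ()).re := by
    set Y : Matrix Unit m ℂ := -((A12 + K1 * B⁻¹ * K2ᴴ) * (A22 + K2 * B⁻¹ * K2ᴴ)⁻¹) with hY
    have f1 := block_form (A11 + K1 * B⁻¹ * K1ᴴ) (A12 + K1 * B⁻¹ * K2ᴴ) hD Y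
    have f2 := block_form A11 A12 hA22 Y
    rw [← hsM] at f1
    rw [← hsA] at f2
    have hY0 : Y + (A12 + K1 * B⁻¹ * K2ᴴ) * (A22 + K2 * B⁻¹ * K2ᴴ)⁻¹ = 0 := by
      rw [hY]; simp
    rw [hY0, Matrix.zero_mul, Matrix.zero_mul, add_zero] at f1
    have f3 : (A11 + K1 * B⁻¹ * K1ᴴ) + Y * (A12 + K1 * B⁻¹ * K2ᴴ)ᴴ +
        (A12 + K1 * B⁻¹ * K2ᴴ) * Yᴴ + Y * (A22 + K2 * B⁻¹ * K2ᴴ) * Yᴴ =
        (A11 + Y * A12ᴴ + A12 * Yᴴ + Y * A22 * Yᴴ) +
          (K1 + Y * K2) * B⁻¹ * (K1 + Y * K2)ᴴ := by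
      simp only [Matrix.conjTranspose_add, Matrix.conjTranspose_mul,
        Matrix.conjTranspose_conjTranspose, hBi, Matrix.mul_add, Matrix.add_mul,
        Matrix.mul_assoc]
      abel
    rw [f3, f2] at f1
    have g1 : 0 ≤ (((Y + A12 * A22⁻¹) * A22 * (Y + A12 * A22⁻¹)ᴴ) () ()).re :=
      (Complex.nonneg_iff.1
        ((hA22.posSemidef.mul_mul_conjTranspose_same _).diag_nonneg)).1
    have hW : ((K1 + Y * K2) * K1ᴴ) () () = (d (Sum.inl ()) : ℂ) := by
      rw [Matrix.add_mul, Matrix.mul_assoc, hK21, Matrix.mul_zero, add_zero, hK11]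
    have g2 := cs_form hB K1 (K1 + Y * K2) hW
    have f4 := congrArg Complex.re (congrFun (congrFun f1 ()) ())
    rw [Matrix.add_apply, Matrix.add_apply, Complex.add_re, Complex.add_re] at f4
    linarith
  -- comparison sA ≤ A11
  have hsA_le : (sA () ()).re ≤ (A11 () ()).re := by
    have g : 0 ≤ ((A12 * A22⁻¹ * A12ᴴ) () ()).re :=
      (Complex.nonneg_iff.1
        ((hA22.inv.posSemidef.mul_mul_conjTranspose_same A12).diag_nonneg)).1
    rw [hsA, Matrix.sub_apply, Complex.sub_re]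
    linarith
  have hb1 : 0 ≤ ((K1 * B * K1ᴴ) () ()).re :=
    (Complex.nonneg_iff.1 ((hB.posSemidef.mul_mul_conjTranspose_same K1).diag_nonneg)).1
  have key2 : (sA () ()).re * (1 + d (Sum.inl ()) ^ 2 / ((A11 () ()).re *
      ((K1 * B * K1ᴴ) () ()).re)) ≤ (sM () ()).re := by
    refine le_trans ?_ key
    rw [mul_add, mul_one]
    refine add_le_add le_rfl ?_
    rcases hb1.eq_or_lt with hz | hpos
    · rw [← hz]; simp
    · have ha : 0 < (A11 () ()).re := lt_of_lt_of_le rsA.1 hsA_le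
      rw [mul_div_assoc', div_le_div_iff₀ (by positivity) hpos]
      have h1 : (sA () ()).re * d (Sum.inl ()) ^ 2 * ((K1 * B * K1ᴴ) () ()).re ≤
          (A11 () ()).re * d (Sum.inl ()) ^ 2 * ((K1 * B * K1ᴴ) () ()).re := by
        gcongr
      nlinarith
  rw [detA, detM, Fintype.prod_sum_type]
  have e1 : (A22.det * sA () ()).re = A22.det.re * (sA () ()).re := by
    rw [Complex.mul_re, ← rsA.2, mul_zero, sub_zero]
  have e2 : ((A22 + K2 * B⁻¹ * K2ᴴ).det * sM () ()).re =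
      (A22 + K2 * B⁻¹ * K2ᴴ).det.re * (sM () ()).re := by
    rw [Complex.mul_re, ← rsM.2, mul_zero, sub_zero]
  rw [e1, e2]
  have e3 : ∏ x : Unit, (1 + d (Sum.inl x) ^ 2 / (((fromBlocks A11 A12 A12ᴴ A22)
        (Sum.inl x) (Sum.inl x)).re *
        ((fromRows K1 K2 * B * (fromRows K1 K2)ᴴ) (Sum.inl x) (Sum.inl x)).re)) =
      1 + d (Sum.inl ()) ^ 2 / ((A11 () ()).re * ((K1 * B * K1ᴴ) () ()).re) := by
    rw [Fintype.prod_unique]
    rfl
  have e4 : ∏ x : m, (1 + d (Sum.inr x) ^ 2 / (((fromBlocks A11 A12 A12ᴴ A22)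
        (Sum.inr x) (Sum.inr x)).re *
        ((fromRows K1 K2 * B * (fromRows K1 K2)ᴴ) (Sum.inr x) (Sum.inr x)).re)) =
      ∏ x : m, (1 + d (Sum.inr x) ^ 2 / ((A22 x x).re * ((K2 * B * K2ᴴ) x x).re)) := rfl
  rw [e3, e4]
  have hprod_nonneg : 0 ≤ A22.det.re *
      ∏ x : m, (1 + d (Sum.inr x) ^ 2 / ((A22 x x).re * ((K2 * B * K2ᴴ) x x).re)) := by
    refine mul_nonneg rA22.1.le (Finset.prod_nonneg fun i _ => ?_)
    have h1 : 0 ≤ (A22 i i).re := (Complex.nonneg_iff.1 hA22.posSemidef.diag_nonneg).1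
    have h2 : 0 ≤ ((K2 * B * K2ᴴ) i i).re :=
      (Complex.nonneg_iff.1 ((hB.posSemidef.mul_mul_conjTranspose_same K2).diag_nonneg)).1
    positivity
  calc A22.det.re * (sA () ()).re * ((1 + d (Sum.inl ()) ^ 2 / ((A11 () ()).re *
        ((K1 * B * K1ᴴ) () ()).re)) *
        ∏ x : m, (1 + d (Sum.inr x) ^ 2 / ((A22 x x).re * ((K2 * B * K2ᴴ) x x).re)))
      = (A22.det.re * ∏ x : m, (1 + d (Sum.inr x) ^ 2 / ((A22 x x).re *
          ((K2 * B * K2ᴴ) x x).re))) * ((sA () ()).re * (1 + d (Sum.inl ()) ^ 2 /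
          ((A11 () ()).re * ((K1 * B * K1ᴴ) () ()).re))) := by ring
    _ ≤ (A22 + K2 * B⁻¹ * K2ᴴ).det.re * (sM () ()).re :=
        mul_le_mul ih' key2 (by
          have : 0 ≤ (A11 () ()).re := le_trans rsA.1.le hsA_le
          have := rsA.1
          positivity) rD.1.le

theorem pinch_equiv {m' : Type*} [Fintype m'] [DecidableEq m'] (e : m' ≃ m)
    (h : PinchProp m' ι) : PinchProp m ι := by
  intro A B K d hA hB hK
  have hA' : (A.submatrix e e).PosDef := hA.submatrix e.injective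
  have hK' : (K.submatrix e id) * (K.submatrix e id)ᴴ =
      Matrix.diagonal (fun i => (d (e i) : ℂ)) := by
    ext i j
    have := congrFun (congrFun hK (e i)) (e j)
    rw [Matrix.mul_apply] at this ⊢
    simp only [Matrix.submatrix_apply, Matrix.conjTranspose_apply, id] at this ⊢
    rw [this, Matrix.diagonal_apply, Matrix.diagonal_apply]
    simp
  have h1 := h _ B _ _ hA' hB hK'
  have h2 : A.submatrix e e + K.submatrix e id * B⁻¹ * (K.submatrix e id)ᴴ =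
      (A + K * B⁻¹ * Kᴴ).submatrix e e := by
    ext i j
    simp [Matrix.mul_apply]
  rw [h2, Matrix.det_submatrix_equiv_self, Matrix.det_submatrix_equiv_self] at h1
  refine le_of_eq_of_le ?_ h1
  congr 1
  rw [← Equiv.prod_comp e]
  refine Finset.prod_congr rfl fun i _ => ?_
  rfl

theorem pinch_fin (n : ℕ) : PinchProp (Fin n) ι := by
  induction n with
  | zero =>
    intro A B K d hA hB hK
    simp
  | succ n ih =>
    refine pinch_equiv (m' := Unit ⊕ Fin n) ?_ (pinch_step ih)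
    exact ((Equiv.sumComm _ _).trans (Equiv.optionEquivSumPUnit (Fin n)).symm).trans
      (finSuccEquiv n).symm

theorem pinch : PinchProp m ι :=
  pinch_equiv (Fintype.equivFin m).symm (pinch_fin _)

theorem det_pinch {A : Matrix m m ℂ} (hA : A.PosDef) {B : Matrix ι ι ℂ} (hB : B.PosDef)
    (K : Matrix m ι ℂ) (d : m → ℝ) (hK : K * Kᴴ = Matrix.diagonal (fun i => (d i : ℂ))) :
    A.det.re * ∏ i, (1 + d i ^ 2 / ((A i i).re * ((K * B * Kᴴ) i i).re)) ≤
      (A + K * B⁻¹ * Kᴴ).det.re :=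
  pinch A B K d hA hB hK

end

end Vale.Agent.P358
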