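import Vale.Agent.P358.Scalar
import Vale.Agent.P358.DetPinch

/-!
# P358 : the main entropy inequality for block matrices
-/

namespace Vale.Agent.P358

open Matrix
open scoped ComplexOrder

section

variable {β ι : Type*} [Fintype β] [DecidableEq β] [Fintype ι] [DecidableEq ι]

theorem scalar_posDef {T : ℝ} (hT : 0 < T) : ((T : ℂ) • (1 : Matrix β β ℂ)).PosDef :=
  Matrix.PosDef.one.smul (by simpa using hT)

theorem add_scalar_posDef {T : ℝ} (hT : 0 < T) {A : Matrix β β ℂ} (hA : A.PosSemidef) :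
    ((T : ℂ) • (1 : Matrix β β ℂ) + A).PosDef :=
  (scalar_posDef hT).add_posSemidef hA

/-- The block matrix. -/
def blockM (A C : Matrix β ι ℂ) (P : Matrix β β ℂ) : Matrix (β ⊕ β) (β ⊕ β) ℂ :=
  fromBlocks (A * Aᴴ + P) (A * Cᴴ) (C * Aᴴ) (C * Cᴴ)

theorem blockM_posSemidef (A C : Matrix β ι ℂ) {P : Matrix β β ℂ} (hP : P.PosSemidef) :
    (blockM A C P).PosSemidef := by
  have h1 : blockM A C P = fromRows A C * (fromRows A C)ᴴ +
      fromRows (1 : Matrix β β ℂ) 0 * P * (fromRows (1 : Matrix β β ℂ) 0)ᴴ := by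
    rw [Matrix.conjTranspose_fromRows_eq_fromCols_conjTranspose,
      Matrix.conjTranspose_fromRows_eq_fromCols_conjTranspose,
      Matrix.fromRows_mul_fromCols, Matrix.fromRows_mul, Matrix.fromRows_mul_fromCols,
      Matrix.fromBlocks_add]
    simp [blockM]
  rw [h1]
  exact (posSemidef_self_mul_conjTranspose _).add (hP.mul_mul_conjTranspose_same _)

theorem resolvent_identity (C : Matrix β ι ℂ) {T : ℝ} (hT : 0 < T) :
    1 - Cᴴ * ((T : ℂ) • (1 : Matrix β β ℂ) + C * Cᴴ)⁻¹ * C =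
      (T : ℂ) • ((T : ℂ) • (1 : Matrix ι ι ℂ) + Cᴴ * C)⁻¹ := by
  have hD : ((T : ℂ) • (1 : Matrix β β ℂ) + C * Cᴴ).PosDef :=
    add_scalar_posDef hT (posSemidef_self_mul_conjTranspose C)
  have hB : ((T : ℂ) • (1 : Matrix ι ι ℂ) + Cᴴ * C).PosDef :=
    add_scalar_posDef hT (posSemidef_conjTranspose_mul_self C)
  have uD := (Matrix.isUnit_iff_isUnit_det _).1 hD.isUnit
  have uB := (Matrix.isUnit_iff_isUnit_det _).1 hB.isUnit
  have h1 : ((T : ℂ) • (1 : Matrix ι ι ℂ) + Cᴴ * C) *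
      (1 - Cᴴ * ((T : ℂ) • (1 : Matrix β β ℂ) + C * Cᴴ)⁻¹ * C) = (T : ℂ) • 1 := by
    have h2 : ((T : ℂ) • (1 : Matrix ι ι ℂ) + Cᴴ * C) * Cᴴ =
        Cᴴ * ((T : ℂ) • (1 : Matrix β β ℂ) + C * Cᴴ) := by
      simp [Matrix.add_mul, Matrix.mul_add, Matrix.mul_assoc]
    rw [Matrix.mul_sub, Matrix.mul_one, ← Matrix.mul_assoc, ← Matrix.mul_assoc, h2,
      Matrix.mul_assoc Cᴴ, Matrix.mul_nonsing_inv _ uD, Matrix.mul_one]
    abel
  have h3 := congrArg (fun X => ((T : ℂ) • (1 : Matrix ι ι ℂ) + Cᴴ * C)⁻¹ * X) h1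
  simp only [Matrix.nonsing_inv_mul_cancel_left _ _ uB] at h3
  rw [h3, Matrix.mul_smul, Matrix.mul_one]

variable (A C : Matrix β ι ℂ) {P : Matrix β β ℂ} (hP : P.PosSemidef) (x : β → ℝ)
  (hA : A * Aᴴ = Matrix.diagonal (fun i => (x i : ℂ)))

include hA in
theorem x_nonneg (i : β) : 0 ≤ x i := by
  have h := (posSemidef_self_mul_conjTranspose A).diag_nonneg (i := i)
  rw [hA, Matrix.diagonal_apply_eq] at h
  exact_mod_cast h

include hA in
theorem row_zero {i : β} (hi : x i = 0) (j : ι) : A i j = 0 := by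
  have h := congrFun (congrFun hA i) i
  rw [Matrix.diagonal_apply_eq, hi, Matrix.mul_apply] at h
  have h2 : ∑ j, Complex.normSq (A i j) = 0 := by
    have h3 := congrArg Complex.re h
    simp only [Complex.re_sum, Matrix.conjTranspose_apply, Complex.ofReal_zero,
      Complex.zero_re] at h3
    rw [← h3]
    refine Finset.sum_congr rfl fun k _ => ?_
    rw [Complex.star_def, Complex.mul_conj, Complex.ofReal_re]
  have h4 := (Finset.sum_eq_zero_iff_of_nonneg
    (fun j _ => Complex.normSq_nonneg (A i j))).1 h2 j (Finset.mem_univ j)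
  exact Complex.normSq_eq_zero.1 h4

/-- the numbers `z_i` -/
noncomputable def zval (A C : Matrix β ι ℂ) (x : β → ℝ) (i : β) : ℝ :=
  ((A * (Cᴴ * C) * Aᴴ) i i).re / x i

include hA in
theorem zval_nonneg (i : β) : 0 ≤ zval A C x i :=
  div_nonneg (Complex.nonneg_iff.1 (((posSemidef_conjTranspose_mul_self C).mul_mul_conjTranspose_same
    A).diag_nonneg)).1 (x_nonneg A x hA i)

include hA in
theorem zval_mul (i : β) : ((A * (Cᴴ * C) * Aᴴ) i i).re = x i * zval A C x i := by
  rw [zval]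
  rcases eq_or_ne (x i) 0 with h | h
  · rw [h, zero_mul]
    have : (A * (Cᴴ * C) * Aᴴ) i i = 0 := by
      rw [Matrix.mul_apply]
      refine Finset.sum_eq_zero fun j _ => ?_
      rw [Matrix.conjTranspose_apply, row_zero A x hA h j, star_zero, mul_zero]
    rw [this, Complex.zero_re]
  · field_simp

include hA in
theorem zval_sum_le : ∑ i, zval A C x i ≤ (C * Cᴴ).trace.re := by
  set s : β → ℝ := fun i => Real.sqrt (x i)⁻¹ with hs
  set E : Matrix β ι ℂ := Matrix.diagonal (fun i => (s i : ℂ)) * A with hE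
  have hEap : ∀ i j, E i j = (s i : ℂ) * A i j := by
    intro i j
    rw [hE, Matrix.diagonal_mul]
  have hEE : E * Eᴴ = Matrix.diagonal (fun i => ((s i * x i * s i : ℝ) : ℂ)) := by
    rw [hE, Matrix.conjTranspose_mul, Matrix.mul_assoc, ← Matrix.mul_assoc A, hA,
      Matrix.diagonal_conjTranspose, Matrix.diagonal_mul_diagonal, Matrix.diagonal_mul_diagonal]
    congr 1
    funext i
    simp
    ring
  have hEEE : E * Eᴴ * E = E := by
    rw [hEE]
    ext i j
    rw [Matrix.diagonal_mul, hEap]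
    rcases eq_or_ne (x i) 0 with h | h
    · rw [row_zero A x hA h j]; simp
    · have h1 : 0 ≤ x i := x_nonneg A x hA i
      have h2 : s i * x i * s i = 1 := by
        have h3 : s i * s i = (x i)⁻¹ := Real.mul_self_sqrt (by positivity)
        calc s i * x i * s i = (s i * s i) * x i := by ring
          _ = 1 := by rw [h3]; field_simp
      rw [h2]
      simp
  set Q : Matrix ι ι ℂ := Eᴴ * E with hQ
  have hQH : Qᴴ = Q := by
    rw [hQ, Matrix.conjTranspose_mul, Matrix.conjTranspose_conjTranspose]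
  have hQQ : Q * Q = Q := by
    rw [hQ, Matrix.mul_assoc, ← Matrix.mul_assoc E, hEEE]
  have h1 : C * (1 - Q) * Cᴴ = (C * (1 - Q)) * (C * (1 - Q))ᴴ := by
    have h11 : (1 - Q) * (1 - Q) = 1 - Q := by
      rw [Matrix.sub_mul, Matrix.mul_sub, Matrix.mul_sub, hQQ]
      simp
    rw [Matrix.conjTranspose_mul, Matrix.conjTranspose_sub, hQH, Matrix.conjTranspose_one,
      Matrix.mul_assoc C (1 - Q) ((1 - Q) * Cᴴ), ← Matrix.mul_assoc (1 - Q) (1 - Q), h11,
      Matrix.mul_assoc]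
  have h2 : 0 ≤ (C * (1 - Q) * Cᴴ).trace.re := by
    rw [h1]
    exact (Complex.nonneg_iff.1 (posSemidef_self_mul_conjTranspose _).trace_nonneg).1
  have h3 : (C * (1 - Q) * Cᴴ).trace = (C * Cᴴ).trace - (E * (Cᴴ * C) * Eᴴ).trace := by
    rw [Matrix.mul_sub, Matrix.sub_mul, Matrix.trace_sub, Matrix.mul_one]
    congr 1
    have h31 : C * Q * Cᴴ = (C * Eᴴ) * (E * Cᴴ) := by
      rw [hQ]; simp only [Matrix.mul_assoc]
    have h32 : E * (Cᴴ * C) * Eᴴ = (E * Cᴴ) * (C * Eᴴ) := by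
      simp only [Matrix.mul_assoc]
    rw [h31, h32, Matrix.trace_mul_comm]
  rw [h3, Complex.sub_re] at h2
  have h4 : (E * (Cᴴ * C) * Eᴴ).trace.re = ∑ i, zval A C x i := by
    rw [Matrix.trace, Complex.re_sum]
    refine Finset.sum_congr rfl fun i _ => ?_
    rw [Matrix.diag_apply, zval]
    have h5 : (E * (Cᴴ * C) * Eᴴ) i i = ((s i * s i : ℝ) : ℂ) * (A * (Cᴴ * C) * Aᴴ) i i := by
      rw [hE, Matrix.conjTranspose_mul, Matrix.diagonal_conjTranspose]
      have : Matrix.diagonal (fun i => (s i : ℂ)) * A * (Cᴴ * C) *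
          (Aᴴ * Matrix.diagonal (star fun i => (s i : ℂ))) =
          Matrix.diagonal (fun i => (s i : ℂ)) * (A * (Cᴴ * C) * Aᴴ) *
          Matrix.diagonal (star fun i => (s i : ℂ)) := by
        simp only [Matrix.mul_assoc]
      rw [this, Matrix.mul_diagonal, Matrix.diagonal_mul]
      simp
      ring
    rw [h5, Complex.re_ofReal_mul, Real.mul_self_sqrt (by
      have := x_nonneg A x hA i
      positivity)]
    ring
  linarith

include hA hP in
theorem logdet_E3 {T : ℝ} (hT : 0 < T) :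
    Real.log ((T : ℂ) • (1 : Matrix β β ℂ) + C * Cᴴ).det.re +
      Real.log ((T : ℂ) • (1 : Matrix β β ℂ) + P).det.re +
      ∑ i, Real.log (1 + T * x i / ((T + (P i i).re) * (T + zval A C x i))) ≤
    Real.log ((T : ℂ) • (1 : Matrix (β ⊕ β) (β ⊕ β) ℂ) + blockM A C P).det.re := by
  have hD : ((T : ℂ) • (1 : Matrix β β ℂ) + C * Cᴴ).PosDef :=
    add_scalar_posDef hT (posSemidef_self_mul_conjTranspose C)
  have hB : ((T : ℂ) • (1 : Matrix ι ι ℂ) + Cᴴ * C).PosDef :=
    add_scalar_posDef hT (posSemidef_conjTranspose_mul_self C)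
  have hTP : ((T : ℂ) • (1 : Matrix β β ℂ) + P).PosDef := add_scalar_posDef hT hP
  set s : ℝ := Real.sqrt T with hs
  have hss : (s : ℂ) * s = T := by
    rw [← Complex.ofReal_mul, hs, Real.mul_self_sqrt hT.le]
  set K : Matrix β ι ℂ := (s : ℂ) • A with hK
  have hKH : Kᴴ = (s : ℂ) • Aᴴ := by
    rw [hK, Matrix.conjTranspose_smul]
    simp
  have hKK : K * Kᴴ = Matrix.diagonal (fun i => ((T * x i : ℝ) : ℂ)) := by
    rw [hKH, hK, Matrix.smul_mul, Matrix.mul_smul, smul_smul, hss, hA, ← Matrix.diagonal_smul]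
    congr 1
    funext i
    simp
  have hpin := det_pinch hTP hB K (fun i => T * x i) hKK
  -- the block determinant
  have hdet : ((T : ℂ) • (1 : Matrix (β ⊕ β) (β ⊕ β) ℂ) + blockM A C P).det =
      ((T : ℂ) • (1 : Matrix β β ℂ) + C * Cᴴ).det *
      ((T : ℂ) • (1 : Matrix β β ℂ) + P +
        K * ((T : ℂ) • (1 : Matrix ι ι ℂ) + Cᴴ * C)⁻¹ * Kᴴ).det := by
    have h1 : (T : ℂ) • (1 : Matrix (β ⊕ β) (β ⊕ β) ℂ) + blockM A C P =
        fromBlocks ((T : ℂ) • (1 : Matrix β β ℂ) + (A * Aᴴ + P)) (A * Cᴴ) (C * Aᴴ)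
          ((T : ℂ) • (1 : Matrix β β ℂ) + C * Cᴴ) := by
      rw [blockM, ← Matrix.fromBlocks_one, Matrix.fromBlocks_smul, Matrix.fromBlocks_add]
      simp
    let := hD.isUnit.invertible
    rw [h1, Matrix.det_fromBlocks₂₂, Matrix.invOf_eq_nonsing_inv]
    congr 2
    have h2 := resolvent_identity C hT
    have h3 : A * Aᴴ - A * Cᴴ * ((T : ℂ) • (1 : Matrix β β ℂ) + C * Cᴴ)⁻¹ * (C * Aᴴ) =
        A * (1 - Cᴴ * ((T : ℂ) • (1 : Matrix β β ℂ) + C * Cᴴ)⁻¹ * C) * Aᴴ := by
      rw [Matrix.mul_sub, Matrix.sub_mul, Matrix.mul_one]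
      congr 1
      simp only [Matrix.mul_assoc]
    have h4 : K * ((T : ℂ) • (1 : Matrix ι ι ℂ) + Cᴴ * C)⁻¹ * Kᴴ =
        A * ((T : ℂ) • ((T : ℂ) • (1 : Matrix ι ι ℂ) + Cᴴ * C)⁻¹) * Aᴴ := by
      rw [hKH, hK, Matrix.smul_mul, Matrix.smul_mul, Matrix.mul_smul, smul_smul, hss,
        Matrix.mul_smul, Matrix.smul_mul]
    rw [h4, ← h2, ← h3]
    abel
  have p1 := hD.det_pos
  have p2 : (0 : ℂ) < ((T : ℂ) • (1 : Matrix β β ℂ) + P +
        K * ((T : ℂ) • (1 : Matrix ι ι ℂ) + Cᴴ * C)⁻¹ * Kᴴ).det :=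
    (hTP.add_posSemidef (hB.inv.posSemidef.mul_mul_conjTranspose_same K)).det_pos
  have p3 := hTP.det_pos
  have r1 := Complex.pos_iff.1 p1
  have r2 := Complex.pos_iff.1 p2
  have r3 := Complex.pos_iff.1 p3
  rw [hdet, Complex.mul_re, ← r1.2, zero_mul, sub_zero, Real.log_mul r1.1.ne' r2.1.ne', add_assoc]
  refine add_le_add le_rfl ?_
  have hpi : ∀ i, 0 ≤ (P i i).re := fun i => (Complex.nonneg_iff.1 hP.diag_nonneg).1
  have hfac : ∀ i, 1 + T * x i / ((T + (P i i).re) * (T + zval A C x i)) =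
      1 + (T * x i) ^ 2 / ((((T : ℂ) • (1 : Matrix β β ℂ) + P) i i).re *
        ((K * ((T : ℂ) • (1 : Matrix ι ι ℂ) + Cᴴ * C) * Kᴴ) i i).re) := by
    intro i
    have e1 : (((T : ℂ) • (1 : Matrix β β ℂ) + P) i i).re = T + (P i i).re := by
      simp
    have e2 : ((K * ((T : ℂ) • (1 : Matrix ι ι ℂ) + Cᴴ * C) * Kᴴ) i i).re =
        T * (x i * (T + zval A C x i)) := by
      have e3 : K * ((T : ℂ) • (1 : Matrix ι ι ℂ) + Cᴴ * C) * Kᴴ =
          (T : ℂ) • ((T : ℂ) • (A * Aᴴ) + A * (Cᴴ * C) * Aᴴ) := by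
        rw [hKH, hK, Matrix.smul_mul, Matrix.smul_mul, Matrix.mul_smul, smul_smul, hss,
          Matrix.mul_add, Matrix.add_mul, Matrix.mul_smul, Matrix.mul_one, Matrix.smul_mul]
      rw [e3, Matrix.smul_apply, Matrix.add_apply, Matrix.smul_apply, hA,
        Matrix.diagonal_apply_eq, smul_eq_mul, smul_eq_mul, Complex.re_ofReal_mul,
        Complex.add_re, ← Complex.ofReal_mul, Complex.ofReal_re, zval_mul A C x hA i]
      ring
    rw [e1, e2]
    have hz := zval_nonneg A C x hA i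
    have hp := hpi i
    rcases eq_or_ne (x i) 0 with h | h
    · rw [h]; simp
    · have h1 : T + (P i i).re ≠ 0 := by positivity
      have h2 : T + zval A C x i ≠ 0 := by positivity
      field_simp
  rw [Finset.sum_congr rfl fun i _ => congrArg Real.log (hfac i)]
  have hpos : ∀ i, 0 < 1 + (T * x i) ^ 2 / ((((T : ℂ) • (1 : Matrix β β ℂ) + P) i i).re *
        ((K * ((T : ℂ) • (1 : Matrix ι ι ℂ) + Cᴴ * C) * Kᴴ) i i).re) := by
    intro i
    rw [← hfac i]
    have hz := zval_nonneg A C x hA i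
    have hp := hpi i
    have hx := x_nonneg A x hA i
    positivity
  rw [← Real.log_prod (fun i _ => (hpos i).ne'), ← Real.log_mul r3.1.ne'
    (Finset.prod_pos fun i _ => hpos i).ne']
  refine Real.log_le_log ?_ hpin
  exact mul_pos r3.1 (Finset.prod_pos fun i _ => hpos i)

include hA hP in
theorem ent_E3_diag :
    ent (C * Cᴴ) + ent P + ∑ i, Real.negMulLog (x i) -
      ∑ i, phi (x i) (P i i).re (zval A C x i) ≤ ent (blockM A C P) := by
  have hM := blockM_posSemidef A C hP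
  have hC : (C * Cᴴ).PosSemidef := posSemidef_self_mul_conjTranspose C
  have hx := x_nonneg A x hA
  have hpi : ∀ i, 0 ≤ (P i i).re := fun i => (Complex.nonneg_iff.1 hP.diag_nonneg).1
  have hz := zval_nonneg A C x hA
  set p : β → ℝ := fun i => (P i i).re with hp
  set z : β → ℝ := zval A C x with hzdef
  set lp : β → ℝ := fun i => ((x i + p i + z i) +
    Real.sqrt ((x i + p i + z i) ^ 2 - 4 * (p i * z i))) / 2 with hlp
  set lm : β → ℝ := fun i => ((x i + p i + z i) -
    Real.sqrt ((x i + p i + z i) ^ 2 - 4 * (p i * z i))) / 2 with hlm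
  have rf : ∀ i, 0 ≤ lp i ∧ 0 ≤ lm i ∧ ∀ T : ℝ, (T + lp i) * (T + lm i) =
      T ^ 2 + T * (x i + p i + z i) + p i * z i := by
    intro i
    have h1 := hx i
    have h2 := hpi i
    have h3 := hz i
    refine roots_facts (by positivity) (by positivity) ?_
    nlinarith [sq_nonneg (p i - z i), mul_nonneg h1 h2, mul_nonneg h1 h3, sq_nonneg (x i)]
  let W : ((β ⊕ β) ⊕ β ⊕ β) ⊕ (β × Fin 4) → ℝ := Sum.elim
    (Sum.elim (fun _ => 1) (Sum.elim (fun _ => -1) (fun _ => -1)))
    (fun i => ![-1, -1, 1, 1] i.2)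
  let Y : ((β ⊕ β) ⊕ β ⊕ β) ⊕ (β × Fin 4) → ℝ := Sum.elim
    (Sum.elim hM.1.eigenvalues (Sum.elim hC.1.eigenvalues hP.1.eigenvalues))
    (fun i => ![lp i.1, lm i.1, p i.1, z i.1] i.2)
  have sumform : ∀ f : ℝ → ℝ, ∑ i, W i * f (Y i) =
      ∑ i, f (hM.1.eigenvalues i) - ∑ i, f (hC.1.eigenvalues i) - ∑ i, f (hP.1.eigenvalues i)
        + ∑ i, (-f (lp i) - f (lm i) + f (p i) + f (z i)) := by
    intro f
    rw [Fintype.sum_sum_type, Fintype.sum_sum_type (fun a => W (Sum.inl a) * f (Y (Sum.inl a))),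
      Fintype.sum_sum_type (fun a => W (Sum.inl (Sum.inr a)) * f (Y (Sum.inl (Sum.inr a)))),
      Fintype.sum_prod_type]
    simp only [W, Y, Sum.elim_inl, Sum.elim_inr, Fin.sum_univ_four, Matrix.cons_val, one_mul,
      neg_mul, Finset.sum_neg_distrib]
    have e1 : ∀ i, -f (lp i) + -f (lm i) + f (p i) + f (z i) =
        -f (lp i) - f (lm i) + f (p i) + f (z i) := fun i => by ring
    simp only [e1]
    ring
  have htrM : (blockM A C P).trace.re = ∑ i, x i + P.trace.re + (C * Cᴴ).trace.re := by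
    have htb : (fromBlocks (A * Aᴴ + P) (A * Cᴴ) (C * Aᴴ) (C * Cᴴ)).trace =
        (A * Aᴴ + P).trace + (C * Cᴴ).trace := by
      simp [Matrix.trace, Fintype.sum_sum_type]
    rw [blockM, htb, Matrix.trace_add, hA, Matrix.trace_diagonal]
    simp
  have htrP : P.trace.re = ∑ i, p i := by
    rw [Matrix.trace, Complex.re_sum]
    rfl
  have hmain := H_lemma W Y ?_ ?_ ?_ ?_
  · rw [sumform Real.negMulLog] at hmain
    have e1 : ent (blockM A C P) = ∑ i, Real.negMulLog (hM.1.eigenvalues i) := by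
      rw [ent, dif_pos hM.1]
    have e2 : ent (C * Cᴴ) = ∑ i, Real.negMulLog (hC.1.eigenvalues i) := by
      rw [ent, dif_pos hC.1]
    have e3 : ent P = ∑ i, Real.negMulLog (hP.1.eigenvalues i) := by
      rw [ent, dif_pos hP.1]
    have e4 : ∑ i, phi (x i) (p i) (z i) = ∑ i, Real.negMulLog (x i) +
        ∑ i, (-Real.negMulLog (lp i) - Real.negMulLog (lm i) + Real.negMulLog (p i) +
          Real.negMulLog (z i)) := by
      rw [← Finset.sum_add_distrib]
      refine Finset.sum_congr rfl fun i _ => ?_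
      rw [phi, nml2]
      ring
    rw [e1, e2, e3, e4]
    linarith
  · rintro ((i | i | i) | ⟨i, j⟩)
    · exact hM.eigenvalues_nonneg i
    · exact hC.eigenvalues_nonneg i
    · exact hP.eigenvalues_nonneg i
    · obtain ⟨h1, h2, -⟩ := rf i
      fin_cases j
      · exact h1
      · exact h2
      · exact hpi i
      · exact hz i
  · have := sumform (fun _ => 1)
    simp only [mul_one] at this
    rw [this]
    simp
  · have := sumform (fun y => y)
    rw [this, eigenvalues_sum_re hM.1, eigenvalues_sum_re hC.1, eigenvalues_sum_re hP.1, htrM]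
    have : ∀ i, -lp i - lm i + p i + z i = - x i := by
      intro i
      rw [hlp, hlm]
      ring
    simp only [this, Finset.sum_neg_distrib]
    ring
  · intro T hT
    rw [sumform (fun y => Real.log (T + y)), ← log_det_add hM hT, ← log_det_add hC hT,
      ← log_det_add hP hT]
    have h1 := logdet_E3 A C hP x hA hT
    have h2 : ∀ i, -Real.log (T + lp i) - Real.log (T + lm i) + Real.log (T + p i) +
        Real.log (T + z i) = - Real.log (1 + T * x i / ((T + (P i i).re) *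
          (T + zval A C x i))) := by
      intro i
      obtain ⟨h1, h2, h3⟩ := rf i
      have hxi := hx i
      have hpi' : 0 ≤ p i := hpi i
      have hzi : 0 ≤ z i := hz i
      have e1 : Real.log (T + lp i) + Real.log (T + lm i) =
          Real.log (T ^ 2 + T * (x i + p i + z i) + p i * z i) := by
        rw [← Real.log_mul (by positivity) (by positivity), h3]
      have e2 : Real.log (T + p i) + Real.log (T + z i) =
          Real.log ((T + p i) * (T + z i)) := by
        rw [← Real.log_mul (by positivity) (by positivity)]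
      have e3 : Real.log (1 + T * x i / ((T + p i) * (T + z i))) =
          Real.log (T ^ 2 + T * (x i + p i + z i) + p i * z i) -
            Real.log ((T + p i) * (T + z i)) := by
        rw [← Real.log_div (by positivity) (by positivity)]
        congr 1
        field_simp
        ring
      change _ = - Real.log (1 + T * x i / ((T + p i) * (T + z i)))
      rw [e3, ← e1, ← e2]
      ring
    simp only [h2, Finset.sum_neg_distrib]
    linarith

include hA hP in
theorem ent_E3_diag' :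
    ent (C * Cᴴ) + ent P + ent (A * Aᴴ) -
      phi (A * Aᴴ).trace.re P.trace.re (C * Cᴴ).trace.re ≤ ent (blockM A C P) := by
  refine le_trans ?_ (ent_E3_diag A C hP x hA)
  have h1 : ent (A * Aᴴ) = ∑ i, Real.negMulLog (x i) := by
    rw [hA, ent_diagonal]
  have h2 : (A * Aᴴ).trace.re = ∑ i, x i := by
    rw [hA, Matrix.trace_diagonal]
    simp
  have htrP : P.trace.re = ∑ i, (P i i).re := by
    rw [Matrix.trace, Complex.re_sum]
    rfl
  have h3 := phi_superadd x (fun i => (P i i).re) (zval A C x) (x_nonneg A x hA)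
    (fun i => (Complex.nonneg_iff.1 hP.diag_nonneg).1) (zval_nonneg A C x hA)
    (X := (A * Aᴴ).trace.re) (P := P.trace.re) (Z := (C * Cᴴ).trace.re) h2.symm htrP.symm.le
    (zval_sum_le A C x hA)
  rw [h1]
  linarith

omit hA x in
include hP in
/-- The block inequality: `M = [[AA* + P, AC*],[CA*, CC*]]`. -/
theorem ent_E3 :
    ent (C * Cᴴ) + ent P + ent (A * Aᴴ) -
      phi (A * Aᴴ).trace.re P.trace.re (C * Cᴴ).trace.re ≤ ent (blockM A C P) := by
  have hAA : (A * Aᴴ).IsHermitian := (posSemidef_self_mul_conjTranspose A).1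
  obtain ⟨U, hU, hU', hd⟩ := exists_diag hAA
  have hUU : (Uᴴ)ᴴ * Uᴴ = 1 := by rw [Matrix.conjTranspose_conjTranspose, hU']
  have h1 : (Uᴴ * A) * (Uᴴ * A)ᴴ = Matrix.diagonal (fun i => (hAA.eigenvalues i : ℂ)) := by
    have : (Uᴴ * A) * (Uᴴ * A)ᴴ = Uᴴ * (A * Aᴴ) * U := by
      rw [Matrix.conjTranspose_mul, Matrix.conjTranspose_conjTranspose]
      simp only [Matrix.mul_assoc]
    rw [this]
    conv_lhs => rw [hd]
    rw [show Uᴴ * (U * diagonal (fun i => (hAA.eigenvalues i : ℂ)) * Uᴴ) * U =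
        (Uᴴ * U) * diagonal (fun i => (hAA.eigenvalues i : ℂ)) * (Uᴴ * U) by
          simp only [Matrix.mul_assoc]]
    rw [hU, Matrix.one_mul, Matrix.mul_one]
  have hP' : (Uᴴ * P * U).PosSemidef := hP.conjTranspose_mul_mul_same U
  have h2 := ent_E3_diag' (Uᴴ * A) C hP' hAA.eigenvalues h1
  have e1 : ent (Uᴴ * P * U) = ent P := by
    have := ent_conj_unitary hP.1 hUU
    rwa [Matrix.conjTranspose_conjTranspose] at this
  have e2 : (Uᴴ * A) * (Uᴴ * A)ᴴ = Uᴴ * (A * Aᴴ) * (Uᴴ)ᴴ := by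
    rw [Matrix.conjTranspose_mul]
    simp only [Matrix.mul_assoc]
  have e3 : ent ((Uᴴ * A) * (Uᴴ * A)ᴴ) = ent (A * Aᴴ) := by
    rw [e2, ent_conj_unitary hAA hUU]
  have e4 : ((Uᴴ * A) * (Uᴴ * A)ᴴ).trace = (A * Aᴴ).trace := by
    rw [e2, Matrix.conjTranspose_conjTranspose, Matrix.trace_mul_comm, ← Matrix.mul_assoc, hU',
      Matrix.one_mul]
  have e5 : (Uᴴ * P * U).trace = P.trace := by
    rw [Matrix.trace_mul_comm, ← Matrix.mul_assoc, hU', Matrix.one_mul]
  have e6 : ent (blockM (Uᴴ * A) C (Uᴴ * P * U)) = ent (blockM A C P) := by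
    have hV : (fromBlocks Uᴴ 0 0 (1 : Matrix β β ℂ))ᴴ * fromBlocks Uᴴ 0 0 (1 : Matrix β β ℂ) =
        1 := by
      rw [Matrix.fromBlocks_conjTranspose, Matrix.fromBlocks_multiply, hUU]
      simp
    have h3 : blockM (Uᴴ * A) C (Uᴴ * P * U) = fromBlocks Uᴴ 0 0 (1 : Matrix β β ℂ) *
        blockM A C P * (fromBlocks Uᴴ 0 0 (1 : Matrix β β ℂ))ᴴ := by
      rw [Matrix.fromBlocks_conjTranspose, blockM, blockM, Matrix.fromBlocks_multiply,
        Matrix.fromBlocks_multiply]
      simp only [Matrix.conjTranspose_mul, Matrix.conjTranspose_conjTranspose, Matrix.zero_mul,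
        Matrix.mul_zero, Matrix.conjTranspose_zero, Matrix.conjTranspose_one, Matrix.mul_one,
        Matrix.one_mul, add_zero, zero_add, Matrix.mul_add, Matrix.add_mul, Matrix.mul_assoc]
    rw [h3, ent_conj_unitary (blockM_posSemidef A C hP).1 hV]
  rw [e1, e3, e4, e5, e6] at h2
  exact h2

end

end Vale.Agent.P358
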