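import Vale.Agent.P358.Defs2

/-!
# P358 : basic facts on the entropy of a positive semidefinite matrix
-/

namespace Vale.Agent.P358

open Matrix
open scoped ComplexOrder

section Ent
variable {n m : Type*} [Fintype n] [DecidableEq n] [Fintype m] [DecidableEq m]

theorem exists_diag {A : Matrix n n ℂ} (hA : A.IsHermitian) :
    ∃ U : Matrix n n ℂ, Uᴴ * U = 1 ∧ U * Uᴴ = 1 ∧
      A = U * diagonal (fun i => (hA.eigenvalues i : ℂ)) * Uᴴ := by
  refine ⟨hA.eigenvectorUnitary, ?_, ?_, ?_⟩
  · have := Unitary.coe_star_mul_self hA.eigenvectorUnitary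
    simpa [Matrix.star_eq_conjTranspose] using this
  · have := Unitary.coe_mul_star_self hA.eigenvectorUnitary
    simpa [Matrix.star_eq_conjTranspose] using this
  · conv_lhs => rw [hA.spectral_theorem]
    rw [Unitary.conjStarAlgAut_apply]
    simp [Matrix.star_eq_conjTranspose, Function.comp_def]

theorem ent_eq_roots {A : Matrix n n ℂ} (hA : A.IsHermitian) :
    ent A = (A.charpoly.roots.map (fun z => Real.negMulLog z.re)).sum := by
  rw [hA.roots_charpoly_eq_eigenvalues, Multiset.map_map, ent, dif_pos hA]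
  rfl

theorem ent_congr_charpoly {A : Matrix n n ℂ} {B : Matrix m m ℂ} (hA : A.IsHermitian)
    (hB : B.IsHermitian) (h : A.charpoly = B.charpoly) : ent A = ent B := by
  rw [ent_eq_roots hA, ent_eq_roots hB, h]

theorem ent_of_decomp {A U : Matrix n n ℂ} {d : n → ℝ} (hU : Uᴴ * U = 1)
    (hA : A = U * diagonal (fun i => (d i : ℂ)) * Uᴴ) : ent A = ∑ i, Real.negMulLog (d i) := by
  have hH : A.IsHermitian := by
    rw [hA]
    refine Matrix.isHermitian_mul_mul_conjTranspose _ ?_
    rw [Matrix.IsHermitian, Matrix.diagonal_conjTranspose]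
    congr 1
    funext i
    simp
  rw [ent_eq_roots hH]
  have : A.charpoly = (diagonal (fun i => (d i : ℂ))).charpoly := by
    rw [hA, Matrix.mul_assoc, Matrix.charpoly_mul_comm, Matrix.mul_assoc, hU, Matrix.mul_one]
  rw [this, Matrix.charpoly_diagonal, Polynomial.roots_prod]
  · simp only [Polynomial.roots_X_sub_C, Multiset.bind_singleton, Multiset.map_map,
      Function.comp_def, Complex.ofReal_re]
    rfl
  · exact Finset.prod_ne_zero_iff.2 fun i _ => Polynomial.X_sub_C_ne_zero _

theorem ent_diagonal (d : n → ℝ) :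
    ent (Matrix.diagonal (fun i => (d i : ℂ))) = ∑ i, Real.negMulLog (d i) :=
  ent_of_decomp (U := 1) (by simp) (by simp)

theorem ent_conj_unitary {A : Matrix n n ℂ} (hA : A.IsHermitian) {U : Matrix n n ℂ}
    (hU : Uᴴ * U = 1) : ent (U * A * Uᴴ) = ent A := by
  refine ent_congr_charpoly (Matrix.isHermitian_mul_mul_conjTranspose _ hA) hA ?_
  rw [Matrix.mul_assoc, Matrix.charpoly_mul_comm, Matrix.mul_assoc, hU, Matrix.mul_one]

theorem ent_submatrix {A : Matrix n n ℂ} (hA : A.IsHermitian) (e : m ≃ n) :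
    ent (A.submatrix e e) = ent A := by
  refine ent_congr_charpoly (hA.submatrix e) hA ?_
  have := Matrix.charpoly_reindex e.symm A
  simpa [Matrix.reindex_apply] using this

theorem ent_smul {A : Matrix n n ℂ} (hA : A.IsHermitian) (c : ℝ) :
    ent ((c : ℂ) • A) = c * ent A + Real.negMulLog c * A.trace.re := by
  obtain ⟨U, hU, -, hd⟩ := exists_diag hA
  have h1 : ent A = ∑ i, Real.negMulLog (hA.eigenvalues i) := by rw [ent, dif_pos hA]
  have h2 : (c : ℂ) • A = U * diagonal (fun i => ((c * hA.eigenvalues i : ℝ) : ℂ)) * Uᴴ := by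
    have : diagonal (fun i => ((c * hA.eigenvalues i : ℝ) : ℂ)) =
        (c : ℂ) • diagonal (fun i => (hA.eigenvalues i : ℂ)) := by
      rw [← Matrix.diagonal_smul]
      congr 1
      funext i
      simp
    rw [this, Matrix.mul_smul, Matrix.smul_mul, ← hd]
  rw [ent_of_decomp hU h2, h1, hA.trace_eq_sum_eigenvalues]
  have : (∑ i, (hA.eigenvalues i : ℂ)).re = ∑ i, hA.eigenvalues i := by simp
  erw [this]
  rw [Finset.mul_sum, Finset.mul_sum, ← Finset.sum_add_distrib]
  refine Finset.sum_congr rfl fun i _ => ?_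
  rw [Real.negMulLog_mul]
  ring

theorem cent_smul {A : Matrix n n ℂ} (hA : A.IsHermitian) (c : ℝ) :
    cent ((c : ℂ) • A) = c * cent A := by
  rw [cent, cent, ent_smul hA, Matrix.trace_smul]
  have : ((c : ℂ) • A.trace).re = c * A.trace.re := by simp
  rw [this, Real.negMulLog_mul]
  ring

theorem ent_zero : ent (0 : Matrix n n ℂ) = 0 := by
  have := ent_diagonal (n := n) (fun _ => 0)
  simpa using this

theorem cent_zero : cent (0 : Matrix n n ℂ) = 0 := by
  simp [cent, ent_zero]

theorem eigenvalues_sum_re {A : Matrix n n ℂ} (hA : A.IsHermitian) :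
    ∑ i, hA.eigenvalues i = A.trace.re := by
  rw [hA.trace_eq_sum_eigenvalues]
  simp

theorem ent_nonneg {A : Matrix n n ℂ} (hA : A.PosSemidef) (htr : A.trace.re ≤ 1) : 0 ≤ ent A := by
  rw [ent, dif_pos hA.1]
  refine Finset.sum_nonneg fun i _ => Real.negMulLog_nonneg (hA.eigenvalues_nonneg i) ?_
  have h1 := eigenvalues_sum_re hA.1
  have h2 : hA.1.eigenvalues i ≤ ∑ j, hA.1.eigenvalues j :=
    Finset.single_le_sum (f := fun j => hA.1.eigenvalues j)
      (fun j _ => hA.eigenvalues_nonneg j) (Finset.mem_univ i)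
  linarith

/-- diagonal entries in terms of a decomposition -/
theorem decomp_diag {A U : Matrix n n ℂ} {d : n → ℝ}
    (hA : A = U * diagonal (fun i => (d i : ℂ)) * Uᴴ) (k : n) :
    (A k k).re = ∑ i, Complex.normSq (U k i) * d i := by
  rw [hA, Matrix.mul_apply]
  simp only [Matrix.mul_diagonal, Matrix.conjTranspose_apply, Complex.re_sum]
  refine Finset.sum_congr rfl fun i _ => ?_
  have : U k i * (d i : ℂ) * star (U k i) = ((Complex.normSq (U k i) * d i : ℝ) : ℂ) := by
    rw [Complex.ofReal_mul, Complex.normSq_eq_conj_mul_self]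
    simp only [Complex.star_def]
    ring
  rw [this, Complex.ofReal_re]

theorem sum_normSq_row {U : Matrix n n ℂ} (hU : U * Uᴴ = 1) (k : n) :
    ∑ i, Complex.normSq (U k i) = 1 := by
  have h := congrFun (congrFun hU k) k
  rw [Matrix.mul_apply, Matrix.one_apply_eq] at h
  have h2 := congrArg Complex.re h
  simp only [Complex.re_sum, Matrix.conjTranspose_apply, Complex.one_re] at h2
  rw [← h2]
  refine Finset.sum_congr rfl fun i _ => ?_
  rw [Complex.star_def, Complex.mul_conj, Complex.ofReal_re]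

theorem sum_normSq_col {U : Matrix n n ℂ} (hU : Uᴴ * U = 1) (i : n) :
    ∑ k, Complex.normSq (U k i) = 1 := by
  have h := congrFun (congrFun hU i) i
  rw [Matrix.mul_apply, Matrix.one_apply_eq] at h
  have h2 := congrArg Complex.re h
  simp only [Complex.re_sum, Matrix.conjTranspose_apply, Complex.one_re] at h2
  rw [← h2]
  refine Finset.sum_congr rfl fun k _ => ?_
  rw [Complex.star_def, mul_comm, Complex.mul_conj, Complex.ofReal_re]

/-- Peierls' inequality : the entropy is at most the Shannon entropy of the diagonal. -/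
theorem ent_le_diag {A : Matrix n n ℂ} (hA : A.PosSemidef) :
    ent A ≤ ∑ k, Real.negMulLog (A k k).re := by
  obtain ⟨U, hU, hU', hd⟩ := exists_diag hA.1
  rw [ent_of_decomp hU hd]
  calc ∑ i, Real.negMulLog (hA.1.eigenvalues i)
      = ∑ i, (∑ k, Complex.normSq (U k i)) * Real.negMulLog (hA.1.eigenvalues i) := by
        refine Finset.sum_congr rfl fun i _ => ?_
        rw [sum_normSq_col hU i, one_mul]
    _ = ∑ k, ∑ i, Complex.normSq (U k i) * Real.negMulLog (hA.1.eigenvalues i) := by
        rw [Finset.sum_comm]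
        refine Finset.sum_congr rfl fun i _ => ?_
        rw [Finset.sum_mul]
    _ ≤ ∑ k, Real.negMulLog (A k k).re := by
        refine Finset.sum_le_sum fun k _ => ?_
        rw [decomp_diag hd k]
        have := Real.concaveOn_negMulLog.le_map_sum (t := Finset.univ)
          (w := fun i => Complex.normSq (U k i)) (p := fun i => hA.1.eigenvalues i)
          (fun i _ => Complex.normSq_nonneg _) (sum_normSq_row hU' k)
          (fun i _ => hA.eigenvalues_nonneg i)
        simpa [smul_eq_mul] using this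

/-- concavity of the entropy for two-point mixtures -/
theorem ent_mix {A B : Matrix n n ℂ} (hA : A.PosSemidef) (hB : B.PosSemidef) {a b : ℝ}
    (ha : 0 ≤ a) (hb : 0 ≤ b) (hab : a + b = 1) :
    a * ent A + b * ent B ≤ ent ((a : ℂ) • A + (b : ℂ) • B) := by
  have hC : ((a : ℂ) • A + (b : ℂ) • B).PosSemidef :=
    (hA.smul (by simpa using ha)).add (hB.smul (by simpa using hb))
  obtain ⟨U, hU, hU', hd⟩ := exists_diag hC.1
  have hUU : (Uᴴ)ᴴ * Uᴴ = 1 := by rw [Matrix.conjTranspose_conjTranspose, hU']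
  have hA' : (Uᴴ * A * U).PosSemidef := hA.conjTranspose_mul_mul_same U
  have hB' : (Uᴴ * B * U).PosSemidef := hB.conjTranspose_mul_mul_same U
  have eA : ent A = ent (Uᴴ * A * U) := by
    have := ent_conj_unitary hA.1 hUU
    rw [Matrix.conjTranspose_conjTranspose] at this
    exact this.symm
  have eB : ent B = ent (Uᴴ * B * U) := by
    have := ent_conj_unitary hB.1 hUU
    rw [Matrix.conjTranspose_conjTranspose] at this
    exact this.symm
  have hdiag : ∀ k, hC.1.eigenvalues k =
      a * ((Uᴴ * A * U) k k).re + b * ((Uᴴ * B * U) k k).re := by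
    intro k
    have h1 : Uᴴ * ((a : ℂ) • A + (b : ℂ) • B) * U =
        diagonal (fun i => (hC.1.eigenvalues i : ℂ)) := by
      conv_lhs => rw [hd]
      rw [show Uᴴ * (U * diagonal (fun i => (hC.1.eigenvalues i : ℂ)) * Uᴴ) * U =
        (Uᴴ * U) * diagonal (fun i => (hC.1.eigenvalues i : ℂ)) * (Uᴴ * U) by
          simp only [Matrix.mul_assoc]]
      rw [hU, Matrix.one_mul, Matrix.mul_one]
    have h2 := congrFun (congrFun h1 k) k
    rw [Matrix.diagonal_apply_eq] at h2
    have h3 := congrArg Complex.re h2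
    rw [Complex.ofReal_re] at h3
    rw [← h3, Matrix.mul_add, Matrix.add_mul, Matrix.mul_smul, Matrix.smul_mul,
      Matrix.mul_smul, Matrix.smul_mul]
    simp
  rw [ent_of_decomp hU hd]
  calc a * ent A + b * ent B
      ≤ a * ∑ k, Real.negMulLog ((Uᴴ * A * U) k k).re +
        b * ∑ k, Real.negMulLog ((Uᴴ * B * U) k k).re := by
        rw [eA, eB]
        exact add_le_add (mul_le_mul_of_nonneg_left (ent_le_diag hA') ha)
          (mul_le_mul_of_nonneg_left (ent_le_diag hB') hb)
    _ = ∑ k, (a * Real.negMulLog ((Uᴴ * A * U) k k).re +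
        b * Real.negMulLog ((Uᴴ * B * U) k k).re) := by
        rw [Finset.sum_add_distrib, Finset.mul_sum, Finset.mul_sum]
    _ ≤ _ := by
        refine Finset.sum_le_sum fun k _ => ?_
        rw [hdiag k]
        have hAk : 0 ≤ ((Uᴴ * A * U) k k).re := (Complex.nonneg_iff.1 (hA'.diag_nonneg)).1
        have hBk : 0 ≤ ((Uᴴ * B * U) k k).re := (Complex.nonneg_iff.1 (hB'.diag_nonneg)).1
        have := Real.concaveOn_negMulLog.2 (x := ((Uᴴ * A * U) k k).re) hAk
          (y := ((Uᴴ * B * U) k k).re) hBk ha hb hab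
        simpa [smul_eq_mul] using this

theorem ent_kronecker {A : Matrix n n ℂ} {B : Matrix m m ℂ} (hA : A.IsHermitian)
    (hB : B.IsHermitian) :
    ent (Matrix.kroneckerMap (· * ·) A B) = B.trace.re * ent A + A.trace.re * ent B := by
  obtain ⟨U, hU, -, hd⟩ := exists_diag hA
  obtain ⟨V, hV, -, he⟩ := exists_diag hB
  have h1 : Matrix.kroneckerMap (· * ·) A B =
      Matrix.kroneckerMap (· * ·) U V *
        diagonal (fun i : n × m => ((hA.eigenvalues i.1 * hB.eigenvalues i.2 : ℝ) : ℂ)) *
        (Matrix.kroneckerMap (· * ·) U V)ᴴ := by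
    have hk : diagonal (fun i : n × m => ((hA.eigenvalues i.1 * hB.eigenvalues i.2 : ℝ) : ℂ)) =
        Matrix.kroneckerMap (· * ·) (diagonal (fun i => (hA.eigenvalues i : ℂ)))
          (diagonal (fun i => (hB.eigenvalues i : ℂ))) := by
      rw [Matrix.kroneckerMap_diagonal_diagonal _ (by simp) (by simp)]
      congr 1
      funext i
      simp
    rw [hk, Matrix.conjTranspose_kronecker, ← Matrix.mul_kronecker_mul,
      ← Matrix.mul_kronecker_mul, ← hd, ← he]
  have h2 : (Matrix.kroneckerMap (· * ·) U V)ᴴ * Matrix.kroneckerMap (· * ·) U V = 1 := by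
    rw [Matrix.conjTranspose_kronecker, ← Matrix.mul_kronecker_mul, hU, hV,
      Matrix.one_kronecker_one]
  rw [ent_of_decomp h2 h1, ← eigenvalues_sum_re hA, ← eigenvalues_sum_re hB, ent, dif_pos hA,
    ent, dif_pos hB, Fintype.sum_prod_type]
  simp only [Real.negMulLog_mul]
  simp only [Finset.sum_add_distrib, ← Finset.mul_sum, ← Finset.sum_mul]

end Ent

end Vale.Agent.P358
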