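import Vale.Agent.P358.OneStep

/-!
# P358 : entropy of qubit states
-/

namespace Vale.Agent.P358

open Matrix
open scoped ComplexOrder

theorem ent_fin_two {A : Matrix (Fin 2) (Fin 2) ℂ} (hA : A.PosSemidef) (htr : A.trace = 1) :
    ent A = ent2 A.det.re := by
  have h1 : hA.1.eigenvalues 0 + hA.1.eigenvalues 1 = 1 := by
    have := eigenvalues_sum_re hA.1
    rw [Fin.sum_univ_two, htr, Complex.one_re] at this
    exact this
  have h2 : A.det.re = hA.1.eigenvalues 0 * hA.1.eigenvalues 1 := by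
    rw [hA.1.det_eq_prod_eigenvalues, Fin.prod_univ_two]
    simp
  rw [ent, dif_pos hA.1, Fin.sum_univ_two, h2, ent2]
  set a := hA.1.eigenvalues 0 with ha
  set b := hA.1.eigenvalues 1 with hb
  have hb' : b = 1 - a := by linarith
  have h3 : 1 - 4 * (a * b) = (a - b) ^ 2 := by
    rw [hb']; ring
  rw [h3, Real.sqrt_sq_eq_abs, Real.binEntropy_eq_negMulLog_add_negMulLog_one_sub]
  rcases abs_cases (a - b) with ⟨h4, -⟩ | ⟨h4, -⟩
  · rw [h4]
    have e1 : (1 + (a - b)) / 2 = a := by rw [hb']; ring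
    rw [e1, hb']
  · rw [h4]
    have e1 : (1 + -(a - b)) / 2 = b := by rw [hb']; ring
    have e2 : 1 - b = a := by rw [hb']; ring
    rw [e1, e2, add_comm]

end Vale.Agent.P358
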