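import Vale.Agent.P358.Defs2

/-!
# P358 : convexity of the output entropy of the coherent states
-/

namespace Vale.Agent.P358

open Set

theorem Lstar_eq (γ ν q : ℝ) :
    Lstar γ ν q = γ * (1 - γ) * (q - ν) ^ 2 + γ * ν * (1 - ν) := by
  unfold Lstar; ring

/-- `log (1+r) - log (1-r) ≥ 2 r`. -/
theorem two_mul_le_log_sub_log {r : ℝ} (h0 : 0 ≤ r) (h1 : r < 1) :
    2 * r ≤ Real.log (1 + r) - Real.log (1 - r) := by
  have hs := Real.hasSum_log_sub_log_of_abs_lt_one (x := r) (by rw [abs_of_nonneg h0]; exact h1)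
  have := sum_le_hasSum (Finset.range 1) (fun k _ => by positivity) hs
  simpa using this

theorem Fq_convex {γ ν : ℝ} (hγ : γ ∈ Icc (0 : ℝ) 1) (hν : ν ∈ Icc (0 : ℝ) 1) :
    ConvexOn ℝ (Icc 0 1) (Fq γ ν) := by
  obtain ⟨hγ0, hγ1⟩ := hγ
  obtain ⟨hν0, hν1⟩ := hν
  set c := γ * (1 - γ) with hc
  have hc0 : 0 ≤ c := mul_nonneg hγ0 (by linarith)
  rcases hc0.eq_or_lt with hcz | hcp
  · -- constant case
    have : Fq γ ν = fun _ => ent2 (γ * ν * (1 - ν)) := by
      funext q
      rw [Fq, Lstar_eq, ← hc, ← hcz]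
      simp
    rw [this]
    exact convexOn_const _ (convex_Icc 0 1)
  have hγp : 0 < γ := by
    rcases hγ0.eq_or_lt with h | h
    · rw [hc, ← h] at hcp; simp at hcp
    · exact h
  have hγl : 0 < 1 - γ := by
    by_contra h
    have : 1 - γ = 0 := by linarith
    rw [hc, this] at hcp; simp at hcp
  have hLle : ∀ q ∈ Icc (0 : ℝ) 1, Lstar γ ν q ≤ 1 / 4 := by
    intro q hq
    unfold Lstar
    have h1 := mul_nonneg hγl.le (mul_nonneg hq.1 (by linarith [hq.2] : (0 : ℝ) ≤ 1 - q))
    nlinarith [sq_nonneg (2 * ((1 - γ) * q + γ * ν) - 1)]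
  have hLlt : ∀ q ∈ Ioo (0 : ℝ) 1, Lstar γ ν q < 1 / 4 := by
    intro q hq
    unfold Lstar
    have h1 := mul_pos hγl (mul_pos hq.1 (by linarith [hq.2] : (0 : ℝ) < 1 - q))
    nlinarith [sq_nonneg (2 * ((1 - γ) * q + γ * ν) - 1)]
  have hLpos : ∀ q ∈ Ioo (0 : ℝ) 1, 0 < Lstar γ ν q := by
    intro q hq
    rw [Lstar_eq, ← hc]
    have h0 : 0 ≤ γ * ν * (1 - ν) := mul_nonneg (mul_nonneg hγ0 hν0) (by linarith)
    rcases hν0.eq_or_lt with h | h
    · have : 0 < (q - ν) ^ 2 := by
        have : q - ν > 0 := by linarith [hq.1]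
        positivity
      have := mul_pos hcp this
      linarith
    · rcases hν1.eq_or_lt with h' | h'
      · have : 0 < (q - ν) ^ 2 := by
          have : ν - q > 0 := by linarith [hq.2]
          nlinarith
        have := mul_pos hcp this
        linarith
      · have h2 : 0 < γ * ν * (1 - ν) := mul_pos (mul_pos hγp h) (by linarith)
        have h3 : 0 ≤ c * (q - ν) ^ 2 := mul_nonneg hc0 (sq_nonneg _)
        linarith
  -- Bloch length
  set r : ℝ → ℝ := fun q => Real.sqrt (1 - 4 * Lstar γ ν q) with hr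
  set Λ : ℝ → ℝ := fun x => Real.log (1 + x) - Real.log (1 - x) with hΛ
  have hr0 : ∀ q ∈ Ioo (0 : ℝ) 1, 0 < r q := fun q hq =>
    Real.sqrt_pos.2 (by linarith [hLlt q hq])
  have hrsq : ∀ q ∈ Ioo (0 : ℝ) 1, r q ^ 2 = 1 - 4 * Lstar γ ν q := fun q hq =>
    Real.sq_sqrt (by linarith [hLlt q hq])
  have hr1 : ∀ q ∈ Ioo (0 : ℝ) 1, r q < 1 := by
    intro q hq
    have h1 := hrsq q hq
    have h2 := hLpos q hq
    have h3 := hr0 q hq
    nlinarith
  have hLder : ∀ q, HasDerivAt (fun q => 1 - 4 * Lstar γ ν q) (-8 * c * (q - ν)) q := by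
    intro q
    have h1 : (fun q => 1 - 4 * Lstar γ ν q) =
        fun q => 1 - 4 * (c * (q - ν) ^ 2 + γ * ν * (1 - ν)) := by
      funext q; rw [Lstar_eq]
    rw [h1]
    have h2 : HasDerivAt (fun q : ℝ => (q - ν) ^ 2) (2 * (q - ν)) q := by
      have := ((hasDerivAt_id q).sub_const ν).pow 2
      exact this.congr_deriv (by simp)
    have h3 := (((h2.const_mul c).add_const (γ * ν * (1 - ν))).const_mul 4).const_sub 1
    exact h3.congr_deriv (by ring)
  have hrder : ∀ q ∈ Ioo (0 : ℝ) 1, HasDerivAt r (-4 * c * (q - ν) / r q) q := by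
    intro q hq
    have h1 := (hLder q).sqrt (by linarith [hLlt q hq])
    refine h1.congr_deriv ?_
    have := (hr0 q hq).ne'
    simp only [hr] at this ⊢
    field_simp
    ring
  have hΛder : ∀ x, 0 < x → x < 1 → HasDerivAt Λ (2 / (1 - x ^ 2)) x := by
    intro x hx0 hx1
    have h1 : HasDerivAt (fun x : ℝ => Real.log (1 + x)) (1 / (1 + x)) x := by
      have := ((hasDerivAt_id x).const_add 1).log (by simp; linarith)
      simpa using this
    have h2 : HasDerivAt (fun x : ℝ => Real.log (1 - x)) (-1 / (1 - x)) x := by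
      have := ((hasDerivAt_id x).const_sub 1).log (by simp; linarith)
      simpa using this
    have h3 := h1.sub h2
    refine h3.congr_deriv ?_
    have e1 : (1 + x) ≠ 0 := by linarith
    have e2 : (1 - x) ≠ 0 := by linarith
    have e3 : (1 - x ^ 2) ≠ 0 := by
      have : 1 - x ^ 2 = (1 + x) * (1 - x) := by ring
      rw [this]; exact mul_ne_zero e1 e2
    field_simp
    ring
  refine convexOn_of_hasDerivWithinAt2_nonneg (convex_Icc 0 1)
    (f' := fun q => 2 * c * ((q - ν) * (Λ (r q) / r q)))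
    (f'' := fun q => 2 * c * (Λ (r q) / r q + (q - ν) *
      (((2 / (1 - r q ^ 2)) * (-4 * c * (q - ν) / r q) * r q -
        Λ (r q) * (-4 * c * (q - ν) / r q)) / r q ^ 2))) ?_ ?_ ?_ ?_
  · have h1 : Continuous (Lstar γ ν) := by unfold Lstar; fun_prop
    have : Continuous (Fq γ ν) := by
      unfold Fq ent2
      fun_prop
    exact this.continuousOn
  · rw [interior_Icc]
    intro q hq
    refine HasDerivAt.hasDerivWithinAt ?_
    have hrp := hr0 q hq
    have hrl := hr1 q hq
    have h1 : HasDerivAt (fun q => (1 + r q) / 2) ((-4 * c * (q - ν) / r q) / 2) q :=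
      ((hrder q hq).const_add 1).div_const 2
    have h2 := (Real.hasDerivAt_binEntropy (p := (1 + r q) / 2) (by linarith)
      (by intro h; linarith)).comp q h1
    have h3 : Fq γ ν = Real.binEntropy ∘ fun q => (1 + r q) / 2 := by
      funext q; rfl
    rw [h3]
    refine h2.congr_deriv ?_
    have e1 : 1 - (1 + r q) / 2 = (1 - r q) / 2 := by ring
    rw [e1, Real.log_div (by linarith) (by norm_num), Real.log_div (by linarith) (by norm_num)]
    simp only [hΛ]
    field_simp
    ring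
  · rw [interior_Icc]
    intro q hq
    refine HasDerivAt.hasDerivWithinAt ?_
    have hrp := hr0 q hq
    have hrl := hr1 q hq
    have h1 : HasDerivAt (fun q => Λ (r q)) ((2 / (1 - r q ^ 2)) * (-4 * c * (q - ν) / r q)) q :=
      (hΛder (r q) hrp hrl).comp q (hrder q hq)
    have h2 := h1.div (hrder q hq) hrp.ne'
    have h3 := (((hasDerivAt_id q).sub_const ν).mul h2).const_mul (2 * c)
    refine h3.congr_deriv ?_
    simp
  · rw [interior_Icc]
    intro q hq
    have hrp := hr0 q hq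
    have hrl := hr1 q hq
    have hΛge : 2 * r q ≤ Λ (r q) := two_mul_le_log_sub_log hrp.le hrl
    have hk : 4 * c * (q - ν) ^ 2 ≤ 1 - r q ^ 2 := by
      rw [hrsq q hq, Lstar_eq, ← hc]
      have : 0 ≤ γ * ν * (1 - ν) := mul_nonneg (mul_nonneg hγ0 hν0) (by linarith)
      linarith
    have hk0 : 0 ≤ 4 * c * (q - ν) ^ 2 := by positivity
    have h1r : 0 < 1 - r q ^ 2 := by nlinarith
    refine mul_nonneg (by positivity) ?_
    set κ := 4 * c * (q - ν) ^ 2 with hκ
    set R := r q with hR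
    set l := Λ R with hl
    have e : l / R + (q - ν) * (((2 / (1 - R ^ 2)) * (-4 * c * (q - ν) / R) * R -
        l * (-4 * c * (q - ν) / R)) / R ^ 2) =
        (l * R ^ 2 * (1 - R ^ 2) - κ * (2 * R - l * (1 - R ^ 2))) / (R ^ 3 * (1 - R ^ 2)) := by
      rw [hκ]
      field_simp
      ring
    rw [e]
    refine div_nonneg ?_ (by positivity)
    -- linear in κ
    have a1 : 0 ≤ l := by linarith
    by_cases hb : 2 * R - l * (1 - R ^ 2) ≤ 0
    · have : κ * (2 * R - l * (1 - R ^ 2)) ≤ 0 := mul_nonpos_of_nonneg_of_nonpos hk0 hb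
      have : 0 ≤ l * R ^ 2 * (1 - R ^ 2) := by positivity
      linarith
    · push Not at hb
      have h2 : κ * (2 * R - l * (1 - R ^ 2)) ≤ (1 - R ^ 2) * (2 * R - l * (1 - R ^ 2)) :=
        mul_le_mul_of_nonneg_right hk hb.le
      have h3 : l * R ^ 2 * (1 - R ^ 2) - (1 - R ^ 2) * (2 * R - l * (1 - R ^ 2)) =
          (1 - R ^ 2) * (l - 2 * R) := by ring
      have h4 : 0 ≤ (1 - R ^ 2) * (l - 2 * R) := mul_nonneg h1r.le (by linarith)
      linarith

end Vale.Agent.P358
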