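import Vale.Agent.P358.Assembly
import Vale.Agent.P358.FConvex

/-!
# P358 : the explicit formula for the Holevo capacity
-/

namespace Vale.Agent.P358

open Matrix
open scoped ComplexOrder

variable {γ ν : ℝ}

theorem Fq_le_ent (hγ : γ ∈ Set.Icc (0 : ℝ) 1) (hν : ν ∈ Set.Icc (0 : ℝ) 1)
    {ρ : Matrix (Fin 2) (Fin 2) ℂ} (hρ : IsState ρ) :
    Fq γ ν (ρ 1 1).re ≤ ent (gadc γ ν ρ) := by
  set ρ' : Matrix (Fin 2 × Unit) (Fin 2 × Unit) ℂ := ρ.submatrix Prod.fst Prod.fst with hρ'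
  have hp : ρ'.PosSemidef := hρ.1.submatrix _
  have ht : ρ'.trace = 1 := by
    rw [← hρ.2]
    simp [Matrix.trace, hρ', Fintype.sum_prod_type]
  obtain ⟨k, w, hw, h⟩ := one_step hγ hν ρ' hp ht
  have h1 : 0 ≤ ∑ l, cent (slice (w l) ρ') :=
    Finset.sum_nonneg fun l _ => cent_nonneg (slice_psd (w l) hp)
  have h2 : onFst (gadc γ ν) ρ' = (gadc γ ν ρ).submatrix
      (Equiv.prodPUnit (Fin 2)) (Equiv.prodPUnit (Fin 2)) := by
    ext ⟨i, x⟩ ⟨j, y⟩
    rfl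
  rw [h2, ent_submatrix (gadc_psd hγ hν hρ.1).1] at h
  have h3 : ∑ b : Unit, (ρ' (1, b) (1, b)).re = (ρ 1 1).re := by simp [hρ']
  rw [h3] at h
  linarith

/-- The scalar function whose maximum is the Holevo capacity. -/
noncomputable def hGap (γ ν q : ℝ) : ℝ :=
  (Real.binEntropy ((1 - γ) * q + γ * ν) - Fq γ ν q) / Real.log 2

theorem hGap_mem (hγ : γ ∈ Set.Icc (0 : ℝ) 1) (hν : ν ∈ Set.Icc (0 : ℝ) 1) {q : ℝ}
    (hq : q ∈ Set.Icc (0 : ℝ) 1) : hGap γ ν q ∈ holevoSet (gadc γ ν) := by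
  have h := mem_holevo_mix hγ hν Unit (fun _ => 1) (fun _ => q) (by simp) (by simp)
    (fun _ => hq)
  simpa [hGap] using h

theorem exists_le_hGap (hγ : γ ∈ Set.Icc (0 : ℝ) 1) (hν : ν ∈ Set.Icc (0 : ℝ) 1) {x : ℝ}
    (hx : x ∈ holevoSet (gadc γ ν)) : ∃ q ∈ Set.Icc (0 : ℝ) 1, x ≤ hGap γ ν q := by
  obtain ⟨k, p, ρ, hp, hs, hρ, rfl⟩ := hx
  have hlog : 0 < Real.log 2 := Real.log_pos (by norm_num)
  have hd : ∀ {τ : Matrix (Fin 2) (Fin 2) ℂ}, IsState τ → (τ 1 1).re ∈ Set.Icc (0 : ℝ) 1 ∧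
      (τ 0 0).re = 1 - (τ 1 1).re := by
    intro τ hτ
    have h0 : ∀ i, 0 ≤ (τ i i).re := fun i => (Complex.nonneg_iff.1 hτ.1.diag_nonneg).1
    have htr : (τ 0 0).re + (τ 1 1).re = 1 := by
      have := congrArg Complex.re hτ.2
      simpa [Matrix.trace, Fin.sum_univ_two] using this
    exact ⟨⟨h0 1, by linarith [h0 0]⟩, by linarith⟩
  set ρb := ∑ i, (p i : ℂ) • ρ i with hρb
  have hst : IsState ρb := isState_mix p ρ hp hs hρ
  set q := (ρb 1 1).re with hq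
  have hqe : q = ∑ i, p i * (ρ i 1 1).re := by
    rw [hq, hρb, Matrix.sum_apply, Complex.re_sum]
    refine Finset.sum_congr rfl fun i _ => ?_
    simp
  refine ⟨q, (hd hst).1, ?_⟩
  have h1 : (∑ i, (p i : ℂ) • gadc γ ν (ρ i)) = gadc γ ν ρb := by
    rw [hρb, map_sum]; simp only [map_smul]
  rw [h1]
  have h2 : ent (gadc γ ν ρb) ≤ Real.binEntropy ((1 - γ) * q + γ * ν) := by
    have hg := gadc_state hγ hν hst
    have h := ent_le_diag hg.1
    rw [Fin.sum_univ_two, (hd hg).2, add_comm,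
      ← Real.binEntropy_eq_negMulLog_add_negMulLog_one_sub] at h
    refine h.trans (le_of_eq ?_)
    congr 1
    have htr : ρb 0 0 + ρb 1 1 = 1 := by
      have := hst.2
      rwa [Matrix.trace, Fin.sum_univ_two] at this
    have : (gadc γ ν ρb) 1 1 = (1 - γ : ℂ) * ρb 1 1 + (γ * ν : ℂ) * (ρb 0 0 + ρb 1 1) := rfl
    rw [this, htr, hq]
    simp
  have h3 : Fq γ ν q ≤ ∑ i, p i * ent (gadc γ ν (ρ i)) := by
    have h4 := (Fq_convex hγ hν).map_sum_le (t := Finset.univ) (w := p)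
      (p := fun i => (ρ i 1 1).re) (fun i _ => hp i) hs (fun i _ => (hd (hρ i)).1)
    simp only [smul_eq_mul] at h4
    rw [← hqe] at h4
    exact h4.trans (Finset.sum_le_sum fun i _ =>
      mul_le_mul_of_nonneg_left (Fq_le_ent hγ hν (hρ i)) (hp i))
  have h7 : ∑ a, p a * vnEntropy (gadc γ ν (ρ a)) =
      (∑ a, p a * ent (gadc γ ν (ρ a))) / Real.log 2 := by
    rw [Finset.sum_div]
    refine Finset.sum_congr rfl fun a _ => ?_
    rw [vnEntropy]; ring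
  rw [h7, vnEntropy, ← sub_div, hGap]
  gcongr

theorem holevo_isGreatest (hγ : γ ∈ Set.Icc (0 : ℝ) 1) (hν : ν ∈ Set.Icc (0 : ℝ) 1) :
    IsGreatest (hGap γ ν '' Set.Icc (0 : ℝ) 1) (holevo (gadc γ ν)) := by
  have hcont : ContinuousOn (hGap γ ν) (Set.Icc (0 : ℝ) 1) := by
    have h1 : Continuous (Lstar γ ν) := by unfold Lstar; fun_prop
    have : Continuous (hGap γ ν) := by
      unfold hGap Fq ent2
      fun_prop
    exact this.continuousOn
  obtain ⟨q, hq, hmax⟩ := isCompact_Icc.exists_isMaxOn (Set.nonempty_Icc.2 zero_le_one) hcont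
  have hle : holevo (gadc γ ν) ≤ hGap γ ν q := by
    refine csSup_le ⟨0, holevo_nonneg _⟩ fun x hx => ?_
    obtain ⟨q', hq', hx'⟩ := exists_le_hGap hγ hν hx
    exact hx'.trans (hmax hq')
  have hge : ∀ q' ∈ Set.Icc (0 : ℝ) 1, hGap γ ν q' ≤ holevo (gadc γ ν) := fun q' hq' =>
    le_csSup (bddAbove_holevo_gadc hγ hν) (hGap_mem hγ hν hq')
  constructor
  · exact ⟨q, hq, le_antisymm (hge q hq) hle⟩
  · rintro _ ⟨q', hq', rfl⟩
    exact hge q' hq'

end Vale.Agent.P358
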