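import Vale.Agent.P358.Ent

/-!
# P358 : comparison of entropies from comparison of log-determinants
-/

namespace Vale.Agent.P358

open Matrix
open scoped ComplexOrder

theorem log_aux_upper {T y : ℝ} (hT : 0 < T) (hy : 0 ≤ y) :
    (T + y) * Real.log (1 + y / T) - y ≤ y ^ 2 / T := by
  have h1 : Real.log (1 + y / T) ≤ y / T := by
    have := Real.log_le_sub_one_of_pos (x := 1 + y / T) (by positivity)
    linarith
  have h2 : (T + y) * Real.log (1 + y / T) ≤ (T + y) * (y / T) :=
    mul_le_mul_of_nonneg_left h1 (by positivity)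
  have h3 : (T + y) * (y / T) = y + y ^ 2 / T := by
    field_simp
  linarith

theorem log_aux_lower {T y : ℝ} (hT : 0 < T) (hy : 0 ≤ y) :
    0 ≤ (T + y) * Real.log (1 + y / T) - y := by
  have hpos : 0 < 1 + y / T := by positivity
  have h1 : 1 - (1 + y / T)⁻¹ ≤ Real.log (1 + y / T) :=
    Real.one_sub_inv_le_log_of_pos hpos
  have h2 : (T + y) * (1 - (1 + y / T)⁻¹) ≤ (T + y) * Real.log (1 + y / T) :=
    mul_le_mul_of_nonneg_left h1 (by positivity)
  have h3 : (T + y) * (1 - (1 + y / T)⁻¹) = y := by
    have : T + y ≠ 0 := by positivity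
    field_simp
    ring
  linarith

theorem H_lemma {ι : Type*} [Fintype ι] (w y : ι → ℝ) (hy : ∀ i, 0 ≤ y i)
    (h0 : ∑ i, w i = 0) (h1 : ∑ i, w i * y i = 0)
    (hlog : ∀ T : ℝ, 0 < T → 0 ≤ ∑ i, w i * Real.log (T + y i)) :
    0 ≤ ∑ i, w i * Real.negMulLog (y i) := by
  set H : ℝ → ℝ := fun T => ∑ i, w i * ((T + y i) * Real.log (T + y i)) with hH
  have hH0 : H 0 = - ∑ i, w i * Real.negMulLog (y i) := by
    simp only [hH, zero_add, Real.negMulLog]
    rw [← Finset.sum_neg_distrib]
    refine Finset.sum_congr rfl fun i _ => ?_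
    ring
  have hderiv : ∀ T : ℝ, 0 < T → HasDerivAt H (∑ i, w i * Real.log (T + y i)) T := by
    intro T hT
    have h : HasDerivAt H (∑ i, w i * (Real.log (T + y i) + 1)) T := by
      have : ∀ i ∈ (Finset.univ : Finset ι), HasDerivAt
          (fun T : ℝ => w i * ((T + y i) * Real.log (T + y i)))
          (w i * (Real.log (T + y i) + 1)) T := by
        intro i _
        have hne : T + y i ≠ 0 := by have := hy i; positivity
        have h2 := (Real.hasDerivAt_mul_log hne)
        have h3 : HasDerivAt (fun T : ℝ => T + y i) 1 T := (hasDerivAt_id T).add_const _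
        have h4 := HasDerivAt.comp T h2 h3
        simp only [mul_one] at h4
        exact h4.const_mul (w i)
      have h5 := HasDerivAt.fun_sum this
      exact h5
    have e : ∑ i, w i * (Real.log (T + y i) + 1) = ∑ i, w i * Real.log (T + y i) := by
      simp only [mul_add, Finset.sum_add_distrib, mul_one, h0, add_zero]
    rwa [e] at h
  have hcont : Continuous H := by
    refine continuous_finsetSum _ fun i _ => ?_
    exact continuous_const.mul
      (Real.continuous_mul_log.comp (continuous_id.add continuous_const))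
  have hmono : MonotoneOn H (Set.Ici 0) := by
    refine monotoneOn_of_deriv_nonneg (convex_Ici 0) hcont.continuousOn ?_ ?_
    · intro T hT
      rw [interior_Ici] at hT
      exact (hderiv T hT).differentiableAt.differentiableWithinAt
    · intro T hT
      rw [interior_Ici] at hT
      rw [(hderiv T hT).deriv]
      exact hlog T hT
  set C : ℝ := ∑ i, |w i| * y i ^ 2 with hC
  have hCnn : 0 ≤ C := Finset.sum_nonneg fun i _ => by positivity
  have hbound : ∀ T : ℝ, 0 < T → H T ≤ C / T := by
    intro T hT
    have e1 : H T = ∑ i, w i * ((T + y i) * Real.log (1 + y i / T) - y i) := by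
      have e2 : ∀ i, w i * ((T + y i) * Real.log (T + y i)) =
          w i * ((T + y i) * Real.log (1 + y i / T) - y i) + (T * Real.log T) * w i +
            (Real.log T) * (w i * y i) + w i * y i := by
        intro i
        have hne : (1 + y i / T) ≠ 0 := by have := hy i; positivity
        have : T + y i = T * (1 + y i / T) := by field_simp
        have h2 : Real.log (T + y i) = Real.log T + Real.log (1 + y i / T) := by
          rw [this, Real.log_mul hT.ne' hne]
        rw [h2]
        ring
      simp only [hH]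
      rw [Finset.sum_congr rfl fun i _ => e2 i, Finset.sum_add_distrib, Finset.sum_add_distrib,
        Finset.sum_add_distrib, ← Finset.mul_sum, ← Finset.mul_sum, h0, h1]
      ring
    rw [e1, hC, Finset.sum_div]
    refine Finset.sum_le_sum fun i _ => ?_
    have hl := log_aux_lower hT (hy i)
    have hu := log_aux_upper hT (hy i)
    calc w i * ((T + y i) * Real.log (1 + y i / T) - y i)
        ≤ |w i| * ((T + y i) * Real.log (1 + y i / T) - y i) :=
          mul_le_mul_of_nonneg_right (le_abs_self _) hl
      _ ≤ |w i| * (y i ^ 2 / T) := mul_le_mul_of_nonneg_left hu (abs_nonneg _)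
      _ = |w i| * y i ^ 2 / T := by ring
  have hfin : H 0 ≤ 0 := by
    by_contra hcon
    push Not at hcon
    have hT : 0 < (C + 1) / H 0 := by positivity
    have h2 : H 0 ≤ H ((C + 1) / H 0) := hmono Set.self_mem_Ici hT.le hT.le
    have h3 := hbound _ hT
    have h4 : C / ((C + 1) / H 0) < H 0 := by
      rw [div_div_eq_mul_div, div_lt_iff₀ (by positivity)]
      nlinarith
    linarith
  rw [hH0] at hfin
  linarith

section LogDet

variable {n m : Type*} [Fintype n] [DecidableEq n] [Fintype m] [DecidableEq m]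

theorem det_add_eq_prod {A : Matrix n n ℂ} (hA : A.IsHermitian) (T : ℝ) :
    ((T : ℂ) • (1 : Matrix n n ℂ) + A).det = ((∏ i, (T + hA.eigenvalues i) : ℝ) : ℂ) := by
  obtain ⟨U, hU, hU', hd⟩ := exists_diag hA
  have h1 : (T : ℂ) • (1 : Matrix n n ℂ) + A =
      U * diagonal (fun i => ((T + hA.eigenvalues i : ℝ) : ℂ)) * Uᴴ := by
    have : diagonal (fun i => ((T + hA.eigenvalues i : ℝ) : ℂ)) =
        (T : ℂ) • (1 : Matrix n n ℂ) + diagonal (fun i => (hA.eigenvalues i : ℂ)) := by
      rw [← Matrix.diagonal_one, ← Matrix.diagonal_smul, Matrix.diagonal_add]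
      congr 1
      funext i
      simp
    rw [this, Matrix.mul_add, Matrix.add_mul, ← hd, Matrix.mul_smul, Matrix.smul_mul,
      Matrix.mul_one, hU']
  rw [h1, Matrix.det_mul, Matrix.det_mul, mul_right_comm, ← Matrix.det_mul, hU',
    Matrix.det_one, one_mul, Matrix.det_diagonal]
  push_cast
  rfl

theorem log_det_add {A : Matrix n n ℂ} (hA : A.PosSemidef) {T : ℝ} (hT : 0 < T) :
    Real.log ((T : ℂ) • (1 : Matrix n n ℂ) + A).det.re =
      ∑ i, Real.log (T + hA.1.eigenvalues i) := by
  rw [det_add_eq_prod hA.1, Complex.ofReal_re, Real.log_prod]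
  intro i _
  have := hA.eigenvalues_nonneg i
  positivity

theorem det_add_pos {A : Matrix n n ℂ} (hA : A.PosSemidef) {T : ℝ} (hT : 0 < T) :
    0 < ((T : ℂ) • (1 : Matrix n n ℂ) + A).det.re := by
  rw [det_add_eq_prod hA.1, Complex.ofReal_re]
  refine Finset.prod_pos fun i _ => ?_
  have := hA.eigenvalues_nonneg i
  positivity

end LogDet

end Vale.Agent.P358
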