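import Mathlib

/-!
# P358 : the affine sandwich
-/

namespace Vale.Agent.P358

open Set

theorem sandwich (g F : ℝ → ℝ) (hg : ConcaveOn ℝ (Icc 0 1) g) (hgc : Continuous g)
    (hmix : ∀ (ι : Type) [Fintype ι] (w q : ι → ℝ), (∀ i, 0 ≤ w i) → ∑ i, w i = 1 →
      (∀ i, q i ∈ Icc (0 : ℝ) 1) → g (∑ i, w i * q i) ≤ ∑ i, w i * F (q i)) :
    ∃ α β : ℝ, ∀ q ∈ Icc (0 : ℝ) 1, g q ≤ α + β * q ∧ α + β * q ≤ F q := by
  set s : Set (ℝ × ℝ) := {p | p.1 ∈ Ioo (0 : ℝ) 1 ∧ p.2 < g p.1} with hs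
  set t0 : Set (ℝ × ℝ) := {p | p.1 ∈ Icc (0 : ℝ) 1 ∧ F p.1 ≤ p.2} with ht0
  have hsc : Convex ℝ s := (hg.subset Ioo_subset_Icc_self (convex_Ioo 0 1)).convex_strict_hypograph
  have hso : IsOpen s := by
    have h1 : IsOpen {p : ℝ × ℝ | p.1 ∈ Ioo (0 : ℝ) 1} := isOpen_Ioo.preimage continuous_fst
    have h2 : IsOpen {p : ℝ × ℝ | p.2 < g p.1} :=
      isOpen_lt continuous_snd (hgc.comp continuous_fst)
    exact h1.inter h2
  have hdisj : Disjoint s (convexHull ℝ t0) := by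
    rw [Set.disjoint_left]
    intro p hp hpt
    rw [mem_convexHull_iff_exists_fintype] at hpt
    obtain ⟨ι, _, w, z, hw0, hw1, hz, hx⟩ := hpt
    have e1 : p.1 = ∑ i, w i * (z i).1 := by
      rw [← hx, Prod.fst_sum]; simp
    have e2 : p.2 = ∑ i, w i * (z i).2 := by
      rw [← hx, Prod.snd_sum]; simp
    have h1 := hmix ι w (fun i => (z i).1) hw0 hw1 (fun i => (hz i).1)
    have h2 : ∑ i, w i * F (z i).1 ≤ ∑ i, w i * (z i).2 :=
      Finset.sum_le_sum fun i _ => mul_le_mul_of_nonneg_left (hz i).2 (hw0 i)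
    have h3 := hp.2
    rw [e1, e2] at h3
    linarith
  obtain ⟨f, u, hf1, hf2⟩ := geometric_hahn_banach_open hsc hso (convex_convexHull ℝ t0) hdisj
  set a := f (1, 0) with ha
  set b := f (0, 1) with hb
  have hf : ∀ x y : ℝ, f (x, y) = a * x + b * y := by
    intro x y
    have : ((x, y) : ℝ × ℝ) = x • (1, 0) + y • (0, 1) := by simp
    rw [this, map_add, map_smul, map_smul]
    simp only [smul_eq_mul]
    ring
  have hF : ∀ q ∈ Icc (0 : ℝ) 1, u ≤ a * q + b * F q := by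
    intro q hq
    have := hf2 (q, F q) (subset_convexHull ℝ t0 ⟨hq, le_rfl⟩)
    rwa [hf] at this
  have hG : ∀ q ∈ Ioo (0 : ℝ) 1, ∀ y < g q, a * q + b * y < u := by
    intro q hq y hy
    have := hf1 (q, y) ⟨hq, hy⟩
    rwa [hf] at this
  have hhalf : (1 / 2 : ℝ) ∈ Ioo (0 : ℝ) 1 := by constructor <;> norm_num
  have hb0 : 0 < b := by
    by_contra hcon
    push Not at hcon
    have h1 := hF (1 / 2) ⟨by norm_num, by norm_num⟩
    have h2 := hG (1 / 2) hhalf (min (g (1 / 2) - 1) (F (1 / 2)))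
      (lt_of_le_of_lt (min_le_left _ _) (by linarith))
    have h3 : b * F (1 / 2) ≤ b * min (g (1 / 2) - 1) (F (1 / 2)) :=
      mul_le_mul_of_nonpos_left (min_le_right _ _) hcon
    linarith
  refine ⟨u / b, -a / b, ?_⟩
  have hgle : ∀ q ∈ Ioo (0 : ℝ) 1, g q ≤ u / b + -a / b * q := by
    intro q hq
    refine le_of_forall_lt fun y hy => ?_
    have h1 := hG q hq y hy
    have : u / b + -a / b * q = (u - a * q) / b := by ring
    rw [this, lt_div_iff₀ hb0]
    linarith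
  intro q hq
  constructor
  · have hcl : IsClosed {x : ℝ | g x ≤ u / b + -a / b * x} :=
      isClosed_le hgc (by fun_prop)
    have h1 : closure (Ioo (0 : ℝ) 1) ⊆ {x : ℝ | g x ≤ u / b + -a / b * x} :=
      closure_minimal hgle hcl
    rw [closure_Ioo (by norm_num)] at h1
    exact h1 hq
  · have h1 := hF q hq
    have : u / b + -a / b * q = (u - a * q) / b := by ring
    rw [this, div_le_iff₀ hb0]
    linarith

end Vale.Agent.P358
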