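import Vale.Agent.P358.Defs2

/-!
# P358 : tensor powers: Kraus form, complete positivity, recursion, diagonal observables
-/

namespace Vale.Agent.P358

open Matrix
open scoped ComplexOrder

section General

/-- complete positivity of a Kraus sum, with an auxiliary system `c`. -/
theorem psd_kraus_ext {c α β' L : Type*} [Fintype c] [DecidableEq c] [Fintype α] [Fintype β']
    [Fintype L] (K : L → Matrix β' α ℂ) {ρ : Matrix (c × α) (c × α) ℂ} (hρ : ρ.PosSemidef) :
    (Matrix.of fun p q : c × β' => ∑ l, ∑ x', ∑ y',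
      K l p.2 x' * ρ (p.1, x') (q.1, y') * star (K l q.2 y')).PosSemidef := by
  have h : (Matrix.of fun p q : c × β' => ∑ l, ∑ x', ∑ y',
      K l p.2 x' * ρ (p.1, x') (q.1, y') * star (K l q.2 y')) =
      ∑ l, (Matrix.of fun (p : c × β') (q : c × α) => if p.1 = q.1 then K l p.2 q.2 else 0) * ρ *
        (Matrix.of fun (p : c × β') (q : c × α) => if p.1 = q.1 then K l p.2 q.2 else 0)ᴴ := by
    ext p q
    simp only [Matrix.of_apply, Matrix.sum_apply, Matrix.mul_apply, Matrix.conjTranspose_apply,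
      Fintype.sum_prod_type]
    refine Finset.sum_congr rfl fun l _ => ?_
    rw [Finset.sum_comm' (t' := Finset.univ) (s' := fun _ => Finset.univ) (by simp)]
    rw [Finset.sum_eq_single q.1]
    · refine Finset.sum_congr rfl fun y' _ => ?_
      rw [Finset.sum_eq_single p.1]
      · simp [Finset.sum_mul]
      · intro c1 _ hc
        simp [Ne.symm hc]
      · simp
    · intro c1 _ hc
      simp [Ne.symm hc]
    · simp
  rw [h]
  exact Matrix.posSemidef_sum _ fun l _ => hρ.mul_mul_conjTranspose_same _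

/-- Kraus sums preserve positivity. -/
theorem psd_kraus {α β' L : Type*} [Fintype α] [Fintype β']
    [Fintype L] (K : L → Matrix β' α ℂ) {ρ : Matrix α α ℂ} (hρ : ρ.PosSemidef) :
    (Matrix.of fun p q : β' => ∑ l, ∑ x', ∑ y',
      K l p x' * ρ x' y' * star (K l q y')).PosSemidef := by
  have h := (psd_kraus_ext (c := Unit) K (ρ := ρ.submatrix Prod.snd Prod.snd)
    (hρ.submatrix _)).submatrix (fun p : β' => ((), p))
  exact h

end General

section TP

variable {a b : Type*} [Fintype a] [DecidableEq a]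

theorem apply_eq_sum_single (Φ : Matrix a a ℂ →ₗ[ℂ] Matrix b b ℂ) (A : Matrix a a ℂ) (x y : b) :
    Φ A x y = ∑ i, ∑ j, Φ (Matrix.single i j 1) x y * A i j := by
  conv_lhs => rw [Matrix.matrix_eq_sum_single A]
  simp only [map_sum, Matrix.sum_apply]
  refine Finset.sum_congr rfl fun i _ => Finset.sum_congr rfl fun j _ => ?_
  have : Matrix.single i j (A i j) = (A i j) • Matrix.single i j (1 : ℂ) := by
    rw [Matrix.smul_single]; simp
  rw [this, map_smul, Matrix.smul_apply, smul_eq_mul, mul_comm]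

/-- `K` is a Kraus family of `Φ`. -/
def IsKraus {L : Type*} [Fintype L] (Φ : Matrix a a ℂ →ₗ[ℂ] Matrix b b ℂ)
    (K : L → Matrix b a ℂ) : Prop :=
  ∀ i j x y, Φ (Matrix.single i j 1) x y = ∑ l, K l x i * star (K l y j)

/-- Kraus operators of the tensor power. -/
def krausPow {L : Type*} (K : L → Matrix b a ℂ) (n : ℕ) (l : Fin n → L) :
    Matrix (Fin n → b) (Fin n → a) ℂ :=
  Matrix.of fun x x' => ∏ i, K (l i) (x i) (x' i)

theorem tensorPow_kraus {L : Type*} [Fintype L] [DecidableEq L]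
    {Φ : Matrix a a ℂ →ₗ[ℂ] Matrix b b ℂ}
    {K : L → Matrix b a ℂ} (hK : IsKraus Φ K) (n : ℕ)
    (ρ : Matrix (Fin n → a) (Fin n → a) ℂ) (x y : Fin n → b) :
    tensorPow Φ n ρ x y = ∑ l, ∑ x', ∑ y',
      krausPow K n l x x' * ρ x' y' * star (krausPow K n l y y') := by
  have h1 : tensorPow Φ n ρ x y = ∑ x' : Fin n → a, ∑ y' : Fin n → a,
    (∏ i, Φ (Matrix.single (x' i) (y' i) 1) (x i) (y i)) * ρ x' y' := rfl
  rw [h1]
  have h2 : ∀ x' y' : Fin n → a, (∏ i, Φ (Matrix.single (x' i) (y' i) 1) (x i) (y i)) =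
      ∑ l : Fin n → L, krausPow K n l x x' * star (krausPow K n l y y') := by
    intro x' y'
    have : (∏ i, Φ (Matrix.single (x' i) (y' i) 1) (x i) (y i)) =
      ∏ i, ∑ l, K l (x i) (x' i) * star (K l (y i) (y' i)) :=
      Finset.prod_congr rfl fun i _ => hK _ _ _ _
    rw [this, Finset.prod_univ_sum]
    simp only [Fintype.piFinset_univ, krausPow, Matrix.of_apply, Finset.prod_mul_distrib, star_prod]
  simp only [h2, Finset.sum_mul]
  rw [Finset.sum_comm' (t' := Finset.univ) (s' := fun _ => Finset.univ) (by simp)]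
  conv_rhs => rw [Finset.sum_comm' (t' := Finset.univ) (s' := fun _ => Finset.univ) (by simp)]
  conv_lhs => rw [Finset.sum_comm' (t' := Finset.univ) (s' := fun _ => Finset.univ) (by simp)]
  refine Finset.sum_congr rfl fun x' _ => ?_
  rw [Finset.sum_comm' (t' := Finset.univ) (s' := fun _ => Finset.univ) (by simp)]
  refine Finset.sum_congr rfl fun l _ => Finset.sum_congr rfl fun y' _ => ?_
  ring

theorem tensorPow_psd {L : Type*} [Fintype L] [DecidableEq L] [Fintype b]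
    {Φ : Matrix a a ℂ →ₗ[ℂ] Matrix b b ℂ}
    {K : L → Matrix b a ℂ} (hK : IsKraus Φ K) (n : ℕ)
    {ρ : Matrix (Fin n → a) (Fin n → a) ℂ} (hρ : ρ.PosSemidef) :
    (tensorPow Φ n ρ).PosSemidef := by
  have h := psd_kraus (krausPow K n) hρ
  convert h using 1
  ext x y
  rw [tensorPow_kraus hK]
  rfl

/-- the equivalence splitting off the first tensor factor. -/
def consE (a : Type*) (n : ℕ) : a × (Fin n → a) ≃ (Fin (n + 1) → a) :=
  Fin.consEquiv (fun _ => a)

@[simp] theorem consE_apply (a : Type*) (n : ℕ) (p : a × (Fin n → a)) :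
    consE a n p = Fin.cons p.1 p.2 := rfl

/-- `(id ⊗ Φ^{⊗ n})(ρ)`. -/
noncomputable def sig {c : Type*} (Φ : Matrix a a ℂ →ₗ[ℂ] Matrix b b ℂ) (n : ℕ)
    (ρ : Matrix (c × (Fin n → a)) (c × (Fin n → a)) ℂ) :
    Matrix (c × (Fin n → b)) (c × (Fin n → b)) ℂ :=
  Matrix.of fun p q => tensorPow Φ n (Matrix.of fun x y => ρ (p.1, x) (q.1, y)) p.2 q.2

theorem sig_psd {L : Type*} [Fintype L] [DecidableEq L] [Fintype b] {c : Type*} [Fintype c]
    [DecidableEq c] {Φ : Matrix a a ℂ →ₗ[ℂ] Matrix b b ℂ}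
    {K : L → Matrix b a ℂ} (hK : IsKraus Φ K) (n : ℕ)
    {ρ : Matrix (c × (Fin n → a)) (c × (Fin n → a)) ℂ} (hρ : ρ.PosSemidef) :
    (sig Φ n ρ).PosSemidef := by
  have h := psd_kraus_ext (krausPow K n) hρ
  convert h using 1
  ext x y
  simp only [sig, Matrix.of_apply]
  rw [tensorPow_kraus hK]
  rfl

theorem tensorPow_succ (Φ : Matrix a a ℂ →ₗ[ℂ] Matrix b b ℂ) (n : ℕ)
    (ρ : Matrix (Fin (n + 1) → a) (Fin (n + 1) → a) ℂ) (i j : b) (x y : Fin n → b) :
    tensorPow Φ (n + 1) ρ (Fin.cons i x) (Fin.cons j y) =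
      Φ (Matrix.of fun u v => tensorPow Φ n
        (Matrix.of fun x' y' => ρ (Fin.cons u x') (Fin.cons v y')) x y) i j := by
  rw [apply_eq_sum_single Φ]
  have h1 : tensorPow Φ (n + 1) ρ (Fin.cons i x) (Fin.cons j y) =
    ∑ x' : Fin (n + 1) → a, ∑ y' : Fin (n + 1) → a,
    (∏ k, Φ (Matrix.single (x' k) (y' k) 1) ((Fin.cons i x : Fin (n + 1) → b) k)
      ((Fin.cons j y : Fin (n + 1) → b) k)) * ρ x' y' := rfl
  rw [h1, ← (consE a n).sum_comp, Fintype.sum_prod_type]
  refine Finset.sum_congr rfl fun u _ => ?_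
  have h2 : ∀ x' : Fin n → a, ∑ y' : Fin (n + 1) → a,
      (∏ k, Φ (Matrix.single ((consE a n (u, x')) k) (y' k) 1) ((Fin.cons i x : Fin (n + 1) → b) k)
      ((Fin.cons j y : Fin (n + 1) → b) k)) * ρ (consE a n (u, x')) y' =
      ∑ v : a, ∑ y' : Fin n → a, Φ (Matrix.single u v 1) i j *
      ((∏ k, Φ (Matrix.single (x' k) (y' k) 1) (x k) (y k)) *
        ρ (Fin.cons u x') (Fin.cons v y')) := by
    intro x'
    rw [← (consE a n).sum_comp, Fintype.sum_prod_type]
    refine Finset.sum_congr rfl fun v _ => Finset.sum_congr rfl fun y' _ => ?_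
    rw [Fin.prod_univ_succ]
    simp only [consE_apply, Fin.cons_zero, Fin.cons_succ]
    ring
  simp only [h2]
  rw [Finset.sum_comm]
  refine Finset.sum_congr rfl fun v _ => ?_
  simp only [← Finset.mul_sum, Matrix.of_apply]
  rfl

theorem slice_sig (Φ : Matrix a a ℂ →ₗ[ℂ] Matrix b b ℂ) (n : ℕ) (w : Fin 2 → ℂ)
    (ρ : Matrix (Fin 2 × (Fin n → a)) (Fin 2 × (Fin n → a)) ℂ) :
    slice w (sig Φ n ρ) = tensorPow Φ n (slice w ρ) := by
  have h : slice w ρ = ∑ i, ∑ j, (w i * star (w j)) •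
      (Matrix.of fun x y => ρ (i, x) (j, y) : Matrix (Fin n → a) (Fin n → a) ℂ) := by
    ext x y
    simp only [slice, Matrix.of_apply, Matrix.sum_apply, Matrix.smul_apply, smul_eq_mul]
    refine Finset.sum_congr rfl fun i _ => Finset.sum_congr rfl fun j _ => ?_
    ring
  rw [h]
  ext x y
  simp only [map_sum, map_smul, Matrix.sum_apply, Matrix.smul_apply, smul_eq_mul, slice,
    Matrix.of_apply, sig]
  refine Finset.sum_congr rfl fun i _ => Finset.sum_congr rfl fun j _ => ?_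
  ring

end TP

section Gadc

/-- Kraus operators of the generalized amplitude damping channel. -/
noncomputable def gadcKraus (γ ν : ℝ) : Fin 4 → Matrix (Fin 2) (Fin 2) ℂ :=
  ![(Real.sqrt (1 - ν) : ℂ) • !![1, 0; 0, (Real.sqrt (1 - γ) : ℂ)],
    (Real.sqrt (1 - ν) : ℂ) • !![0, (Real.sqrt γ : ℂ); 0, 0],
    (Real.sqrt ν : ℂ) • !![(Real.sqrt (1 - γ) : ℂ), 0; 0, 1],
    (Real.sqrt ν : ℂ) • !![0, 0; (Real.sqrt γ : ℂ), 0]]

theorem gadc_isKraus {γ ν : ℝ} (hγ : γ ∈ Set.Icc (0 : ℝ) 1) (hν : ν ∈ Set.Icc (0 : ℝ) 1) :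
    IsKraus (gadc γ ν) (gadcKraus γ ν) := by
  have e1 : (Real.sqrt (1 - ν) : ℂ) * (Real.sqrt (1 - ν) : ℂ) = 1 - ν := by
    rw [← Complex.ofReal_mul, Real.mul_self_sqrt (by linarith [hν.2])]; push_cast; ring
  have e2 : (Real.sqrt ν : ℂ) * (Real.sqrt ν : ℂ) = ν := by
    rw [← Complex.ofReal_mul, Real.mul_self_sqrt hν.1]
  have e3 : (Real.sqrt (1 - γ) : ℂ) * (Real.sqrt (1 - γ) : ℂ) = 1 - γ := by
    rw [← Complex.ofReal_mul, Real.mul_self_sqrt (by linarith [hγ.2])]; push_cast; ring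
  have e4 : (Real.sqrt γ : ℂ) * (Real.sqrt γ : ℂ) = γ := by
    rw [← Complex.ofReal_mul, Real.mul_self_sqrt hγ.1]
  intro i j x y
  fin_cases i <;> fin_cases j <;> fin_cases x <;> fin_cases y <;>
    simp [gadc, gadcKraus, Fin.sum_univ_four, Matrix.single, Complex.conj_ofReal] <;>
    first
      | linear_combination (-(1:ℂ)) * e1 - (Real.sqrt (1 - γ) : ℂ) ^ 2 * e2 - (ν : ℂ) * e3
      | linear_combination (-(Real.sqrt γ : ℂ) ^ 2) * e2 - (ν : ℂ) * e4
      | linear_combination (-(Real.sqrt (1 - γ) : ℂ)) * e1 - (Real.sqrt (1 - γ) : ℂ) * e2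
      | linear_combination (-(Real.sqrt γ : ℂ) ^ 2) * e1 - (1 - ν : ℂ) * e4
      | linear_combination (-(Real.sqrt (1 - γ) : ℂ) ^ 2) * e1 - (1 - ν : ℂ) * e3 - e2

/-- The adjoint of the channel on diagonal observables. -/
noncomputable def dualObs (γ ν : ℝ) (g : Fin 2 → ℂ) (c : Fin 2) : ℂ :=
  if c = 1 then (γ * (1 - ν)) * g 0 + (1 - γ + γ * ν) * g 1
        else (1 - γ * ν) * g 0 + (γ * ν) * g 1

/-- Diagonal observables of product form are mapped to diagonal observables of product form. -/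
theorem diag_obs (γ ν : ℝ) (n : ℕ) (g : Fin n → Fin 2 → ℂ)
    (ρ : Matrix (Fin n → Fin 2) (Fin n → Fin 2) ℂ) :
    ∑ x, (∏ k, g k (x k)) * tensorPow (gadc γ ν) n ρ x x =
      ∑ x, (∏ k, dualObs γ ν (g k) (x k)) * ρ x x := by
  have h0 : ∀ x, tensorPow (gadc γ ν) n ρ x x = ∑ x' : Fin n → Fin 2, ∑ y' : Fin n → Fin 2,
    (∏ i, gadc γ ν (Matrix.single (x' i) (y' i) 1) (x i) (x i)) * ρ x' y' := fun x => rfl
  simp only [h0, Finset.mul_sum]
  rw [Finset.sum_comm]
  refine Finset.sum_congr rfl fun x' _ => ?_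
  rw [Finset.sum_comm]
  have h1 : ∀ y' : Fin n → Fin 2, ∑ x : Fin n → Fin 2, (∏ k, g k (x k)) *
      ((∏ i, gadc γ ν (Matrix.single (x' i) (y' i) 1) (x i) (x i)) * ρ x' y') =
      (∏ k, ∑ c, g k c * gadc γ ν (Matrix.single (x' k) (y' k) 1) c c) * ρ x' y' := by
    intro y'
    rw [Finset.prod_univ_sum]
    simp only [Fintype.piFinset_univ, Finset.prod_mul_distrib, Finset.sum_mul]
    refine Finset.sum_congr rfl fun x _ => ?_
    ring
  simp only [h1]
  have h2 : ∀ (k : Fin n) (u v : Fin 2), ∑ c, g k c * gadc γ ν (Matrix.single u v 1) c c =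
      if u = v then dualObs γ ν (g k) u else 0 := by
    intro k u v
    fin_cases u <;> fin_cases v <;> simp [gadc, Matrix.single, dualObs] <;> ring
  simp only [h2]
  rw [Finset.sum_eq_single x']
  · simp
  · intro y' _ hy
    have : ∃ k, x' k ≠ y' k := by
      by_contra hcon
      push Not at hcon
      exact hy (funext fun k => (hcon k).symm)
    obtain ⟨k, hk⟩ := this
    rw [Finset.prod_eq_zero (Finset.mem_univ k) (by simp [hk]), zero_mul]
  · simp

theorem dualObs_one (γ ν : ℝ) (c : Fin 2) : dualObs γ ν (fun _ => 1) c = 1 := by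
  unfold dualObs
  split_ifs <;> ring

theorem dualObs_exc (γ ν : ℝ) (c : Fin 2) :
    dualObs γ ν (fun d => if d = 1 then 1 else 0) c =
      (if c = 1 then ((1 - γ : ℝ) : ℂ) else 0) + ((γ * ν : ℝ) : ℂ) := by
  unfold dualObs
  split_ifs <;> push_cast <;> simp_all

theorem trace_tensorPow (γ ν : ℝ) (n : ℕ) (ρ : Matrix (Fin n → Fin 2) (Fin n → Fin 2) ℂ) :
    (tensorPow (gadc γ ν) n ρ).trace = ρ.trace := by
  have h := diag_obs γ ν n (fun _ _ => 1) ρ
  simp only [dualObs_one, Finset.prod_const_one, one_mul] at h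
  exact h

/-- The excited population of the `i`-th qubit. -/
noncomputable def pop {n : ℕ} (i : Fin n) (ρ : Matrix (Fin n → Fin 2) (Fin n → Fin 2) ℂ) : ℝ :=
  ∑ x, if x i = 1 then (ρ x x).re else 0

theorem pop_tensorPow (γ ν : ℝ) (n : ℕ) (i : Fin n)
    (ρ : Matrix (Fin n → Fin 2) (Fin n → Fin 2) ℂ) :
    pop i (tensorPow (gadc γ ν) n ρ) = (1 - γ) * pop i ρ + γ * ν * ρ.trace.re := by
  have h := diag_obs γ ν n
    (fun k => if k = i then (fun d => if d = 1 then 1 else 0) else (fun _ => 1)) ρ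
  have h1 : ∀ x : Fin n → Fin 2, (∏ k, (if k = i then (fun d : Fin 2 => if d = 1 then (1:ℂ) else 0)
      else (fun _ => 1)) (x k)) = if x i = 1 then 1 else 0 := by
    intro x
    rw [Finset.prod_eq_single i]
    · simp
    · intro k _ hk
      simp [hk]
    · simp
  have h2 : ∀ x : Fin n → Fin 2, (∏ k, dualObs γ ν (if k = i then
      (fun d : Fin 2 => if d = 1 then (1:ℂ) else 0) else (fun _ => 1)) (x k)) =
      (if x i = 1 then ((1 - γ : ℝ) : ℂ) else 0) + ((γ * ν : ℝ) : ℂ) := by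
    intro x
    rw [Finset.prod_eq_single i]
    · rw [if_pos rfl, dualObs_exc]
    · intro k _ hk
      rw [if_neg hk, dualObs_one]
    · simp
  simp only [h1, h2] at h
  have h3 := congrArg Complex.re h
  simp only [Complex.re_sum] at h3
  unfold pop
  have e1 : ∀ x : Fin n → Fin 2, (((if x i = 1 then (1:ℂ) else 0) *
      tensorPow (gadc γ ν) n ρ x x)).re =
      if x i = 1 then (tensorPow (gadc γ ν) n ρ x x).re else 0 := by
    intro x; split_ifs <;> simp
  have e2 : ∀ x : Fin n → Fin 2, ((((if x i = 1 then ((1 - γ : ℝ):ℂ) else 0) +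
      ((γ * ν : ℝ) : ℂ)) * ρ x x)).re =
      (1 - γ) * (if x i = 1 then (ρ x x).re else 0) + γ * ν * (ρ x x).re := by
    intro x
    split_ifs
    · rw [← Complex.ofReal_add, Complex.re_ofReal_mul]; ring
    · rw [zero_add, Complex.re_ofReal_mul]; ring
  simp only [e1, e2] at h3
  rw [h3, Finset.sum_add_distrib, ← Finset.mul_sum, ← Finset.mul_sum]
  simp [Matrix.trace]

end Gadc

end Vale.Agent.P358
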