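import Vale.Agent.P358.EntTwo
import Vale.Agent.P358.TP
import Vale.Agent.P358.Sandwich

/-!
# P358 : one-letter facts
-/

namespace Vale.Agent.P358

open Matrix
open scoped ComplexOrder

theorem mem_holevoSet_of_fintype {a b ι : Type*} [Fintype a] [Fintype b] [DecidableEq b]
    [Fintype ι] (Φ : Matrix a a ℂ →ₗ[ℂ] Matrix b b ℂ) (p : ι → ℝ) (ρ : ι → Matrix a a ℂ)
    (hp : ∀ i, 0 ≤ p i) (hs : ∑ i, p i = 1) (hρ : ∀ i, IsState (ρ i)) :
    vnEntropy (∑ i, (p i : ℂ) • Φ (ρ i)) - ∑ i, p i * vnEntropy (Φ (ρ i)) ∈ holevoSet Φ := by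
  let e := (Fintype.equivFin ι).symm
  refine ⟨Fintype.card ι, fun i => p (e i), fun i => ρ (e i), fun i => hp _, ?_,
    fun i => hρ _, ?_⟩
  · rw [e.sum_comp p, hs]
  · rw [e.sum_comp (fun i => (p i : ℂ) • Φ (ρ i)), e.sum_comp (fun i => p i * vnEntropy (Φ (ρ i)))]

theorem psd_of_kraus {a b : Type*} [Fintype a] [DecidableEq a] [Fintype b] {L : Type*} [Fintype L]
    {Φ : Matrix a a ℂ →ₗ[ℂ] Matrix b b ℂ} {K : L → Matrix b a ℂ} (hK : IsKraus Φ K)
    {ρ : Matrix a a ℂ} (hρ : ρ.PosSemidef) : (Φ ρ).PosSemidef := by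
  have h := psd_kraus K hρ
  convert h using 1
  ext x y
  rw [apply_eq_sum_single]
  simp only [Matrix.of_apply]
  simp only [hK _ _ _ _, Finset.sum_mul]
  rw [Finset.sum_comm' (t' := Finset.univ) (s' := fun _ => Finset.univ) (by simp)]
  conv_rhs => rw [Finset.sum_comm' (t' := Finset.univ) (s' := fun _ => Finset.univ) (by simp)]
  conv_lhs => rw [Finset.sum_comm' (t' := Finset.univ) (s' := fun _ => Finset.univ) (by simp)]
  refine Finset.sum_congr rfl fun x' _ => ?_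
  rw [Finset.sum_comm' (t' := Finset.univ) (s' := fun _ => Finset.univ) (by simp)]
  refine Finset.sum_congr rfl fun l _ => Finset.sum_congr rfl fun y' _ => ?_
  ring

theorem gadc_psd {γ ν : ℝ} (hγ : γ ∈ Set.Icc (0 : ℝ) 1) (hν : ν ∈ Set.Icc (0 : ℝ) 1)
    {ρ : Matrix (Fin 2) (Fin 2) ℂ} (hρ : ρ.PosSemidef) : (gadc γ ν ρ).PosSemidef :=
  psd_of_kraus (gadc_isKraus hγ hν) hρ

theorem gadc_trace (γ ν : ℝ) (ρ : Matrix (Fin 2) (Fin 2) ℂ) : (gadc γ ν ρ).trace = ρ.trace := by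
  simp [gadc, Matrix.trace, Fin.sum_univ_two]
  ring

theorem gadc_state {γ ν : ℝ} (hγ : γ ∈ Set.Icc (0 : ℝ) 1) (hν : ν ∈ Set.Icc (0 : ℝ) 1)
    {ρ : Matrix (Fin 2) (Fin 2) ℂ} (hρ : IsState ρ) : IsState (gadc γ ν ρ) :=
  ⟨gadc_psd hγ hν hρ.1, by rw [gadc_trace, hρ.2]⟩

theorem isState_mix {a ι : Type*} [Fintype a] [Fintype ι] (p : ι → ℝ) (ρ : ι → Matrix a a ℂ)
    (hp : ∀ i, 0 ≤ p i) (hs : ∑ i, p i = 1) (hρ : ∀ i, IsState (ρ i)) :
    IsState (∑ i, (p i : ℂ) • ρ i) := by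
  constructor
  · exact Matrix.posSemidef_sum _ fun i _ => (hρ i).1.smul (by exact_mod_cast hp i)
  · rw [Matrix.trace_sum]
    simp only [Matrix.trace_smul, (hρ _).2, smul_eq_mul, mul_one]
    exact_mod_cast hs

theorem ent_le_log_two {A : Matrix (Fin 2) (Fin 2) ℂ} (hA : IsState A) : ent A ≤ Real.log 2 := by
  have h := ent_le_diag hA.1
  have htr : (A 0 0).re + (A 1 1).re = 1 := by
    have := congrArg Complex.re hA.2
    simpa [Matrix.trace, Fin.sum_univ_two] using this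
  rw [Fin.sum_univ_two] at h
  have : (A 0 0).re = 1 - (A 1 1).re := by linarith
  rw [this, add_comm, ← Real.binEntropy_eq_negMulLog_add_negMulLog_one_sub] at h
  exact h.trans Real.binEntropy_le_log_two

theorem bddAbove_holevo_gadc {γ ν : ℝ} (hγ : γ ∈ Set.Icc (0 : ℝ) 1) (hν : ν ∈ Set.Icc (0 : ℝ) 1) :
    BddAbove (holevoSet (gadc γ ν)) := by
  refine ⟨1, ?_⟩
  rintro x ⟨k, p, ρ, hp, hs, hρ, rfl⟩
  have h1 : vnEntropy (∑ i, (p i : ℂ) • gadc γ ν (ρ i)) ≤ 1 := by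
    unfold vnEntropy
    rw [div_le_one (Real.log_pos (by norm_num))]
    exact ent_le_log_two (isState_mix p _ hp hs fun i => gadc_state hγ hν (hρ i))
  have h2 : 0 ≤ ∑ i, p i * vnEntropy (gadc γ ν (ρ i)) := by
    refine Finset.sum_nonneg fun i _ => mul_nonneg (hp i) (div_nonneg ?_ (Real.log_nonneg (by norm_num)))
    have := gadc_state hγ hν (hρ i)
    exact ent_nonneg this.1 (by rw [this.2]; simp)
  linarith

/-- coherent pure state with excited population `q`, sign `s`. -/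
noncomputable def psi (q s : ℝ) : Matrix (Fin 2) (Fin 2) ℂ :=
  Matrix.vecMulVec ![(Real.sqrt (1 - q) : ℂ), ((s * Real.sqrt q : ℝ) : ℂ)]
    (star ![(Real.sqrt (1 - q) : ℂ), ((s * Real.sqrt q : ℝ) : ℂ)])

theorem psi_eq {q s : ℝ} (hq : q ∈ Set.Icc (0 : ℝ) 1) (hs : s * s = 1) :
    psi q s = !![((1 - q : ℝ) : ℂ), ((s * (Real.sqrt (1 - q) * Real.sqrt q) : ℝ) : ℂ);
      ((s * (Real.sqrt (1 - q) * Real.sqrt q) : ℝ) : ℂ), ((q : ℝ) : ℂ)] := by
  have e1 : Real.sqrt (1 - q) * Real.sqrt (1 - q) = 1 - q :=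
    Real.mul_self_sqrt (by linarith [hq.2])
  have e2 : Real.sqrt q * Real.sqrt q = q := Real.mul_self_sqrt hq.1
  ext i j
  fin_cases i <;> fin_cases j
  · simp only [psi, Matrix.vecMulVec, Pi.star_apply]
    simp only [Fin.zero_eta, Matrix.of_apply, Matrix.cons_val_zero, Complex.star_def,
      Complex.conj_ofReal, Matrix.cons_val', Matrix.cons_val_fin_one]
    rw [← Complex.ofReal_mul, e1]
  · simp [psi, Matrix.vecMulVec]; ring
  · simp [psi, Matrix.vecMulVec]; ring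
  · simp only [psi, Matrix.vecMulVec, Pi.star_apply]
    simp only [Fin.mk_one, Matrix.of_apply, Matrix.cons_val_one, Complex.star_def,
      Complex.conj_ofReal, Matrix.cons_val', Matrix.cons_val_fin_one]
    rw [← Complex.ofReal_mul]
    congr 1
    linear_combination (s * s) * e2 + q * hs

theorem psi_state {q s : ℝ} (hq : q ∈ Set.Icc (0 : ℝ) 1) (hs : s * s = 1) :
    IsState (psi q s) := by
  constructor
  · exact Matrix.posSemidef_vecMulVec_self_star _
  · rw [psi_eq hq hs]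
    simp [Matrix.trace, Fin.sum_univ_two]

theorem gadc_psi {γ ν q s : ℝ} (hq : q ∈ Set.Icc (0 : ℝ) 1) (hs : s * s = 1) :
    gadc γ ν (psi q s) = !![((1 - ((1 - γ) * q + γ * ν) : ℝ) : ℂ),
      ((s * (Real.sqrt (1 - γ) * (Real.sqrt (1 - q) * Real.sqrt q)) : ℝ) : ℂ);
      ((s * (Real.sqrt (1 - γ) * (Real.sqrt (1 - q) * Real.sqrt q)) : ℝ) : ℂ),
      (((1 - γ) * q + γ * ν : ℝ) : ℂ)] := by
  rw [psi_eq hq hs]
  ext i j
  fin_cases i <;> fin_cases j <;> simp [gadc] <;> ring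

theorem ent_gadc_psi {γ ν q s : ℝ} (hγ : γ ∈ Set.Icc (0 : ℝ) 1) (hν : ν ∈ Set.Icc (0 : ℝ) 1)
    (hq : q ∈ Set.Icc (0 : ℝ) 1) (hs : s * s = 1) :
    ent (gadc γ ν (psi q s)) = Fq γ ν q := by
  have hst := gadc_state hγ hν (psi_state hq hs)
  rw [ent_fin_two hst.1 hst.2, Fq]
  congr 1
  rw [gadc_psi hq hs, Matrix.det_fin_two_of]
  have e1 : Real.sqrt (1 - q) * Real.sqrt (1 - q) = 1 - q :=
    Real.mul_self_sqrt (by linarith [hq.2])
  have e2 : Real.sqrt q * Real.sqrt q = q := Real.mul_self_sqrt hq.1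
  have e3 : Real.sqrt (1 - γ) * Real.sqrt (1 - γ) = 1 - γ :=
    Real.mul_self_sqrt (by linarith [hγ.2])
  rw [← Complex.ofReal_mul, ← Complex.ofReal_mul, ← Complex.ofReal_sub, Complex.ofReal_re, Lstar]
  have : (s * (Real.sqrt (1 - γ) * (Real.sqrt (1 - q) * Real.sqrt q))) *
      (s * (Real.sqrt (1 - γ) * (Real.sqrt (1 - q) * Real.sqrt q))) =
      (s * s) * (Real.sqrt (1 - γ) * Real.sqrt (1 - γ)) *
        (Real.sqrt (1 - q) * Real.sqrt (1 - q)) * (Real.sqrt q * Real.sqrt q) := by ring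
  rw [this, hs, e1, e2, e3]
  ring

/-- The sign attached to a Boolean. -/
def sgnB (b : Bool) : ℝ := if b then 1 else -1

theorem sgnB_mul (b : Bool) : sgnB b * sgnB b = 1 := by cases b <;> simp [sgnB]

theorem mem_holevo_mix {γ ν : ℝ} (hγ : γ ∈ Set.Icc (0 : ℝ) 1) (hν : ν ∈ Set.Icc (0 : ℝ) 1)
    (ι : Type) [Fintype ι] (w q : ι → ℝ) (hw : ∀ i, 0 ≤ w i) (hs : ∑ i, w i = 1)
    (hq : ∀ i, q i ∈ Set.Icc (0 : ℝ) 1) :
    (Real.binEntropy ((1 - γ) * (∑ i, w i * q i) + γ * ν) - ∑ i, w i * Fq γ ν (q i)) /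
      Real.log 2 ∈ holevoSet (gadc γ ν) := by
  have h := mem_holevoSet_of_fintype (gadc γ ν) (fun x : ι × Bool => w x.1 / 2)
    (fun x => psi (q x.1) (sgnB x.2)) (fun x => div_nonneg (hw _) (by norm_num))
    (by
      rw [Fintype.sum_prod_type, ← hs]
      refine Finset.sum_congr rfl fun i _ => ?_
      simp
      ring) (fun x => psi_state (hq _) (sgnB_mul _))
  have hent : ∀ x : ι × Bool, vnEntropy (gadc γ ν (psi (q x.1) (sgnB x.2))) =
      Fq γ ν (q x.1) / Real.log 2 := by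
    intro x
    rw [vnEntropy, ent_gadc_psi hγ hν (hq _) (sgnB_mul _)]
  simp only [hent] at h
  have h2 : ∑ x : ι × Bool, w x.1 / 2 * (Fq γ ν (q x.1) / Real.log 2) =
      (∑ i, w i * Fq γ ν (q i)) / Real.log 2 := by
    rw [Fintype.sum_prod_type, Finset.sum_div]
    refine Finset.sum_congr rfl fun i _ => ?_
    simp
    ring
  rw [h2] at h
  set T := (1 - γ) * (∑ i, w i * q i) + γ * ν with hT
  have hqs : (∑ i, w i * q i) ∈ Set.Icc (0 : ℝ) 1 := by
    constructor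
    · exact Finset.sum_nonneg fun i _ => mul_nonneg (hw i) (hq i).1
    · rw [← hs]
      exact Finset.sum_le_sum fun i _ => mul_le_of_le_one_right (hw i) (hq i).2
  have hTI : T ∈ Set.Icc (0 : ℝ) 1 := by
    obtain ⟨h1, h2⟩ := hqs
    obtain ⟨h3, h4⟩ := hγ
    obtain ⟨h5, h6⟩ := hν
    constructor
    · rw [hT]
      have := mul_nonneg (sub_nonneg.2 h4) h1
      have := mul_nonneg h3 h5
      linarith
    · rw [hT]
      have := mul_le_mul_of_nonneg_left h2 (sub_nonneg.2 h4)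
      have := mul_le_mul_of_nonneg_left h6 h3
      linarith
  have h3 : (∑ x : ι × Bool, ((w x.1 / 2 : ℝ) : ℂ) • gadc γ ν (psi (q x.1) (sgnB x.2))) =
      Matrix.diagonal (fun i => ((![1 - T, T] i : ℝ) : ℂ)) := by
    rw [Fintype.sum_prod_type]
    have : ∀ i, (∑ b, ((w i / 2 : ℝ) : ℂ) • gadc γ ν (psi (q i) (sgnB b))) =
        !![((w i * (1 - ((1 - γ) * q i + γ * ν)) : ℝ) : ℂ), 0;
          0, ((w i * ((1 - γ) * q i + γ * ν) : ℝ) : ℂ)] := by
      intro i
      simp only [Fintype.sum_bool, gadc_psi (hq i) (sgnB_mul _)]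
      ext k l
      fin_cases k <;> fin_cases l <;> simp [sgnB] <;> ring
    simp only [this]
    have hsC : ∑ i, (w i : ℂ) = 1 := by exact_mod_cast hs
    ext k l
    rw [Matrix.sum_apply]
    fin_cases k <;> fin_cases l
    · simp only [Fin.zero_eta, Matrix.of_apply, Matrix.cons_val', Matrix.cons_val_zero,
        Matrix.cons_val_fin_one, Matrix.diagonal_apply_eq]
      rw [← Complex.ofReal_sum]
      congr 1
      rw [hT]
      simp only [mul_sub, mul_add, mul_one, Finset.sum_sub_distrib, Finset.sum_add_distrib, hs,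
        ← Finset.sum_mul]
      simp only [Finset.mul_sum]
      have : ∑ i, w i * ((1 - γ) * q i) = ∑ i, (1 - γ) * (w i * q i) :=
        Finset.sum_congr rfl fun i _ => by ring
      rw [this]
      ring
    · simp
    · simp
    · simp only [Fin.mk_one, Matrix.of_apply, Matrix.cons_val', Matrix.cons_val_one,
        Matrix.cons_val_fin_one, Matrix.diagonal_apply_eq]
      rw [← Complex.ofReal_sum]
      congr 1
      rw [hT]
      simp only [mul_add, Finset.sum_add_distrib, hs, ← Finset.sum_mul]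
      simp only [Finset.mul_sum]
      have : ∑ i, w i * ((1 - γ) * q i) = ∑ i, (1 - γ) * (w i * q i) :=
        Finset.sum_congr rfl fun i _ => by ring
      rw [this]
      ring
  have h4 : vnEntropy (∑ x : ι × Bool, ((w x.1 / 2 : ℝ) : ℂ) •
      gadc γ ν (psi (q x.1) (sgnB x.2))) = Real.binEntropy T / Real.log 2 := by
    rw [h3, vnEntropy, ent_diagonal, Fin.sum_univ_two,
      Real.binEntropy_eq_negMulLog_add_negMulLog_one_sub]
    simp only [Matrix.cons_val_zero, Matrix.cons_val_one]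
    rw [add_comm]
  rw [h4] at h
  rw [sub_div]
  exact h

theorem exists_affine {γ ν : ℝ} (hγ : γ ∈ Set.Icc (0 : ℝ) 1) (hν : ν ∈ Set.Icc (0 : ℝ) 1) :
    ∃ α β : ℝ, ∀ q ∈ Set.Icc (0 : ℝ) 1,
      Real.binEntropy ((1 - γ) * q + γ * ν) - holevo (gadc γ ν) * Real.log 2 ≤ α + β * q ∧
      α + β * q ≤ Fq γ ν q := by
  have hlog : 0 < Real.log 2 := Real.log_pos (by norm_num)
  refine sandwich (fun q => Real.binEntropy ((1 - γ) * q + γ * ν) -
    holevo (gadc γ ν) * Real.log 2) (Fq γ ν) ?_ ?_ ?_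
  · obtain ⟨h3, h4⟩ := hγ
    obtain ⟨h5, h6⟩ := hν
    have hmem : ∀ q ∈ Set.Icc (0 : ℝ) 1, (1 - γ) * q + γ * ν ∈ Set.Icc (0 : ℝ) 1 := by
      rintro q ⟨h1, h2⟩
      constructor
      · have := mul_nonneg (sub_nonneg.2 h4) h1
        have := mul_nonneg h3 h5
        linarith
      · have := mul_le_mul_of_nonneg_left h2 (sub_nonneg.2 h4)
        have := mul_le_mul_of_nonneg_left h6 h3
        linarith
    refine ⟨convex_Icc 0 1, ?_⟩
    intro x hx y hy a b ha hb hab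
    have := Real.strictConcave_binEntropy.concaveOn.2 (hmem x hx) (hmem y hy) ha hb hab
    have e : a • ((1 - γ) * x + γ * ν) + b • ((1 - γ) * y + γ * ν) =
        (1 - γ) * (a • x + b • y) + γ * ν := by
      simp only [smul_eq_mul]
      linear_combination (γ * ν) * hab
    rw [e] at this
    simp only [smul_eq_mul] at this ⊢
    have e2 : (a + b) * (holevo (gadc γ ν) * Real.log 2) = holevo (gadc γ ν) * Real.log 2 := by
      rw [hab, one_mul]
    linarith
  · fun_prop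
  · intro ι _ w q hw hs hq
    have h1 := le_csSup (bddAbove_holevo_gadc hγ hν) (mem_holevo_mix hγ hν ι w q hw hs hq)
    rw [div_le_iff₀ hlog] at h1
    change _ ≤ holevo (gadc γ ν) * Real.log 2 at h1
    linarith

end Vale.Agent.P358
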