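import Vale.Agent.P358.Decomp

/-!
# P358 : the one-step inequality for the generalized amplitude damping channel
-/

namespace Vale.Agent.P358

open Matrix
open scoped ComplexOrder

theorem Lstar_nonneg {γ ν : ℝ} (hγ : γ ∈ Set.Icc (0 : ℝ) 1) (hν : ν ∈ Set.Icc (0 : ℝ) 1)
    (q : ℝ) : 0 ≤ Lstar γ ν q := by
  have h : Lstar γ ν q = γ * (1 - γ) * ((1 - ν) * q ^ 2 + ν * (1 - q) ^ 2) +
      γ ^ 2 * ν * (1 - ν) := by
    rw [Lstar]; ring
  rw [h]
  have h1 := hγ.1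
  have h2 : 0 ≤ 1 - γ := by linarith [hγ.2]
  have h3 := hν.1
  have h4 : 0 ≤ 1 - ν := by linarith [hν.2]
  positivity

theorem exists_phase (r r' : ℂ) (h : r' = star r) : ∃ u : ℂ, u * star u = 1 ∧ u ^ 2 * r' = r := by
  rcases eq_or_ne r 0 with h0 | h0
  · refine ⟨1, by simp, ?_⟩
    rw [h, h0]; simp
  · have hn : (‖r‖ : ℂ) ≠ 0 := by exact_mod_cast (norm_ne_zero_iff.2 h0)
    have hrr : r * star r = (‖r‖ : ℂ) ^ 2 := by
      rw [Complex.star_def, Complex.mul_conj, Complex.normSq_eq_norm_sq]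
      push_cast
      rfl
    refine ⟨r / ‖r‖, ?_, ?_⟩
    · have h1 : star (r / (‖r‖ : ℂ)) = star r / ‖r‖ := by
        rw [Complex.star_def, map_div₀, Complex.conj_ofReal]
      rw [h1, div_mul_div_comm, hrr]
      field_simp
    · rw [h]
      have h2 : (r / (‖r‖ : ℂ)) ^ 2 * star r = r * (r * star r) / (‖r‖ : ℂ) ^ 2 := by
        field_simp
      rw [h2, hrr]
      field_simp

section

variable {β : Type*} [Fintype β] [DecidableEq β]

theorem slice_smul (c : ℝ) (hc : 0 ≤ c) (w : Fin 2 → ℂ) (ρ : Matrix (Fin 2 × β) (Fin 2 × β) ℂ) :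
    slice (fun i => (Real.sqrt c : ℂ) * w i) ρ = (c : ℂ) • slice w ρ := by
  ext b b'
  rw [Matrix.smul_apply, slice_apply, slice_apply, smul_eq_mul, Finset.mul_sum]
  have hcc : (Real.sqrt c : ℂ) * (Real.sqrt c : ℂ) = c := by
    rw [← Complex.ofReal_mul, Real.mul_self_sqrt hc]
  refine Finset.sum_congr rfl fun i _ => ?_
  rw [Finset.mul_sum]
  refine Finset.sum_congr rfl fun j _ => ?_
  simp only [Complex.star_def, map_mul, Complex.conj_ofReal]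
  rw [← hcc]
  ring

theorem one_step {γ ν : ℝ}
    (hγ : γ ∈ Set.Icc (0 : ℝ) 1) (hν : ν ∈ Set.Icc (0 : ℝ) 1)
    (ρ : Matrix (Fin 2 × β) (Fin 2 × β) ℂ) (hρ : ρ.PosSemidef) (htr : ρ.trace = 1) :
    ∃ (k : ℕ) (w : Fin k → Fin 2 → ℂ),
      (∀ i j, ∑ l, w l i * star (w l j) = if i = j then 1 else 0) ∧
      Fq γ ν (∑ b, (ρ (1, b) (1, b)).re) + ∑ l, cent (slice (w l) ρ) ≤
        ent (onFst (gadc γ ν) ρ) := by
  set q : ℝ := ∑ b, (ρ (1, b) (1, b)).re with hq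
  have hσ := redA_posSemidef hρ
  have hσ11 : redA ρ 1 1 = (q : ℂ) := by
    have h1 : (redA ρ 1 1).re = q := by
      rw [redA, Matrix.of_apply, Complex.re_sum]
    have h2 : (redA ρ 1 1).im = 0 := (Complex.nonneg_iff.1 hσ.diag_nonneg).2.symm
    apply Complex.ext
    · rw [h1, Complex.ofReal_re]
    · rw [h2, Complex.ofReal_im]
  obtain ⟨u, hu, hur⟩ := exists_phase (redA ρ 0 1) (redA ρ 1 0) (hσ.1.apply 1 0).symm
  set κ := Real.sqrt (1 - γ) with hκ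
  set g := Real.sqrt γ with hg
  have hκ2 : κ ^ 2 = 1 - γ := Real.sq_sqrt (by linarith [hγ.2])
  have hg2 : g ^ 2 = γ := Real.sq_sqrt hγ.1
  have hκg : κ ^ 2 + g ^ 2 = 1 := by rw [hκ2, hg2]; ring
  obtain ⟨c, X, Y, hc, hcs, hXY, hX, hY, hline⟩ := disc_lemma (q := q) hκg hν.1 hν.2
  have hang := fun j => angle_lemma hκg (hXY j)
  choose cA sA cB sB hA hB hcc hss hcA hcB using hang
  have hsA : ∀ j, sA j ^ 2 = (1 - κ * X j - g * Y j) / 2 := by
    intro j; have := hA j; have := hcA j; linarith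
  have hsB : ∀ j, sB j ^ 2 = (1 - κ * X j + g * Y j) / 2 := by
    intro j; have := hB j; have := hcB j; linarith
  have ht : ∀ j, cB j ^ 2 * q + sA j ^ 2 * (1 - q) = (1 - γ) * q + γ * ν := by
    intro j
    rw [hcB, hsA]
    have h1 := hline j
    rw [hκ2, hg2] at h1
    linear_combination (-(1 / 2 : ℝ)) * h1
  have hk : ∀ j, cA j * cB j + sA j * sB j = κ := by
    intro j; rw [hcc, hss]; ring
  have hLeq : ∀ j, (cB j ^ 2 * q + sA j ^ 2 * (1 - q)) *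
      (1 - (cB j ^ 2 * q + sA j ^ 2 * (1 - q))) -
      (cA j * cB j + sA j * sB j) ^ 2 * (q * (1 - q)) = Lstar γ ν q := by
    intro j
    rw [ht, hk, hκ2, Lstar]
  have hth := fun j => ent_theta (hA j) (hB j) hu hρ htr hσ11 hur
    (by rw [hLeq j]; exact Lstar_nonneg hγ hν q)
  choose w hw hent using hth
  simp only [hLeq] at hent
  -- the mixture
  have hmix : onFst (gadc γ ν) ρ =
      (c 0 : ℂ) • tk !![(cA 0 : ℂ), 0; 0, (cB 0 : ℂ)]
          !![0, (sB 0 : ℂ) * u; (sA 0 : ℂ) * star u, 0] ρ +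
      (c 1 : ℂ) • tk !![(cA 1 : ℂ), 0; 0, (cB 1 : ℂ)]
          !![0, (sB 1 : ℂ) * u; (sA 1 : ℂ) * star u, 0] ρ := by
    have s1 : c 0 * cA 0 ^ 2 + c 1 * cA 1 ^ 2 = 1 - γ + γ * (1 - ν) := by
      rw [hcA, hcA]
      linear_combination (1 / 2 : ℝ) * hcs + (κ / 2) * hX + (g / 2) * hY + (1 / 2 : ℝ) * hκ2 +
        ((1 - 2 * ν) / 2) * hg2
    have s2 : c 0 * sB 0 ^ 2 + c 1 * sB 1 ^ 2 = γ * (1 - ν) := by
      rw [hsB, hsB]
      linear_combination (1 / 2 : ℝ) * hcs - (κ / 2) * hX + (g / 2) * hY - (1 / 2 : ℝ) * hκ2 +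
        ((1 - 2 * ν) / 2) * hg2
    have s3 : c 0 * cB 0 ^ 2 + c 1 * cB 1 ^ 2 = 1 - γ + γ * ν := by
      rw [hcB, hcB]
      linear_combination (1 / 2 : ℝ) * hcs + (κ / 2) * hX - (g / 2) * hY + (1 / 2 : ℝ) * hκ2 -
        ((1 - 2 * ν) / 2) * hg2
    have s4 : c 0 * sA 0 ^ 2 + c 1 * sA 1 ^ 2 = γ * ν := by
      rw [hsA, hsA]
      linear_combination (1 / 2 : ℝ) * hcs - (κ / 2) * hX - (g / 2) * hY - (1 / 2 : ℝ) * hκ2 -
        ((1 - 2 * ν) / 2) * hg2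
    have s5 : c 0 * (cA 0 * cB 0) + c 1 * (cA 1 * cB 1) = κ := by
      rw [hcc, hcc]
      linear_combination (κ / 2) * hcs + (1 / 2 : ℝ) * hX
    have s6 : c 0 * (sA 0 * sB 0) + c 1 * (sA 1 * sB 1) = 0 := by
      rw [hss, hss]
      linear_combination (κ / 2) * hcs - (1 / 2 : ℝ) * hX
    have s1' : (c 0 : ℂ) * (cA 0 : ℂ) ^ 2 + c 1 * (cA 1 : ℂ) ^ 2 = 1 - γ + γ * (1 - ν) := by
      exact_mod_cast s1
    have s2' : (c 0 : ℂ) * (sB 0 : ℂ) ^ 2 + c 1 * (sB 1 : ℂ) ^ 2 = γ * (1 - ν) := by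
      exact_mod_cast s2
    have s3' : (c 0 : ℂ) * (cB 0 : ℂ) ^ 2 + c 1 * (cB 1 : ℂ) ^ 2 = 1 - γ + γ * ν := by
      exact_mod_cast s3
    have s4' : (c 0 : ℂ) * (sA 0 : ℂ) ^ 2 + c 1 * (sA 1 : ℂ) ^ 2 = γ * ν := by
      exact_mod_cast s4
    have s5' : (c 0 : ℂ) * (cA 0 * cB 0) + c 1 * (cA 1 * cB 1) = κ := by
      exact_mod_cast s5
    have s6' : (c 0 : ℂ) * (sA 0 * sB 0) + c 1 * (sA 1 * sB 1) = 0 := by
      exact_mod_cast s6
    have hu' : u * (starRingEnd ℂ) u = 1 := hu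
    ext ⟨i, b⟩ ⟨j, b'⟩
    rw [Matrix.add_apply, Matrix.smul_apply, Matrix.smul_apply, tk_apply, tk_apply]
    fin_cases i <;> fin_cases j
    · simp [onFst, gadc, Fin.sum_univ_two]
      linear_combination (-ρ (0, b) (0, b')) * s1' - (ρ (1, b) (1, b')) * s2' -
        (c 0 * (sB 0 : ℂ) ^ 2 * ρ (1, b) (1, b') + c 1 * (sB 1 : ℂ) ^ 2 * ρ (1, b) (1, b')) * hu'
    · simp [onFst, gadc, Fin.sum_univ_two]
      linear_combination (-ρ (0, b) (1, b')) * s5' - (u ^ 2 * ρ (1, b) (0, b')) * s6'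
    · simp [onFst, gadc, Fin.sum_univ_two]
      linear_combination (-ρ (1, b) (0, b')) * s5' -
        ((starRingEnd ℂ) u ^ 2 * ρ (0, b) (1, b')) * s6'
    · simp [onFst, gadc, Fin.sum_univ_two]
      linear_combination (-ρ (1, b) (1, b')) * s3' - (ρ (0, b) (0, b')) * s4' -
        (c 0 * (sA 0 : ℂ) ^ 2 * ρ (0, b) (0, b') + c 1 * (sA 1 : ℂ) ^ 2 * ρ (0, b) (0, b')) * hu'
  have hmixent := ent_mix (tk_posSemidef !![(cA 0 : ℂ), 0; 0, (cB 0 : ℂ)]
          !![0, (sB 0 : ℂ) * u; (sA 0 : ℂ) * star u, 0] hρ)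
      (tk_posSemidef !![(cA 1 : ℂ), 0; 0, (cB 1 : ℂ)]
          !![0, (sB 1 : ℂ) * u; (sA 1 : ℂ) * star u, 0] hρ) (hc 0) (hc 1) hcs
  rw [← hmix] at hmixent
  refine ⟨2 * 3, fun l => fun i => (Real.sqrt (c (finProdFinEquiv.symm l).1) : ℂ) *
    w (finProdFinEquiv.symm l).1 (finProdFinEquiv.symm l).2 i, ?_, ?_⟩
  · intro i j
    rw [Equiv.sum_comp finProdFinEquiv.symm (fun l : Fin 2 × Fin 3 =>
      (Real.sqrt (c l.1) : ℂ) * w l.1 l.2 i * star ((Real.sqrt (c l.1) : ℂ) * w l.1 l.2 j)),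
      Fintype.sum_prod_type]
    have h1 : ∀ m, ∑ l, (Real.sqrt (c m) : ℂ) * w m l i * star ((Real.sqrt (c m) : ℂ) * w m l j) =
        (c m : ℂ) * if i = j then 1 else 0 := by
      intro m
      rw [← hw m i j, Finset.mul_sum]
      refine Finset.sum_congr rfl fun l _ => ?_
      have hcc : (Real.sqrt (c m) : ℂ) * (Real.sqrt (c m) : ℂ) = c m := by
        rw [← Complex.ofReal_mul, Real.mul_self_sqrt (hc m)]
      simp only [Complex.star_def, map_mul, Complex.conj_ofReal]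
      rw [← hcc]
      ring
    simp only [h1]
    rw [Fin.sum_univ_two, ← add_mul, ← Complex.ofReal_add, hcs, Complex.ofReal_one, one_mul]
  · rw [Equiv.sum_comp finProdFinEquiv.symm (fun l : Fin 2 × Fin 3 =>
      cent (slice (fun i => (Real.sqrt (c l.1) : ℂ) * w l.1 l.2 i) ρ)), Fintype.sum_prod_type]
    have h1 : ∀ (m : Fin 2) (l : Fin 3),
        cent (slice (fun i => (Real.sqrt (c m) : ℂ) * w m l i) ρ) = c m * cent (slice (w m l) ρ) := by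
      intro m l
      rw [slice_smul (c m) (hc m), cent_smul (slice_posSemidef _ hρ).1]
    simp only [h1]
    rw [Fin.sum_univ_two, ← Finset.mul_sum, ← Finset.mul_sum]
    have e0 := mul_le_mul_of_nonneg_left (hent 0) (hc 0)
    have e1 := mul_le_mul_of_nonneg_left (hent 1) (hc 1)
    have e2 : Fq γ ν q = c 0 * ent2 (Lstar γ ν q) + c 1 * ent2 (Lstar γ ν q) := by
      rw [← add_mul, hcs, one_mul, Fq]
    rw [e2]
    linarith

end

end Vale.Agent.P358
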