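import Vale.Agent.P358.HLemma

/-!
# P358 : scalar superadditivity
-/

namespace Vale.Agent.P358

/-- `negMulLog` of the two roots of `λ² - s λ + d`. -/
noncomputable def nml2 (s d : ℝ) : ℝ :=
  Real.negMulLog ((s + Real.sqrt (s ^ 2 - 4 * d)) / 2) +
    Real.negMulLog ((s - Real.sqrt (s ^ 2 - 4 * d)) / 2)

/-- `φ(x,p,z) = η₂(x+p+z, pz) - η x - η p - η z` with `η = -negMulLog`. -/
noncomputable def phi (x p z : ℝ) : ℝ :=
  -nml2 (x + p + z) (p * z) + Real.negMulLog x + Real.negMulLog p + Real.negMulLog z

theorem phi_zero (p z : ℝ) : phi 0 p z = 0 := by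
  have h : (0 + p + z) ^ 2 - 4 * (p * z) = (p - z) ^ 2 := by ring
  rw [phi, nml2, h, Real.sqrt_sq_eq_abs, Real.negMulLog_zero]
  rcases abs_cases (p - z) with ⟨h1, -⟩ | ⟨h1, -⟩
  · rw [h1]
    have e1 : (0 + p + z + (p - z)) / 2 = p := by ring
    have e2 : (0 + p + z - (p - z)) / 2 = z := by ring
    rw [e1, e2]
    ring
  · rw [h1]
    have e1 : (0 + p + z + -(p - z)) / 2 = z := by ring
    have e2 : (0 + p + z - -(p - z)) / 2 = p := by ring
    rw [e1, e2]
    ring

theorem phi_mul {x : ℝ} (hx : 0 ≤ x) (p z : ℝ) :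
    phi x (x * p) (x * z) = x * phi 1 p z := by
  have h : (x + x * p + x * z) ^ 2 - 4 * (x * p * (x * z)) =
      x ^ 2 * ((1 + p + z) ^ 2 - 4 * (p * z)) := by ring
  rw [phi, nml2, h, Real.sqrt_mul (sq_nonneg x), Real.sqrt_sq hx]
  have e1 : (x + x * p + x * z + x * Real.sqrt ((1 + p + z) ^ 2 - 4 * (p * z))) / 2 =
      x * ((1 + p + z + Real.sqrt ((1 + p + z) ^ 2 - 4 * (p * z))) / 2) := by ring
  have e2 : (x + x * p + x * z - x * Real.sqrt ((1 + p + z) ^ 2 - 4 * (p * z))) / 2 =
      x * ((1 + p + z - Real.sqrt ((1 + p + z) ^ 2 - 4 * (p * z))) / 2) := by ring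
  rw [e1, e2, Real.negMulLog_mul, Real.negMulLog_mul, Real.negMulLog_mul, Real.negMulLog_mul,
    phi, nml2, Real.negMulLog_one]
  ring

theorem phi_eq {x : ℝ} (hx : 0 ≤ x) (p z : ℝ) :
    phi x p z = x * phi 1 (p / x) (z / x) := by
  rcases hx.eq_or_lt with h | h
  · rw [← h, phi_zero, zero_mul]
  · rw [← phi_mul hx]
    congr 1 <;> field_simp

/-- the roots -/
theorem roots_facts {s d : ℝ} (hs : 0 ≤ s) (hd : 0 ≤ d) (hsd : 0 ≤ s ^ 2 - 4 * d) :
    0 ≤ (s + Real.sqrt (s ^ 2 - 4 * d)) / 2 ∧ 0 ≤ (s - Real.sqrt (s ^ 2 - 4 * d)) / 2 ∧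
    ∀ T : ℝ, (T + (s + Real.sqrt (s ^ 2 - 4 * d)) / 2) * (T + (s - Real.sqrt (s ^ 2 - 4 * d)) / 2)
      = T ^ 2 + T * s + d := by
  have h1 := Real.sqrt_nonneg (s ^ 2 - 4 * d)
  have h2 : Real.sqrt (s ^ 2 - 4 * d) ^ 2 = s ^ 2 - 4 * d := Real.sq_sqrt hsd
  refine ⟨by positivity, ?_, ?_⟩
  · have : Real.sqrt (s ^ 2 - 4 * d) ≤ s := by
      rw [Real.sqrt_le_left hs]
      linarith
    linarith
  · intro T
    nlinarith

/-- tangent line inequality for `(a,b) ↦ log (1 + T / ((T+a) (T+b)))`. -/
theorem log_tangent {T a b a' b' : ℝ} (hT : 0 < T) (ha : 0 ≤ a) (hb : 0 ≤ b) (ha' : 0 ≤ a')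
    (hb' : 0 ≤ b') :
    Real.log (1 + T / ((T + a') * (T + b'))) +
      (T / ((T + a') * (T + b')) / (1 + T / ((T + a') * (T + b')))) *
        ((1 - (T + a) / (T + a')) + (1 - (T + b) / (T + b'))) ≤
      Real.log (1 + T / ((T + a) * (T + b))) := by
  set A := T + a with hA
  set B := T + b with hB
  set A' := T + a' with hA'
  set B' := T + b' with hB'
  have pA : 0 < A := by positivity
  have pB : 0 < B := by positivity
  have pA' : 0 < A' := by positivity
  have pB' : 0 < B' := by positivity
  set r := T / (A' * B') with hr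
  have pr : 0 < r := by positivity
  set e := T / (A * B) with he
  have pe : 0 < e := by positivity
  have key : (1 / (1 + r)) * Real.log 1 + (r / (1 + r)) * Real.log (e / r) ≤
      Real.log ((1 / (1 + r)) * 1 + (r / (1 + r)) * (e / r)) := by
    have := strictConcaveOn_log_Ioi.concaveOn.2 (Set.mem_Ioi.2 (one_pos : (0 : ℝ) < 1))
      (Set.mem_Ioi.2 (show 0 < e / r by positivity)) (show 0 ≤ 1 / (1 + r) by positivity)
      (show 0 ≤ r / (1 + r) by positivity) (by field_simp)
    simpa only [smul_eq_mul] using this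
  have e1 : (1 / (1 + r)) * 1 + (r / (1 + r)) * (e / r) = (1 + e) / (1 + r) := by
    field_simp
  rw [e1, Real.log_one, mul_zero, zero_add, Real.log_div (x := 1 + e) (y := 1 + r)
    (by positivity) (by positivity)] at key
  have e2 : e / r = (A' / A) * (B' / B) := by
    rw [he, hr]
    field_simp
  have l1 : 1 - A / A' ≤ Real.log (A' / A) := by
    have := Real.one_sub_inv_le_log_of_pos (x := A' / A) (by positivity)
    rwa [inv_div] at this
  have l2 : 1 - B / B' ≤ Real.log (B' / B) := by
    have := Real.one_sub_inv_le_log_of_pos (x := B' / B) (by positivity)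
    rwa [inv_div] at this
  rw [e2, Real.log_mul (by positivity) (by positivity)] at key
  have hc : 0 ≤ r / (1 + r) := by positivity
  have := mul_le_mul_of_nonneg_left (add_le_add l1 l2) hc
  linarith

theorem phi_superadd {ι : Type*} [Fintype ι] (x p z : ι → ℝ) (hx : ∀ i, 0 ≤ x i)
    (hp : ∀ i, 0 ≤ p i) (hz : ∀ i, 0 ≤ z i) {X P Z : ℝ} (hX : ∑ i, x i = X)
    (hP : ∑ i, p i ≤ P) (hZ : ∑ i, z i ≤ Z) :
    ∑ i, phi (x i) (p i) (z i) ≤ phi X P Z := by
  have hX0 : 0 ≤ X := by rw [← hX]; exact Finset.sum_nonneg fun i _ => hx i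
  have hP0 : 0 ≤ P := le_trans (Finset.sum_nonneg fun i _ => hp i) hP
  have hZ0 : 0 ≤ Z := le_trans (Finset.sum_nonneg fun i _ => hz i) hZ
  rcases hX0.eq_or_lt with h0 | hXpos
  · -- all x vanish
    have hall : ∀ i, x i = 0 := by
      have := (Finset.sum_eq_zero_iff_of_nonneg (s := Finset.univ) (fun i _ => hx i)).1
        (by rw [hX, ← h0])
      exact fun i => this i (Finset.mem_univ i)
    rw [← h0, phi_zero]
    refine le_of_eq (Finset.sum_eq_zero fun i _ => ?_)
    rw [hall i, phi_zero]
  · rw [phi_eq hX0]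
    have e0 : ∑ i, phi (x i) (p i) (z i) = ∑ i, x i * phi 1 (p i / x i) (z i / x i) :=
      Finset.sum_congr rfl fun i _ => phi_eq (hx i) _ _
    rw [e0]
    set a : ι → ℝ := fun i => p i / x i with ha
    set b : ι → ℝ := fun i => z i / x i with hb
    have ha0 : ∀ i, 0 ≤ a i := fun i => div_nonneg (hp i) (hx i)
    have hb0 : ∀ i, 0 ≤ b i := fun i => div_nonneg (hz i) (hx i)
    set a' := P / X with ha'
    set b' := Z / X with hb'
    have ha'0 : 0 ≤ a' := by positivity
    have hb'0 : 0 ≤ b' := by positivity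
    have hsa : ∑ i, x i * a i ≤ X * a' := by
      have h1 : X * a' = P := by rw [ha']; field_simp
      rw [h1]
      refine le_trans (Finset.sum_le_sum fun i _ => ?_) hP
      rcases (hx i).eq_or_lt with h | h
      · rw [← h, zero_mul]; exact hp i
      · rw [ha]; exact le_of_eq (by field_simp)
    have hsb : ∑ i, x i * b i ≤ X * b' := by
      have h1 : X * b' = Z := by rw [hb']; field_simp
      rw [h1]
      refine le_trans (Finset.sum_le_sum fun i _ => ?_) hZ
      rcases (hx i).eq_or_lt with h | h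
      · rw [← h, zero_mul]; exact hz i
      · rw [hb]; exact le_of_eq (by field_simp)
    -- the family
    have rf : ∀ a b : ℝ, 0 ≤ a → 0 ≤ b →
        0 ≤ ((1 + a + b) + Real.sqrt ((1 + a + b) ^ 2 - 4 * (a * b))) / 2 ∧
        0 ≤ ((1 + a + b) - Real.sqrt ((1 + a + b) ^ 2 - 4 * (a * b))) / 2 ∧
        ∀ T : ℝ, (T + ((1 + a + b) + Real.sqrt ((1 + a + b) ^ 2 - 4 * (a * b))) / 2) *
          (T + ((1 + a + b) - Real.sqrt ((1 + a + b) ^ 2 - 4 * (a * b))) / 2)
          = T ^ 2 + T * (1 + a + b) + a * b := by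
      intro a b ha hb
      refine roots_facts (by positivity) (by positivity) ?_
      nlinarith [sq_nonneg (a - b)]
    have lg : ∀ a b T : ℝ, 0 ≤ a → 0 ≤ b → 0 < T →
        Real.log (T + ((1 + a + b) + Real.sqrt ((1 + a + b) ^ 2 - 4 * (a * b))) / 2) +
        Real.log (T + ((1 + a + b) - Real.sqrt ((1 + a + b) ^ 2 - 4 * (a * b))) / 2)
        - Real.log (T + a) - Real.log (T + b) = Real.log (1 + T / ((T + a) * (T + b))) := by
      intro a b T ha hb hT
      obtain ⟨h1, h2, h3⟩ := rf a b ha hb
      rw [← Real.log_mul (by positivity) (by positivity), h3, sub_sub,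
        ← Real.log_mul (by positivity) (by positivity), ← Real.log_div (by positivity)
        (by positivity)]
      congr 1
      have : 0 < (T + a) * (T + b) := by positivity
      field_simp
      ring
    let W : (ι × Fin 4) ⊕ Fin 4 → ℝ := Sum.elim
      (fun i => ![x i.1, x i.1, -x i.1, -x i.1] i.2) ![-X, -X, X, X]
    let Y : (ι × Fin 4) ⊕ Fin 4 → ℝ := Sum.elim
      (fun i => ![((1 + a i.1 + b i.1) + Real.sqrt ((1 + a i.1 + b i.1) ^ 2 -
            4 * (a i.1 * b i.1))) / 2,
          ((1 + a i.1 + b i.1) - Real.sqrt ((1 + a i.1 + b i.1) ^ 2 -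
            4 * (a i.1 * b i.1))) / 2, a i.1, b i.1] i.2)
      ![((1 + a' + b') + Real.sqrt ((1 + a' + b') ^ 2 - 4 * (a' * b'))) / 2,
        ((1 + a' + b') - Real.sqrt ((1 + a' + b') ^ 2 - 4 * (a' * b'))) / 2, a', b']
    have hmain := H_lemma W Y ?_ ?_ ?_ ?_
    · simp only [W, Y, Fintype.sum_sum_type, Sum.elim_inl, Sum.elim_inr, Fintype.sum_prod_type,
        Fin.sum_univ_four, Matrix.cons_val] at hmain
      have e3 : ∀ a b : ℝ, phi 1 a b =
          -(Real.negMulLog (((1 + a + b) + Real.sqrt ((1 + a + b) ^ 2 - 4 * (a * b))) / 2) +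
            Real.negMulLog (((1 + a + b) - Real.sqrt ((1 + a + b) ^ 2 - 4 * (a * b))) / 2))
          + Real.negMulLog a + Real.negMulLog b := by
        intro a b
        rw [phi, nml2, Real.negMulLog_one]
        ring
      simp only [e3]
      have e4 : ∑ i, x i * (-(Real.negMulLog (((1 + a i + b i) + Real.sqrt ((1 + a i + b i) ^ 2
            - 4 * (a i * b i))) / 2) +
            Real.negMulLog (((1 + a i + b i) - Real.sqrt ((1 + a i + b i) ^ 2
            - 4 * (a i * b i))) / 2))
          + Real.negMulLog (a i) + Real.negMulLog (b i)) =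
          - ∑ i, (x i * Real.negMulLog (((1 + a i + b i) + Real.sqrt ((1 + a i + b i) ^ 2
            - 4 * (a i * b i))) / 2) +
            x i * Real.negMulLog (((1 + a i + b i) - Real.sqrt ((1 + a i + b i) ^ 2
            - 4 * (a i * b i))) / 2)
          + -x i * Real.negMulLog (a i) + -x i * Real.negMulLog (b i)) := by
        rw [← Finset.sum_neg_distrib]
        refine Finset.sum_congr rfl fun i _ => ?_
        ring
      rw [e4]
      linarith
    · rintro (⟨i, j⟩ | j)
      · obtain ⟨h1, h2, -⟩ := rf (a i) (b i) (ha0 i) (hb0 i)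
        fin_cases j
        · exact h1
        · exact h2
        · exact ha0 i
        · exact hb0 i
      · obtain ⟨h1, h2, -⟩ := rf a' b' ha'0 hb'0
        fin_cases j
        · exact h1
        · exact h2
        · exact ha'0
        · exact hb'0
    · simp only [W, Fintype.sum_sum_type, Sum.elim_inl, Sum.elim_inr, Fintype.sum_prod_type,
        Fin.sum_univ_four, Matrix.cons_val]
      simp
    · simp only [W, Y, Fintype.sum_sum_type, Sum.elim_inl, Sum.elim_inr, Fintype.sum_prod_type,
        Fin.sum_univ_four, Matrix.cons_val]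
      have : ∀ i, x i * ((1 + a i + b i + Real.sqrt ((1 + a i + b i) ^ 2 - 4 * (a i * b i))) / 2) +
          x i * ((1 + a i + b i - Real.sqrt ((1 + a i + b i) ^ 2 - 4 * (a i * b i))) / 2) +
          -x i * a i + -x i * b i = x i := by
        intro i
        ring
      simp only [this, hX]
      ring
    · intro T hT
      simp only [W, Y, Fintype.sum_sum_type, Sum.elim_inl, Sum.elim_inr, Fintype.sum_prod_type,
        Fin.sum_univ_four, Matrix.cons_val]
      have t1 : ∀ i, x i * Real.log (T + (1 + a i + b i + Real.sqrt ((1 + a i + b i) ^ 2 -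
            4 * (a i * b i))) / 2) +
          x i * Real.log (T + (1 + a i + b i - Real.sqrt ((1 + a i + b i) ^ 2 -
            4 * (a i * b i))) / 2) +
          -x i * Real.log (T + a i) + -x i * Real.log (T + b i) =
          x i * Real.log (1 + T / ((T + a i) * (T + b i))) := by
        intro i
        rw [← lg (a i) (b i) T (ha0 i) (hb0 i) hT]
        ring
      have t2 : -X * Real.log (T + (1 + a' + b' + Real.sqrt ((1 + a' + b') ^ 2 -
            4 * (a' * b'))) / 2) +
          -X * Real.log (T + (1 + a' + b' - Real.sqrt ((1 + a' + b') ^ 2 -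
            4 * (a' * b'))) / 2) +
          X * Real.log (T + a') + X * Real.log (T + b') =
          - (X * Real.log (1 + T / ((T + a') * (T + b')))) := by
        rw [← lg a' b' T ha'0 hb'0 hT]
        ring
      simp only [t1, t2]
      have t3 : ∀ i, x i * (Real.log (1 + T / ((T + a') * (T + b'))) +
          (T / ((T + a') * (T + b')) / (1 + T / ((T + a') * (T + b')))) *
          ((1 - (T + a i) / (T + a')) + (1 - (T + b i) / (T + b')))) ≤
          x i * Real.log (1 + T / ((T + a i) * (T + b i))) := fun i =>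
        mul_le_mul_of_nonneg_left (log_tangent hT (ha0 i) (hb0 i) ha'0 hb'0) (hx i)
      have t4 := Finset.sum_le_sum fun i (_ : i ∈ Finset.univ) => t3 i
      have t5 : ∑ i, x i * (Real.log (1 + T / ((T + a') * (T + b'))) +
          (T / ((T + a') * (T + b')) / (1 + T / ((T + a') * (T + b')))) *
          ((1 - (T + a i) / (T + a')) + (1 - (T + b i) / (T + b')))) =
          X * Real.log (1 + T / ((T + a') * (T + b'))) +
          (T / ((T + a') * (T + b')) / (1 + T / ((T + a') * (T + b')))) *
          ((X * a' - ∑ i, x i * a i) / (T + a') + (X * b' - ∑ i, x i * b i) / (T + b')) := by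
        have : ∀ i, x i * (Real.log (1 + T / ((T + a') * (T + b'))) +
          (T / ((T + a') * (T + b')) / (1 + T / ((T + a') * (T + b')))) *
          ((1 - (T + a i) / (T + a')) + (1 - (T + b i) / (T + b')))) =
            x i * (Real.log (1 + T / ((T + a') * (T + b'))) +
            (T / ((T + a') * (T + b')) / (1 + T / ((T + a') * (T + b')))) *
            (a' / (T + a') + b' / (T + b'))) -
            (x i * a i) * ((T / ((T + a') * (T + b')) / (1 + T / ((T + a') * (T + b')))) /
              (T + a')) -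
            (x i * b i) * ((T / ((T + a') * (T + b')) / (1 + T / ((T + a') * (T + b')))) /
              (T + b')) := by
          intro i
          have h1 : T + a' ≠ 0 := by positivity
          have h2 : T + b' ≠ 0 := by positivity
          have e5 : 1 - (T + a i) / (T + a') = a' / (T + a') - a i / (T + a') := by
            field_simp
            ring
          have e6 : 1 - (T + b i) / (T + b') = b' / (T + b') - b i / (T + b') := by
            field_simp
            ring
          rw [e5, e6]
          ring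
        simp only [this]
        rw [Finset.sum_sub_distrib, Finset.sum_sub_distrib, ← Finset.sum_mul, ← Finset.sum_mul,
          ← Finset.sum_mul, hX]
        ring
      rw [t5] at t4
      have t6 : 0 ≤ (T / ((T + a') * (T + b')) / (1 + T / ((T + a') * (T + b')))) *
          ((X * a' - ∑ i, x i * a i) / (T + a') + (X * b' - ∑ i, x i * b i) / (T + b')) := by
        refine mul_nonneg (by positivity) (add_nonneg ?_ ?_)
        · exact div_nonneg (by linarith) (by positivity)
        · exact div_nonneg (by linarith) (by positivity)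
      linarith

end Vale.Agent.P358
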