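import Vale.Agent.P358.E3

/-!
# P358 : entropy inequality for maps with two Kraus operators, one of which has rank one
-/

namespace Vale.Agent.P358

open Matrix
open scoped ComplexOrder

section

variable {β : Type*} [Fintype β] [DecidableEq β]

/-- the Kraus map `ρ ↦ (K ⊗ 1) ρ (K ⊗ 1)ᴴ + (R ⊗ 1) ρ (R ⊗ 1)ᴴ` -/
noncomputable def tk (K R : Matrix (Fin 2) (Fin 2) ℂ) (ρ : Matrix (Fin 2 × β) (Fin 2 × β) ℂ) :
    Matrix (Fin 2 × β) (Fin 2 × β) ℂ :=
  Matrix.kroneckerMap (· * ·) K (1 : Matrix β β ℂ) * ρ *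
      (Matrix.kroneckerMap (· * ·) K (1 : Matrix β β ℂ))ᴴ +
    Matrix.kroneckerMap (· * ·) R (1 : Matrix β β ℂ) * ρ *
      (Matrix.kroneckerMap (· * ·) R (1 : Matrix β β ℂ))ᴴ

theorem kron_conj_apply (K : Matrix (Fin 2) (Fin 2) ℂ) (ρ : Matrix (Fin 2 × β) (Fin 2 × β) ℂ)
    (i j : Fin 2) (b b' : β) :
    (Matrix.kroneckerMap (· * ·) K (1 : Matrix β β ℂ) * ρ *
      (Matrix.kroneckerMap (· * ·) K (1 : Matrix β β ℂ))ᴴ) (i, b) (j, b') =
      ∑ k, ∑ l, K i k * ρ (k, b) (l, b') * star (K j l) := by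
  rw [Matrix.mul_apply, Fintype.sum_prod_type, Finset.sum_comm]
  have h1 : ∀ (l : Fin 2) (c' : β),
      (Matrix.kroneckerMap (· * ·) K (1 : Matrix β β ℂ) * ρ) (i, b) (l, c') *
        (Matrix.kroneckerMap (· * ·) K (1 : Matrix β β ℂ))ᴴ (l, c') (j, b') =
      if c' = b' then (∑ k, K i k * ρ (k, b) (l, c')) * star (K j l) else 0 := by
    intro l c'
    rw [Matrix.mul_apply, Matrix.conjTranspose_apply, Matrix.kroneckerMap_apply,
      Fintype.sum_prod_type]
    have h2 : ∀ k : Fin 2, ∑ c : β, Matrix.kroneckerMap (· * ·) K (1 : Matrix β β ℂ) (i, b) (k, c) *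
        ρ (k, c) (l, c') = K i k * ρ (k, b) (l, c') := by
      intro k
      rw [Finset.sum_eq_single b]
      · simp
      · intro c _ hc
        simp [Matrix.kroneckerMap_apply, Matrix.one_apply_ne' hc]
      · intro h; exact absurd (Finset.mem_univ b) h
    simp only [h2]
    by_cases h : c' = b'
    · subst h; simp
    · rw [if_neg h, Matrix.one_apply_ne' h]
      simp
  simp only [h1]
  rw [Finset.sum_comm, Finset.sum_comm (f := fun k l => K i k * ρ (k, b) (l, b') * star (K j l))]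
  refine Finset.sum_congr rfl fun l _ => ?_
  rw [Finset.sum_ite_eq' Finset.univ b', if_pos (Finset.mem_univ b'), Finset.sum_mul]

theorem tk_apply (K R : Matrix (Fin 2) (Fin 2) ℂ) (ρ : Matrix (Fin 2 × β) (Fin 2 × β) ℂ)
    (i j : Fin 2) (b b' : β) :
    tk K R ρ (i, b) (j, b') = ∑ k, ∑ l, K i k * ρ (k, b) (l, b') * star (K j l) +
      ∑ k, ∑ l, R i k * ρ (k, b) (l, b') * star (R j l) := by
  rw [tk, Matrix.add_apply, kron_conj_apply, kron_conj_apply]

theorem tk_posSemidef (K R : Matrix (Fin 2) (Fin 2) ℂ) {ρ : Matrix (Fin 2 × β) (Fin 2 × β) ℂ}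
    (hρ : ρ.PosSemidef) : (tk K R ρ).PosSemidef :=
  (hρ.mul_mul_conjTranspose_same _).add (hρ.mul_mul_conjTranspose_same _)

theorem tk_unitary (K R V : Matrix (Fin 2) (Fin 2) ℂ) (ρ : Matrix (Fin 2 × β) (Fin 2 × β) ℂ) :
    tk (V * K) (V * R) ρ = Matrix.kroneckerMap (· * ·) V (1 : Matrix β β ℂ) * tk K R ρ *
      (Matrix.kroneckerMap (· * ·) V (1 : Matrix β β ℂ))ᴴ := by
  have h : ∀ K : Matrix (Fin 2) (Fin 2) ℂ,
      Matrix.kroneckerMap (· * ·) (V * K) (1 : Matrix β β ℂ) =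
      Matrix.kroneckerMap (· * ·) V (1 : Matrix β β ℂ) *
        Matrix.kroneckerMap (· * ·) K (1 : Matrix β β ℂ) := by
    intro K
    rw [← Matrix.mul_kronecker_mul, Matrix.mul_one]
  rw [tk, tk, h, h, Matrix.conjTranspose_mul, Matrix.conjTranspose_mul]
  simp only [Matrix.mul_add, Matrix.add_mul, Matrix.mul_assoc]

theorem ent_tk_unitary (K R : Matrix (Fin 2) (Fin 2) ℂ) {V : Matrix (Fin 2) (Fin 2) ℂ}
    (hV : Vᴴ * V = 1) {ρ : Matrix (Fin 2 × β) (Fin 2 × β) ℂ} (hρ : ρ.PosSemidef) :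
    ent (tk (V * K) (V * R) ρ) = ent (tk K R ρ) := by
  rw [tk_unitary, ent_conj_unitary (tk_posSemidef K R hρ).1]
  rw [Matrix.conjTranspose_kronecker, ← Matrix.mul_kronecker_mul, hV]
  simp

theorem slice_apply (w : Fin 2 → ℂ) (ρ : Matrix (Fin 2 × β) (Fin 2 × β) ℂ) (b b' : β) :
    slice w ρ b b' = ∑ i, ∑ j, w i * ρ (i, b) (j, b') * star (w j) := rfl

/-- reduced matrix on the first factor -/
def redA (ρ : Matrix (Fin 2 × β) (Fin 2 × β) ℂ) : Matrix (Fin 2) (Fin 2) ℂ :=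
  Matrix.of fun i j => ∑ b, ρ (i, b) (j, b)

theorem slice_trace (w : Fin 2 → ℂ) (ρ : Matrix (Fin 2 × β) (Fin 2 × β) ℂ) :
    (slice w ρ).trace = ∑ i, ∑ j, w i * redA ρ i j * star (w j) := by
  rw [Matrix.trace]
  simp only [Matrix.diag_apply, slice_apply, redA, Matrix.of_apply]
  rw [Finset.sum_comm]
  refine Finset.sum_congr rfl fun i _ => ?_
  rw [Finset.sum_comm]
  refine Finset.sum_congr rfl fun j _ => ?_
  rw [Finset.mul_sum, Finset.sum_mul]

/-- linear combination of the two blocks of rows -/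
def comb (w : Fin 2 → ℂ) (Γ : Matrix (Fin 2 × β) (Fin 2 × β) ℂ) : Matrix β (Fin 2 × β) ℂ :=
  Matrix.of fun b c => ∑ i, w i * Γ (i, b) c

theorem comb_mul (w w' : Fin 2 → ℂ) (Γ : Matrix (Fin 2 × β) (Fin 2 × β) ℂ) (b b' : β) :
    (comb w Γ * (comb w' Γ)ᴴ) b b' = ∑ i, ∑ j, w i * (Γ * Γᴴ) (i, b) (j, b') * star (w' j) := by
  rw [Matrix.mul_apply]
  simp only [Matrix.conjTranspose_apply, comb, Matrix.of_apply, Fin.sum_univ_two, Matrix.mul_apply,
    star_add, star_mul', Finset.mul_sum, Finset.sum_mul, ← Finset.sum_add_distrib]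
  refine Finset.sum_congr rfl fun c _ => ?_
  ring

theorem slice_eq_comb (w : Fin 2 → ℂ) (Γ : Matrix (Fin 2 × β) (Fin 2 × β) ℂ) :
    slice w (Γ * Γᴴ) = comb w Γ * (comb w Γ)ᴴ := by
  ext b b'
  rw [comb_mul, slice_apply]

theorem exists_gram {n : Type*} [Fintype n] [DecidableEq n] {ρ : Matrix n n ℂ}
    (hρ : ρ.PosSemidef) : ∃ Γ : Matrix n n ℂ, ρ = Γ * Γᴴ := by
  obtain ⟨U, hU, hU', hd⟩ := exists_diag hρ.1
  refine ⟨U * diagonal (fun i => ((Real.sqrt (hρ.1.eigenvalues i) : ℝ) : ℂ)), ?_⟩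
  rw [Matrix.conjTranspose_mul, Matrix.diagonal_conjTranspose, Matrix.mul_assoc,
    ← Matrix.mul_assoc (diagonal _) (diagonal _), Matrix.diagonal_mul_diagonal]
  conv_lhs => rw [hd]
  rw [Matrix.mul_assoc]
  congr 3
  funext i
  simp only [Pi.star_apply, Complex.star_def, Complex.conj_ofReal]
  rw [← Complex.ofReal_mul, Real.mul_self_sqrt (hρ.eigenvalues_nonneg i)]

theorem slice_posSemidef (w : Fin 2 → ℂ) {ρ : Matrix (Fin 2 × β) (Fin 2 × β) ℂ}
    (hρ : ρ.PosSemidef) : (slice w ρ).PosSemidef := by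
  obtain ⟨Γ, rfl⟩ := exists_gram hρ
  rw [slice_eq_comb]
  exact posSemidef_self_mul_conjTranspose _

/-- `β ⊕ β ≃ Fin 2 × β` -/
def sumEquivProd (β : Type*) : β ⊕ β ≃ Fin 2 × β where
  toFun := Sum.elim (fun b => (0, b)) (fun b => (1, b))
  invFun x := if x.1 = 0 then Sum.inl x.2 else Sum.inr x.2
  left_inv := by rintro (b | b) <;> simp
  right_inv := by
    rintro ⟨i, b⟩
    fin_cases i <;> simp

theorem ent2_eq (d : ℝ) : ent2 d = nml2 1 d := by
  rw [ent2, Real.binEntropy_eq_negMulLog_add_negMulLog_one_sub, nml2]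
  have h : (1 : ℝ) ^ 2 - 4 * d = 1 - 4 * d := by ring
  rw [h]
  congr 2
  ring

/-- The inequality when the second row of `R` vanishes. -/
theorem ent_tk_rank_one {K R : Matrix (Fin 2) (Fin 2) ℂ} (hR : ∀ j, R 1 j = 0)
    {ρ : Matrix (Fin 2 × β) (Fin 2 × β) ℂ} (hρ : ρ.PosSemidef)
    (htr : (slice (K 0) ρ).trace.re + (slice (K 1) ρ).trace.re + (slice (R 0) ρ).trace.re = 1) :
    ent2 ((slice (K 1) ρ).trace.re * (slice (R 0) ρ).trace.re) +
      (cent (slice (K 0) ρ) + cent (slice (K 1) ρ) + cent (slice (R 0) ρ)) ≤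
      ent (tk K R ρ) := by
  obtain ⟨Γ, hΓ⟩ := exists_gram hρ
  have hP := slice_posSemidef (R 0) hρ
  have h1 := ent_E3 (comb (K 0) Γ) (comb (K 1) Γ) hP
  have h2 : (tk K R ρ).submatrix (sumEquivProd β) (sumEquivProd β) =
      blockM (comb (K 0) Γ) (comb (K 1) Γ) (slice (R 0) ρ) := by
    ext x y
    rcases x with b | b <;> rcases y with b' | b'
    · change tk K R ρ (0, b) (0, b') = (comb (K 0) Γ * (comb (K 0) Γ)ᴴ + slice (R 0) ρ) b b'
      rw [tk_apply, Matrix.add_apply, comb_mul, ← hΓ, slice_apply]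
    · change tk K R ρ (0, b) (1, b') = (comb (K 0) Γ * (comb (K 1) Γ)ᴴ) b b'
      rw [tk_apply, comb_mul, ← hΓ]
      simp [hR]
    · change tk K R ρ (1, b) (0, b') = (comb (K 1) Γ * (comb (K 0) Γ)ᴴ) b b'
      rw [tk_apply, comb_mul, ← hΓ]
      simp [hR]
    · change tk K R ρ (1, b) (1, b') = (comb (K 1) Γ * (comb (K 1) Γ)ᴴ) b b'
      rw [tk_apply, comb_mul, ← hΓ]
      simp [hR]
  rw [← h2, ent_submatrix (tk_posSemidef K R hρ).1, ← slice_eq_comb, ← slice_eq_comb, ← hΓ] at h1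
  refine le_trans (le_of_eq ?_) h1
  have h3 : (slice (K 0) ρ).trace.re + (slice (R 0) ρ).trace.re + (slice (K 1) ρ).trace.re = 1 := by
    linarith
  rw [phi, h3, ent2_eq, cent, cent, cent,
    mul_comm (slice (R 0) ρ).trace.re (slice (K 1) ρ).trace.re]
  ring

/-- A singular matrix can be rotated so that its second row vanishes. -/
theorem exists_rotation {R : Matrix (Fin 2) (Fin 2) ℂ} (hR : R.det = 0) :
    ∃ V : Matrix (Fin 2) (Fin 2) ℂ, Vᴴ * V = 1 ∧ ∀ j, (V * R) 1 j = 0 := by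
  obtain ⟨u, hu, huR⟩ := Matrix.exists_vecMul_eq_zero_iff.2 hR
  have hpos : 0 < Complex.normSq (u 0) + Complex.normSq (u 1) := by
    by_contra hcon
    push Not at hcon
    have h0 := Complex.normSq_nonneg (u 0)
    have h1 := Complex.normSq_nonneg (u 1)
    have e0 : u 0 = 0 := Complex.normSq_eq_zero.1 (by linarith)
    have e1 : u 1 = 0 := Complex.normSq_eq_zero.1 (by linarith)
    apply hu
    funext i
    fin_cases i
    · exact e0
    · exact e1
  set N : ℝ := Complex.normSq (u 0) + Complex.normSq (u 1) with hN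
  set s : ℝ := (Real.sqrt N)⁻¹ with hs
  have hss : s * s * N = 1 := by
    have h1 : Real.sqrt N * Real.sqrt N = N := Real.mul_self_sqrt hpos.le
    have h2 : Real.sqrt N ≠ 0 := (Real.sqrt_pos.2 hpos).ne'
    rw [hs]
    nth_rewrite 3 [← h1]
    field_simp
  have key : (s : ℂ) * s * (star (u 0) * u 0 + star (u 1) * u 1) = 1 := by
    have h1 : star (u 0) * u 0 + star (u 1) * u 1 = ((N : ℝ) : ℂ) := by
      rw [hN, Complex.ofReal_add, Complex.normSq_eq_conj_mul_self,
        Complex.normSq_eq_conj_mul_self]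
      rfl
    rw [h1, ← Complex.ofReal_mul, ← Complex.ofReal_mul, hss, Complex.ofReal_one]
  refine ⟨!![(s : ℂ) * star (u 1), -((s : ℂ) * star (u 0)); (s : ℂ) * u 0, (s : ℂ) * u 1], ?_, ?_⟩
  · ext i j
    fin_cases i <;> fin_cases j <;>
      simp [Matrix.mul_apply, Fin.sum_univ_two, Matrix.conjTranspose_apply] <;>
      simp only [Complex.star_def] at key
    · linear_combination key
    · ring
    · ring
    · linear_combination key
  · intro j
    have h1 := congrFun huR j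
    simp only [Matrix.vecMul, dotProduct, Fin.sum_univ_two, Pi.zero_apply] at h1
    simp only [Matrix.mul_apply, Fin.sum_univ_two, Matrix.of_apply, Matrix.cons_val]
    linear_combination (s : ℂ) * h1

theorem two_by_two_conj (K σ : Matrix (Fin 2) (Fin 2) ℂ) (i j : Fin 2) :
    (K * σ * Kᴴ) i j = ∑ k, ∑ l, K i k * σ k l * star (K j l) := by
  rw [Matrix.mul_apply]
  simp only [Matrix.mul_apply, Matrix.conjTranspose_apply, Fin.sum_univ_two]
  ring

theorem redA_posSemidef {ρ : Matrix (Fin 2 × β) (Fin 2 × β) ℂ} (hρ : ρ.PosSemidef) :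
    (redA ρ).PosSemidef := by
  have h : redA ρ = ∑ b, ρ.submatrix (fun i => (i, b)) (fun i => (i, b)) := by
    ext i j
    rw [Matrix.sum_apply]
    rfl
  rw [h]
  exact Matrix.posSemidef_sum _ fun b _ => hρ.submatrix _

theorem redA_trace (ρ : Matrix (Fin 2 × β) (Fin 2 × β) ℂ) : (redA ρ).trace = ρ.trace := by
  rw [Matrix.trace, Matrix.trace, Fintype.sum_prod_type]
  rfl

/-- The inequality for two Kraus operators, one of rank at most one. -/
theorem ent_tk {K R : Matrix (Fin 2) (Fin 2) ℂ} (hKR : Kᴴ * K + Rᴴ * R = 1) (hR : R.det = 0)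
    {ρ : Matrix (Fin 2 × β) (Fin 2 × β) ℂ} (hρ : ρ.PosSemidef) (htr : ρ.trace = 1) :
    ∃ w : Fin 3 → Fin 2 → ℂ,
      (∀ i j, ∑ l, w l i * star (w l j) = if i = j then 1 else 0) ∧
      ent2 ((K * redA ρ * Kᴴ + R * redA ρ * Rᴴ).det.re -
        Complex.normSq K.det * (redA ρ).det.re) + ∑ l, cent (slice (w l) ρ) ≤
        ent (tk K R ρ) := by
  obtain ⟨V, hV, hVR⟩ := exists_rotation hR
  have hV' : V * Vᴴ = 1 := mul_eq_one_comm.1 hV
  set K' := V * K with hK'
  set R' := V * R with hR'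
  have hKR' : K'ᴴ * K' + R'ᴴ * R' = 1 := by
    rw [hK', hR', Matrix.conjTranspose_mul, Matrix.conjTranspose_mul, Matrix.mul_assoc,
      ← Matrix.mul_assoc Vᴴ, hV, Matrix.one_mul, Matrix.mul_assoc, ← Matrix.mul_assoc Vᴴ, hV,
      Matrix.one_mul, hKR]
  have hcomp : ∀ i j, K' 0 i * star (K' 0 j) + K' 1 i * star (K' 1 j) + R' 0 i * star (R' 0 j) =
      if i = j then 1 else 0 := by
    intro i j
    have h1 := congrFun (congrFun hKR' j) i
    rw [Matrix.add_apply, Matrix.mul_apply, Matrix.mul_apply, Fin.sum_univ_two,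
      Fin.sum_univ_two, hVR i, mul_zero, add_zero, Matrix.one_apply] at h1
    simp only [Matrix.conjTranspose_apply] at h1
    rw [show (if i = j then (1 : ℂ) else 0) = if j = i then 1 else 0 by simp [eq_comm], ← h1]
    ring
  refine ⟨![K' 0, K' 1, R' 0], ?_, ?_⟩
  · intro i j
    rw [Fin.sum_univ_three, ← hcomp i j]
    rfl
  · have e1 : ent (tk K R ρ) = ent (tk K' R' ρ) := (ent_tk_unitary K R hV hρ).symm
    have hσ := redA_posSemidef hρ
    set σ := redA ρ with hσdef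
    have xa : (slice (K' 0) ρ).trace = (K' * σ * K'ᴴ) 0 0 := by
      rw [slice_trace, two_by_two_conj]
    have xb : (slice (K' 1) ρ).trace = (K' * σ * K'ᴴ) 1 1 := by
      rw [slice_trace, two_by_two_conj]
    have xc : (slice (R' 0) ρ).trace = (R' * σ * R'ᴴ) 0 0 := by
      rw [slice_trace, two_by_two_conj]
    have hR01 : (R' * σ * R'ᴴ) 0 1 = 0 := by
      rw [two_by_two_conj]; simp [hVR]
    have hR10 : (R' * σ * R'ᴴ) 1 0 = 0 := by
      rw [two_by_two_conj]; simp [hVR]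
    have hR11 : (R' * σ * R'ᴴ) 1 1 = 0 := by
      rw [two_by_two_conj]; simp [hVR]
    have htr1 : (slice (K' 0) ρ).trace + (slice (K' 1) ρ).trace + (slice (R' 0) ρ).trace = 1 := by
      have h1 : (K' * σ * K'ᴴ + R' * σ * R'ᴴ).trace = 1 := by
        have t1 : (K' * σ * K'ᴴ).trace = (K'ᴴ * K' * σ).trace := by
          rw [Matrix.trace_mul_comm (K' * σ) K'ᴴ, ← Matrix.mul_assoc K'ᴴ K' σ]
        have t2 : (R' * σ * R'ᴴ).trace = (R'ᴴ * R' * σ).trace := by
          rw [Matrix.trace_mul_comm (R' * σ) R'ᴴ, ← Matrix.mul_assoc R'ᴴ R' σ]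
        rw [Matrix.trace_add, t1, t2, ← Matrix.trace_add, ← Matrix.add_mul, hKR',
          Matrix.one_mul, hσdef, redA_trace, htr]
      rw [Matrix.trace_fin_two, Matrix.add_apply, Matrix.add_apply, hR11, add_zero] at h1
      rw [xa, xb, xc, ← h1]
      ring
    have htr2 : (slice (K' 0) ρ).trace.re + (slice (K' 1) ρ).trace.re +
        (slice (R' 0) ρ).trace.re = 1 := by
      have := congrArg Complex.re htr1
      simpa using this
    have h2 := ent_tk_rank_one hVR hρ htr2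
    rw [e1, Fin.sum_univ_three]
    -- the determinant identity
    have hdetV : V.det * (Vᴴ).det = 1 := by rw [← Matrix.det_mul, hV', Matrix.det_one]
    have d1 : (K' * σ * K'ᴴ + R' * σ * R'ᴴ).det = (K * σ * Kᴴ + R * σ * Rᴴ).det := by
      have : K' * σ * K'ᴴ + R' * σ * R'ᴴ = V * (K * σ * Kᴴ + R * σ * Rᴴ) * Vᴴ := by
        rw [hK', hR', Matrix.conjTranspose_mul, Matrix.conjTranspose_mul]
        simp only [Matrix.mul_add, Matrix.add_mul, Matrix.mul_assoc]
      rw [this, Matrix.det_mul, Matrix.det_mul, mul_right_comm, hdetV, one_mul]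
    have d2 : (K' * σ * K'ᴴ).det = ((Complex.normSq K.det : ℝ) : ℂ) * σ.det := by
      have : K' * σ * K'ᴴ = V * (K * σ * Kᴴ) * Vᴴ := by
        rw [hK', Matrix.conjTranspose_mul]
        simp only [Matrix.mul_assoc]
      rw [this, Matrix.det_mul, Matrix.det_mul, mul_right_comm, hdetV, one_mul,
        Matrix.det_mul, Matrix.det_mul, Matrix.det_conjTranspose,
        Complex.normSq_eq_conj_mul_self]
      simp only [Complex.star_def]
      ring
    have d3 : (K' * σ * K'ᴴ + R' * σ * R'ᴴ).det =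
        (slice (K' 1) ρ).trace * (slice (R' 0) ρ).trace + (K' * σ * K'ᴴ).det := by
      rw [Matrix.det_fin_two, Matrix.det_fin_two, Matrix.add_apply, Matrix.add_apply,
        Matrix.add_apply, Matrix.add_apply, hR01, hR10, hR11, xb, xc]
      ring
    have rb := (Complex.nonneg_iff.1 (slice_posSemidef (K' 1) hρ).trace_nonneg).2
    have rc := (Complex.nonneg_iff.1 (slice_posSemidef (R' 0) hρ).trace_nonneg).2
    have d4 : (K * σ * Kᴴ + R * σ * Rᴴ).det.re - Complex.normSq K.det * σ.det.re =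
        (slice (K' 1) ρ).trace.re * (slice (R' 0) ρ).trace.re := by
      rw [← d1, d3, d2, Complex.add_re, Complex.re_ofReal_mul, Complex.mul_re, ← rb, ← rc]
      ring
    rw [d4]
    exact h2

end

end Vale.Agent.P358
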